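import Mathlib

namespace Vale.Agent.Lib.P243

/-- Algebraic core of the planar two-direction lemma (normalised quadrilateral). -/
theorem alg_core (l r b t xb Xb Xt yb Yl Yr : ℝ)
    (hl0 : 0 < l) (hl1 : l < 1) (hr0 : 0 < r) (hr1 : r < 1)
    (hb0 : 0 < b) (hb1 : b < 1) (ht0 : 0 < t) (ht1 : t < 1)
    (h1 : b * l ≤ l * Xb + b * Yl)
    (h2 : (1 - b) * r ≤ r * (xb - Xb) + (1 - b) * Yr)
    (h3 : (1 - t) * (1 - r) ≤ (1 - r) * (xb - Xt) + (1 - t) * (yb - Yr))
    (h4 : t * (1 - l) ≤ (1 - l) * Xt + t * (yb - Yl))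
    (h5 : l ≤ r → (r - l) ≤ (r - l) * xb + (Yr - Yl))
    (h5' : r ≤ l → (l - r) ≤ (l - r) * xb + (Yl - Yr))
    (h6 : b ≤ t → (t - b) ≤ (Xt - Xb) + (t - b) * yb)
    (h6' : t ≤ b → (b - t) ≤ (Xb - Xt) + (b - t) * yb) :
    1 ≤ xb + yb := by
  have hDu : 0 < b * r + (1 - b) * l := by nlinarith
  have hDv : 0 < t * (1 - r) + (1 - t) * (1 - l) := by nlinarith
  have hDu' : 0 < l * t + (1 - l) * b := by nlinarith
  have hDv' : 0 < r * (1 - t) + (1 - r) * (1 - b) := by nlinarith
  have e1 : 0 ≤ l * Xb + b * Yl - b * l := by linarith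
  have e2 : 0 ≤ r * (xb - Xb) + (1 - b) * Yr - (1 - b) * r := by linarith
  have e3 : 0 ≤ (1 - r) * (xb - Xt) + (1 - t) * (yb - Yr) - (1 - t) * (1 - r) := by linarith
  have e4 : 0 ≤ (1 - l) * Xt + t * (yb - Yl) - t * (1 - l) := by linarith
  by_cases hD1 : (l ≤ r ∧ 0 ≤ b * (r - l) * (1 - t) - l * (t - b) * (1 - r)) ∨
      (r ≤ l ∧ b * (r - l) * (1 - t) - l * (t - b) * (1 - r) ≤ 0)
  · have e5 : 0 ≤ (b * (r - l) * (1 - t) - l * (t - b) * (1 - r)) *
        ((r - l) * (xb - 1) + (Yr - Yl)) := by
      rcases hD1 with ⟨hlr, hΔ⟩ | ⟨hlr, hΔ⟩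
      · have := h5 hlr
        exact mul_nonneg hΔ (by linarith)
      · have := h5' hlr
        have h' : 0 ≤ -(b * (r - l) * (1 - t) - l * (t - b) * (1 - r)) := by linarith
        have h'' : 0 ≤ -((r - l) * (xb - 1) + (Yr - Yl)) := by linarith
        nlinarith [mul_nonneg h' h'']
    have key : (b * r + (1 - b) * l) * (t * (1 - r) + (1 - t) * (1 - l)) * (xb + yb - 1)
        = (r * (t * (1 - r) + (1 - t) * (1 - l))) * (l * Xb + b * Yl - b * l)
        + (l * (t * (1 - r) + (1 - t) * (1 - l))) * (r * (xb - Xb) + (1 - b) * Yr - (1 - b) * r)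
        + ((1 - l) * (b * r + (1 - b) * l)) *
            ((1 - r) * (xb - Xt) + (1 - t) * (yb - Yr) - (1 - t) * (1 - r))
        + ((1 - r) * (b * r + (1 - b) * l)) * ((1 - l) * Xt + t * (yb - Yl) - t * (1 - l))
        + (b * (r - l) * (1 - t) - l * (t - b) * (1 - r)) *
            ((r - l) * (xb - 1) + (Yr - Yl)) := by ring
    have hpos : 0 ≤ (b * r + (1 - b) * l) * (t * (1 - r) + (1 - t) * (1 - l)) * (xb + yb - 1) := by
      rw [key]
      have c1 : 0 ≤ r * (t * (1 - r) + (1 - t) * (1 - l)) := by positivity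
      have c2 : 0 ≤ l * (t * (1 - r) + (1 - t) * (1 - l)) := by positivity
      have c3 : 0 ≤ (1 - l) * (b * r + (1 - b) * l) := by
        have : 0 ≤ 1 - l := by linarith
        positivity
      have c4 : 0 ≤ (1 - r) * (b * r + (1 - b) * l) := by
        have : 0 ≤ 1 - r := by linarith
        positivity
      have := mul_nonneg c1 e1
      have := mul_nonneg c2 e2
      have := mul_nonneg c3 e3
      have := mul_nonneg c4 e4
      linarith
    have hpos2 : 0 < (b * r + (1 - b) * l) * (t * (1 - r) + (1 - t) * (1 - l)) := by positivity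
    by_contra hcon
    push Not at hcon
    have : (b * r + (1 - b) * l) * (t * (1 - r) + (1 - t) * (1 - l)) * (xb + yb - 1) < 0 :=
      mul_neg_of_pos_of_neg hpos2 (by linarith)
    linarith
  · push Not at hD1
    obtain ⟨hA, hB⟩ := hD1
    -- second certificate (roles of the two axes exchanged)
    have e6 : 0 ≤ (l * (t - b) * (1 - r) - b * (r - l) * (1 - t)) *
        ((t - b) * (yb - 1) + (Xt - Xb)) := by
      rcases le_total l r with hlr | hlr
      · have hΔ := hA hlr
        rcases le_total b t with hbt | hbt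
        · have := h6 hbt
          exact mul_nonneg (by linarith) (by linarith)
        · exfalso
          have h1' : 0 ≤ b * (r - l) * (1 - t) := by
            have : 0 ≤ r - l := by linarith
            have : 0 ≤ 1 - t := by linarith
            positivity
          have h2' : 0 ≤ l * (b - t) * (1 - r) := by
            have : 0 ≤ b - t := by linarith
            have : 0 ≤ 1 - r := by linarith
            positivity
          nlinarith
      · have hΔ := hB hlr
        rcases le_total b t with hbt | hbt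
        · exfalso
          have h1' : 0 ≤ b * (l - r) * (1 - t) := by
            have : 0 ≤ l - r := by linarith
            have : 0 ≤ 1 - t := by linarith
            positivity
          have h2' : 0 ≤ l * (t - b) * (1 - r) := by
            have : 0 ≤ t - b := by linarith
            have : 0 ≤ 1 - r := by linarith
            positivity
          nlinarith
        · have := h6' hbt
          have h' : 0 ≤ -(l * (t - b) * (1 - r) - b * (r - l) * (1 - t)) := by linarith
          have h'' : 0 ≤ -((t - b) * (yb - 1) + (Xt - Xb)) := by linarith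
          nlinarith [mul_nonneg h' h'']
    have key : (l * t + (1 - l) * b) * (r * (1 - t) + (1 - r) * (1 - b)) * (xb + yb - 1)
        = (t * (r * (1 - t) + (1 - r) * (1 - b))) * (l * Xb + b * Yl - b * l)
        + (b * (r * (1 - t) + (1 - r) * (1 - b))) * ((1 - l) * Xt + t * (yb - Yl) - t * (1 - l))
        + ((1 - b) * (l * t + (1 - l) * b)) *
            ((1 - r) * (xb - Xt) + (1 - t) * (yb - Yr) - (1 - t) * (1 - r))
        + ((1 - t) * (l * t + (1 - l) * b)) * (r * (xb - Xb) + (1 - b) * Yr - (1 - b) * r)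
        + (l * (t - b) * (1 - r) - b * (r - l) * (1 - t)) *
            ((t - b) * (yb - 1) + (Xt - Xb)) := by ring
    have hpos : 0 ≤ (l * t + (1 - l) * b) * (r * (1 - t) + (1 - r) * (1 - b)) * (xb + yb - 1) := by
      rw [key]
      have c1 : 0 ≤ t * (r * (1 - t) + (1 - r) * (1 - b)) := by positivity
      have c2 : 0 ≤ b * (r * (1 - t) + (1 - r) * (1 - b)) := by positivity
      have c3 : 0 ≤ (1 - b) * (l * t + (1 - l) * b) := by
        have : 0 ≤ 1 - b := by linarith
        positivity
      have c4 : 0 ≤ (1 - t) * (l * t + (1 - l) * b) := by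
        have : 0 ≤ 1 - t := by linarith
        positivity
      have := mul_nonneg c1 e1
      have := mul_nonneg c2 e4
      have := mul_nonneg c3 e3
      have := mul_nonneg c4 e2
      linarith
    have hpos2 : 0 < (l * t + (1 - l) * b) * (r * (1 - t) + (1 - r) * (1 - b)) := by positivity
    by_contra hcon
    push Not at hcon
    have : (l * t + (1 - l) * b) * (r * (1 - t) + (1 - r) * (1 - b)) * (xb + yb - 1) < 0 :=
      mul_neg_of_pos_of_neg hpos2 (by linarith)
    linarith

end Vale.Agent.Lib.P243
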