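import Mathlib
import Vale.Agent.Lib.P243.helper23.CalcCore

open MeasureTheory Measure Set
open scoped ENNReal NNReal Pointwise

namespace Vale.Agent.Lib.P243

/-- The standard simplex `x ≥ 0`, `x₁ + x₂ + x₃ ≤ 1` in coordinate space. -/
def stdTet : Set (ℝ × ℝ × ℝ) :=
  {x | 0 ≤ x.1 ∧ 0 ≤ x.2.1 ∧ 0 ≤ x.2.2 ∧ x.1 + x.2.1 + x.2.2 ≤ 1}

/-- The central octahedron of the standard simplex: all four barycentric coordinates at most
one half. -/
def stdOct : Set (ℝ × ℝ × ℝ) :=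
  {x | (0 ≤ x.1 ∧ x.1 ≤ 1 / 2) ∧ (0 ≤ x.2.1 ∧ x.2.1 ≤ 1 / 2) ∧ (0 ≤ x.2.2 ∧ x.2.2 ≤ 1 / 2) ∧
    1 / 2 ≤ x.1 + x.2.1 + x.2.2 ∧ x.1 + x.2.1 + x.2.2 ≤ 1}

/-- The standard triangle in the coordinate plane. -/
def stdTri : Set (ℝ × ℝ) := {y | 0 ≤ y.1 ∧ 0 ≤ y.2 ∧ y.1 + y.2 ≤ 1}

theorem isClosed_stdTet : IsClosed stdTet := by
  have h1 : IsClosed {x : ℝ × ℝ × ℝ | 0 ≤ x.1} := isClosed_le continuous_const (by fun_prop)
  have h2 : IsClosed {x : ℝ × ℝ × ℝ | 0 ≤ x.2.1} := isClosed_le continuous_const (by fun_prop)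
  have h3 : IsClosed {x : ℝ × ℝ × ℝ | 0 ≤ x.2.2} := isClosed_le continuous_const (by fun_prop)
  have h4 : IsClosed {x : ℝ × ℝ × ℝ | x.1 + x.2.1 + x.2.2 ≤ 1} :=
    isClosed_le (by fun_prop) continuous_const
  exact h1.inter (h2.inter (h3.inter h4))

theorem isClosed_stdOct : IsClosed stdOct := by
  have h1 : IsClosed {x : ℝ × ℝ × ℝ | 0 ≤ x.1} := isClosed_le continuous_const (by fun_prop)
  have h2 : IsClosed {x : ℝ × ℝ × ℝ | 0 ≤ x.2.1} := isClosed_le continuous_const (by fun_prop)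
  have h3 : IsClosed {x : ℝ × ℝ × ℝ | 0 ≤ x.2.2} := isClosed_le continuous_const (by fun_prop)
  have h1' : IsClosed {x : ℝ × ℝ × ℝ | x.1 ≤ 1 / 2} := isClosed_le (by fun_prop) continuous_const
  have h2' : IsClosed {x : ℝ × ℝ × ℝ | x.2.1 ≤ 1 / 2} :=
    isClosed_le (by fun_prop) continuous_const
  have h3' : IsClosed {x : ℝ × ℝ × ℝ | x.2.2 ≤ 1 / 2} :=
    isClosed_le (by fun_prop) continuous_const
  have h4 : IsClosed {x : ℝ × ℝ × ℝ | 1 / 2 ≤ x.1 + x.2.1 + x.2.2} :=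
    isClosed_le continuous_const (by fun_prop)
  have h5 : IsClosed {x : ℝ × ℝ × ℝ | x.1 + x.2.1 + x.2.2 ≤ 1} :=
    isClosed_le (by fun_prop) continuous_const
  exact (h1.inter h1').inter ((h2.inter h2').inter ((h3.inter h3').inter (h4.inter h5)))

theorem isClosed_stdTri : IsClosed stdTri := by
  have h1 : IsClosed {y : ℝ × ℝ | 0 ≤ y.1} := isClosed_le continuous_const (by fun_prop)
  have h2 : IsClosed {y : ℝ × ℝ | 0 ≤ y.2} := isClosed_le continuous_const (by fun_prop)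
  have h3 : IsClosed {y : ℝ × ℝ | y.1 + y.2 ≤ 1} := isClosed_le (by fun_prop) continuous_const
  exact h1.inter (h2.inter h3)

theorem stdOct_subset_stdTet : stdOct ⊆ stdTet := by
  rintro x ⟨⟨h1, -⟩, ⟨h2, -⟩, ⟨h3, -⟩, -, h5⟩
  exact ⟨h1, h2, h3, h5⟩

theorem snd_image_stdTet : Prod.snd '' stdTet = stdTri := by
  ext y
  constructor
  · rintro ⟨x, ⟨h1, h2, h3, h4⟩, rfl⟩
    exact ⟨h2, h3, by linarith⟩
  · rintro ⟨h1, h2, h3⟩
    exact ⟨(0, y), ⟨le_refl _, h1, h2, by simpa using h3⟩, rfl⟩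

theorem stdTet_subset_Icc : stdTet ⊆ Icc (0 : ℝ) 1 ×ˢ (Icc (0 : ℝ) 1 ×ˢ Icc (0 : ℝ) 1) := by
  rintro ⟨a, b, c⟩ ⟨h1, h2, h3, h4⟩
  simp only [mem_prod, mem_Icc] at *
  refine ⟨⟨h1, by linarith⟩, ⟨h2, by linarith⟩, ⟨h3, by linarith⟩⟩

theorem volume_stdTet_lt_top : volume stdTet < ⊤ := by
  refine lt_of_le_of_lt (measure_mono stdTet_subset_Icc) ?_
  rw [Measure.volume_eq_prod, Measure.prod_prod, Measure.volume_eq_prod, Measure.prod_prod,
    Real.volume_Icc]
  simp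

theorem stdTri_subset_Icc : stdTri ⊆ Icc (0 : ℝ) 1 ×ˢ Icc (0 : ℝ) 1 := by
  rintro ⟨a, b⟩ ⟨h1, h2, h3⟩
  simp only [mem_prod, mem_Icc] at *
  exact ⟨⟨h1, by linarith⟩, ⟨h2, by linarith⟩⟩

theorem volume_stdTri_lt_top : volume stdTri < ⊤ := by
  refine lt_of_le_of_lt (measure_mono stdTri_subset_Icc) ?_
  rw [Measure.volume_eq_prod, Measure.prod_prod, Real.volume_Icc]
  simp

theorem volume_stdTri_pos : 0 < volume stdTri := by
  have hsub : Icc (0 : ℝ) (1 / 2) ×ˢ Icc (0 : ℝ) (1 / 2) ⊆ stdTri := by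
    rintro ⟨a, b⟩ h
    simp only [mem_prod, mem_Icc] at h
    exact ⟨h.1.1, h.2.1, by show a + b ≤ 1; linarith [h.1.2, h.2.2]⟩
  refine lt_of_lt_of_le ?_ (measure_mono hsub)
  rw [Measure.volume_eq_prod, Measure.prod_prod, Real.volume_Icc]
  simp

/-- Fibre count: every line parallel to the first axis meets the simplex and its central
octahedron in total length at most one. -/
theorem fibre_bound {B : Set (ℝ × ℝ)} (hB : MeasurableSet B) :
    volume (stdTet ∩ Prod.snd ⁻¹' B) + volume (stdOct ∩ Prod.snd ⁻¹' B) ≤ volume B := by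
  have hm1 : MeasurableSet (stdTet ∩ Prod.snd ⁻¹' B) :=
    isClosed_stdTet.measurableSet.inter (measurable_snd hB)
  have hm2 : MeasurableSet (stdOct ∩ Prod.snd ⁻¹' B) :=
    isClosed_stdOct.measurableSet.inter (measurable_snd hB)
  rw [Measure.volume_eq_prod, Measure.prod_apply_symm hm1, Measure.prod_apply_symm hm2,
    ← lintegral_add_left (measurable_measure_prodMk_right hm1), ← lintegral_indicator_one hB]
  refine lintegral_mono (fun y => ?_)
  by_cases hy : y ∈ B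
  · rw [indicator_of_mem hy]
    simp only [Pi.one_apply]
    by_cases hs : y.1 + y.2 ≤ 1 / 2
    · have h1 : (fun x : ℝ => (x, y)) ⁻¹' (stdTet ∩ Prod.snd ⁻¹' B) ⊆ Icc 0 (1 - (y.1 + y.2)) := by
        rintro x ⟨⟨h1, h2, h3, h4⟩, -⟩
        exact ⟨h1, by simp only at h4; linarith⟩
      have h2 : (fun x : ℝ => (x, y)) ⁻¹' (stdOct ∩ Prod.snd ⁻¹' B)
          ⊆ Icc (1 / 2 - (y.1 + y.2)) (1 / 2) := by
        rintro x ⟨⟨⟨h1, h1'⟩, -, -, h4, h5⟩, -⟩
        exact ⟨by simp only at h4; linarith, h1'⟩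
      by_cases hs0 : 0 ≤ y.1 + y.2
      · calc _ ≤ volume (Icc 0 (1 - (y.1 + y.2))) + volume (Icc (1 / 2 - (y.1 + y.2)) (1 / 2)) :=
              add_le_add (measure_mono h1) (measure_mono h2)
          _ = ENNReal.ofReal (1 - (y.1 + y.2)) + ENNReal.ofReal (y.1 + y.2) := by
              rw [Real.volume_Icc, Real.volume_Icc]; congr 2 <;> ring
          _ = 1 := by
              rw [← ENNReal.ofReal_add (by linarith) hs0]; simp
      · have e1 : (fun x : ℝ => (x, y)) ⁻¹' (stdTet ∩ Prod.snd ⁻¹' B) = ∅ := by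
          ext x
          simp only [mem_preimage, mem_inter_iff, mem_empty_iff_false, iff_false, not_and]
          rintro ⟨h1, h2, h3, h4⟩
          exact absurd (add_nonneg h2 h3) hs0
        have e2 : (fun x : ℝ => (x, y)) ⁻¹' (stdOct ∩ Prod.snd ⁻¹' B) = ∅ := by
          ext x
          simp only [mem_preimage, mem_inter_iff, mem_empty_iff_false, iff_false, not_and]
          rintro ⟨-, ⟨h2, -⟩, ⟨h3, -⟩, -⟩
          exact absurd (add_nonneg h2 h3) hs0
        rw [e1, e2]; simp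
    · push Not at hs
      have h1 : (fun x : ℝ => (x, y)) ⁻¹' (stdTet ∩ Prod.snd ⁻¹' B) ⊆ Icc 0 (1 - (y.1 + y.2)) := by
        rintro x ⟨⟨h1, h2, h3, h4⟩, -⟩
        exact ⟨h1, by simp only at h4; linarith⟩
      have h2 : (fun x : ℝ => (x, y)) ⁻¹' (stdOct ∩ Prod.snd ⁻¹' B)
          ⊆ Icc 0 (1 - (y.1 + y.2)) := by
        rintro x ⟨⟨⟨h1, h1'⟩, -, -, h4, h5⟩, -⟩
        exact ⟨h1, by simp only at h5; linarith⟩
      calc _ ≤ volume (Icc 0 (1 - (y.1 + y.2))) + volume (Icc 0 (1 - (y.1 + y.2))) :=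
            add_le_add (measure_mono h1) (measure_mono h2)
        _ = ENNReal.ofReal (1 - (y.1 + y.2)) + ENNReal.ofReal (1 - (y.1 + y.2)) := by
            rw [Real.volume_Icc]; simp
        _ ≤ ENNReal.ofReal (1 / 2) + ENNReal.ofReal (1 / 2) := by
            gcongr <;> linarith
        _ = 1 := by
            rw [← ENNReal.ofReal_add (by norm_num) (by norm_num)]; norm_num
  · rw [indicator_of_notMem hy]
    have e1 : (fun x : ℝ => (x, y)) ⁻¹' (stdTet ∩ Prod.snd ⁻¹' B) = ∅ := by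
      ext x
      simp only [mem_preimage, mem_inter_iff, mem_empty_iff_false, iff_false, not_and]
      intro _ h
      exact hy h
    have e2 : (fun x : ℝ => (x, y)) ⁻¹' (stdOct ∩ Prod.snd ⁻¹' B) = ∅ := by
      ext x
      simp only [mem_preimage, mem_inter_iff, mem_empty_iff_false, iff_false, not_and]
      intro _ h
      exact hy h
    rw [e1, e2]; simp

theorem haar_volume_R3 : (volume : Measure (ℝ × ℝ × ℝ)).IsAddHaarMeasure := by
  have h : (volume : Measure (ℝ × ℝ × ℝ))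
      = (volume : Measure ℝ).prod (volume : Measure (ℝ × ℝ)) := rfl
  rw [h]; infer_instance

/-- Cone volume: the triangle has at most three times the area that the simplex has volume. -/
theorem tri_le_three_tet : volume stdTri ≤ 3 * volume stdTet := by
  have hm : MeasurableSet stdTet := isClosed_stdTet.measurableSet
  have h1 : volume stdTet = ∫⁻ t, volume (Prod.mk t ⁻¹' stdTet) := by
    rw [Measure.volume_eq_prod, Measure.prod_apply hm]
  have h2 : ∀ t ∈ Ioc (0 : ℝ) 1, ENNReal.ofReal (1 * (1 - 1 * t) ^ 2) * volume stdTri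
      ≤ volume (Prod.mk t ⁻¹' stdTet) := by
    intro t ht
    have h0 : 0 ≤ 1 - t := by linarith [ht.2]
    have hsub : (1 - t) • stdTri ⊆ Prod.mk t ⁻¹' stdTet := by
      rintro y ⟨z, ⟨hz1, hz2, hz3⟩, rfl⟩
      refine ⟨ht.1.le, ?_, ?_, ?_⟩
      · exact mul_nonneg h0 hz1
      · exact mul_nonneg h0 hz2
      · show t + (1 - t) * z.1 + (1 - t) * z.2 ≤ 1
        nlinarith
    calc ENNReal.ofReal (1 * (1 - 1 * t) ^ 2) * volume stdTri
        = volume ((1 - t) • stdTri) := by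
          rw [Measure.addHaar_smul]
          have hf : Module.finrank ℝ (ℝ × ℝ) = 2 := by simp
          rw [hf, abs_of_nonneg (by positivity)]
          congr 2
          ring
      _ ≤ _ := measure_mono hsub
  have h3 : ∫⁻ t in Ioc (0 : ℝ) 1, ENNReal.ofReal (1 * (1 - 1 * t) ^ 2) = ENNReal.ofReal (1 / 3) := by
    rw [helper23.lintegral_line_sq 1 1 0 1 zero_le_one one_ne_zero zero_le_one]
    norm_num
  calc volume stdTri = 3 * (ENNReal.ofReal (1 / 3) * volume stdTri) := by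
        rw [← mul_assoc]
        have : (3 : ℝ≥0∞) * ENNReal.ofReal (1 / 3) = 1 := by
          rw [show (3 : ℝ≥0∞) = ENNReal.ofReal 3 by simp,
            ← ENNReal.ofReal_mul (by norm_num)]
          norm_num
        rw [this, one_mul]
    _ = 3 * ∫⁻ t in Ioc (0 : ℝ) 1, ENNReal.ofReal (1 * (1 - 1 * t) ^ 2) * volume stdTri := by
        rw [lintegral_mul_const _ (by fun_prop), h3]
    _ ≤ 3 * ∫⁻ t in Ioc (0 : ℝ) 1, volume (Prod.mk t ⁻¹' stdTet) := by
        gcongr 3 * ?_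
        exact setLIntegral_mono' measurableSet_Ioc h2
    _ ≤ 3 * ∫⁻ t, volume (Prod.mk t ⁻¹' stdTet) := by
        gcongr 3 * ?_
        exact setLIntegral_le_lintegral _ _
    _ = 3 * volume stdTet := by rw [h1]

theorem volume_stdTet_pos : 0 < volume stdTet := by
  by_contra h
  have h0 : volume stdTet = 0 := le_antisymm (not_lt.1 h) bot_le
  have := tri_le_three_tet
  rw [h0, mul_zero] at this
  exact absurd volume_stdTri_pos (not_lt.2 this)

theorem volume_corner (a : ℝ × ℝ × ℝ) :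
    volume ((fun z => a + z) '' ((1 / 2 : ℝ) • stdTet)) = ENNReal.ofReal (1 / 8) * volume stdTet := by
  have := haar_volume_R3
  rw [image_add_left, measure_preimage_add, Measure.addHaar_smul]
  have hf : Module.finrank ℝ (ℝ × ℝ × ℝ) = 3 := by simp
  rw [hf, abs_of_nonneg (by positivity)]
  norm_num

/-- The central octahedron fills at least half of the simplex. -/
theorem tet_le_two_oct : volume stdTet ≤ 2 * volume stdOct := by
  have hcover : stdTet ⊆ stdOct ∪ ((fun z => ((0 : ℝ), (0 : ℝ), (0 : ℝ)) + z) '' ((1 / 2 : ℝ) • stdTet)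
      ∪ ((fun z => ((1 / 2 : ℝ), (0 : ℝ), (0 : ℝ)) + z) '' ((1 / 2 : ℝ) • stdTet)
      ∪ ((fun z => ((0 : ℝ), (1 / 2 : ℝ), (0 : ℝ)) + z) '' ((1 / 2 : ℝ) • stdTet)
      ∪ (fun z => ((0 : ℝ), (0 : ℝ), (1 / 2 : ℝ)) + z) '' ((1 / 2 : ℝ) • stdTet)))) := by
    rintro ⟨x1, x2, x3⟩ ⟨h1, h2, h3, h4⟩
    simp only at h1 h2 h3 h4
    by_cases c0 : x1 + x2 + x3 < 1 / 2
    · right; left
      refine ⟨(1 / 2 : ℝ) • (2 * x1, 2 * x2, 2 * x3), ⟨_, ⟨?_, ?_, ?_, ?_⟩, rfl⟩, ?_⟩
      · show 0 ≤ 2 * x1; linarith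
      · show 0 ≤ 2 * x2; linarith
      · show 0 ≤ 2 * x3; linarith
      · show 2 * x1 + 2 * x2 + 2 * x3 ≤ 1; linarith
      · ext <;> simp
    by_cases c1 : 1 / 2 < x1
    · right; right; left
      refine ⟨(1 / 2 : ℝ) • (2 * x1 - 1, 2 * x2, 2 * x3), ⟨_, ⟨?_, ?_, ?_, ?_⟩, rfl⟩, ?_⟩
      · show 0 ≤ 2 * x1 - 1; linarith
      · show 0 ≤ 2 * x2; linarith
      · show 0 ≤ 2 * x3; linarith
      · show 2 * x1 - 1 + 2 * x2 + 2 * x3 ≤ 1; linarith
      · ext
        · simp; ring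
        · simp
        · simp
    by_cases c2 : 1 / 2 < x2
    · right; right; right; left
      refine ⟨(1 / 2 : ℝ) • (2 * x1, 2 * x2 - 1, 2 * x3), ⟨_, ⟨?_, ?_, ?_, ?_⟩, rfl⟩, ?_⟩
      · show 0 ≤ 2 * x1; linarith
      · show 0 ≤ 2 * x2 - 1; linarith
      · show 0 ≤ 2 * x3; linarith
      · show 2 * x1 + (2 * x2 - 1) + 2 * x3 ≤ 1; linarith
      · ext
        · simp
        · simp; ring
        · simp
    by_cases c3 : 1 / 2 < x3
    · right; right; right; right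
      refine ⟨(1 / 2 : ℝ) • (2 * x1, 2 * x2, 2 * x3 - 1), ⟨_, ⟨?_, ?_, ?_, ?_⟩, rfl⟩, ?_⟩
      · show 0 ≤ 2 * x1; linarith
      · show 0 ≤ 2 * x2; linarith
      · show 0 ≤ 2 * x3 - 1; linarith
      · show 2 * x1 + 2 * x2 + (2 * x3 - 1) ≤ 1; linarith
      · ext
        · simp
        · simp
        · simp; ring
    left
    push Not at c0 c1 c2 c3
    exact ⟨⟨h1, c1⟩, ⟨h2, c2⟩, ⟨h3, c3⟩, c0, h4⟩
  have hle : volume stdTet ≤ volume stdOct + (ENNReal.ofReal (1 / 8) * volume stdTet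
      + (ENNReal.ofReal (1 / 8) * volume stdTet + (ENNReal.ofReal (1 / 8) * volume stdTet
      + ENNReal.ofReal (1 / 8) * volume stdTet))) := by
    refine (measure_mono hcover).trans ?_
    refine (measure_union_le _ _).trans (add_le_add le_rfl ?_)
    refine (measure_union_le _ _).trans (add_le_add (volume_corner _).le ?_)
    refine (measure_union_le _ _).trans (add_le_add (volume_corner _).le ?_)
    exact (measure_union_le _ _).trans (add_le_add (volume_corner _).le (volume_corner _).le)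
  have hv : volume stdTet ≠ ⊤ := volume_stdTet_lt_top.ne
  have ho : volume stdOct ≠ ⊤ :=
    ((measure_mono stdOct_subset_stdTet).trans_lt volume_stdTet_lt_top).ne
  have hr := ENNReal.toReal_mono (by
    simp only [ne_eq, ENNReal.add_eq_top, ENNReal.mul_eq_top, not_or]
    simp [hv, ho]) hle
  rw [ENNReal.toReal_add ho (by simp [ENNReal.mul_eq_top, hv]),
    ENNReal.toReal_add (by simp [ENNReal.mul_eq_top, hv]) (by simp [ENNReal.mul_eq_top, hv]),
    ENNReal.toReal_add (by simp [ENNReal.mul_eq_top, hv]) (by simp [ENNReal.mul_eq_top, hv]),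
    ENNReal.toReal_add (by simp [ENNReal.mul_eq_top, hv]) (by simp [ENNReal.mul_eq_top, hv]),
    ENNReal.toReal_mul, ENNReal.toReal_ofReal (by norm_num)] at hr
  rw [← ENNReal.toReal_le_toReal hv (by simp [ENNReal.mul_eq_top, ho]), ENNReal.toReal_mul]
  simp only [ENNReal.toReal_ofNat]
  linarith

end Vale.Agent.Lib.P243
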