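import Mathlib

open MeasureTheory Measure Set
open scoped ENNReal NNReal

namespace Vale.Agent.Lib.P243

/-- An injective linear parametrisation of a plane in a Euclidean space scales planar area
(two-dimensional Euclidean Hausdorff measure) by a positive finite constant. -/
theorem exists_area_const {E : Type*} [NormedAddCommGroup E] [InnerProductSpace ℝ E]
    [FiniteDimensional ℝ E] [MeasurableSpace E] [BorelSpace E]
    (L : (ℝ × ℝ) →ₗ[ℝ] E) (hL : Function.Injective L) :
    ∃ c : ℝ≥0∞, c ≠ 0 ∧ c ≠ ⊤ ∧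
      ∀ S : Set (ℝ × ℝ), MeasurableSet S → (μHE[2] : Measure E) (L '' S) = c * volume S := by
  have hker : LinearMap.ker L = ⊥ := LinearMap.ker_eq_bot.2 hL
  have hcl : Topology.IsClosedEmbedding L := LinearMap.isClosedEmbedding_of_injective hker
  have hemb : MeasurableEmbedding L := hcl.measurableEmbedding
  set ν : Measure (ℝ × ℝ) := Measure.comap L (μHE[2] : Measure E) with hν
  have hνapp : ∀ S : Set (ℝ × ℝ), ν S = (μHE[2] : Measure E) (L '' S) :=
    fun S => hemb.comap_apply _ S
  have hinv : ν.IsAddLeftInvariant := by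
    constructor
    intro g
    ext s hs
    rw [map_apply (measurable_const_add g) hs, hνapp, hνapp]
    have e : L '' ((fun x => g + x) ⁻¹' s) = (fun x => L g + x) ⁻¹' (L '' s) := by
      ext x
      constructor
      · rintro ⟨y, hy, rfl⟩
        exact ⟨g + y, hy, by simp⟩
      · rintro ⟨z, hz, hzx⟩
        refine ⟨z - g, ?_, ?_⟩
        · show g + (z - g) ∈ s
          simpa using hz
        · rw [map_sub, hzx]; simp
    rw [e, measure_preimage_add]
  obtain ⟨Klip, hKlip⟩ : ∃ Kl : ℝ≥0, LipschitzWith Kl L :=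
    ⟨_, (LinearMap.toContinuousLinearMap L).lipschitz⟩
  obtain ⟨Ka, -, hKa⟩ := L.exists_antilipschitzWith hker
  have hH : (μH[2] : Measure (ℝ × ℝ)) = volume := hausdorffMeasure_prod_real
  set c₀ : ℝ≥0 := addHaarScalarFactor (volume : Measure (EuclideanSpace ℝ (Fin 2))) μH[(2 : ℕ)]
    with hc₀
  have hc₀ne : c₀ ≠ 0 := addHaarScalarFactor_volume_hausdorffMeasure_ne_zero 2
  have hμ : ∀ T : Set E, (μHE[2] : Measure E) T = c₀ * (μH[2] : Measure E) T := by
    intro T
    rw [euclideanHausdorffMeasure_def, Measure.smul_apply]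
    simp [hc₀, ENNReal.smul_def]
  have hfin : IsFiniteMeasureOnCompacts ν := by
    constructor
    intro S hS
    rw [hνapp, hμ]
    have h1 := hKlip.hausdorffMeasure_image_le (d := 2) (by norm_num) S
    rw [hH] at h1
    have h2 : (Klip : ℝ≥0∞) ^ (2 : ℝ) * volume S < ⊤ :=
      ENNReal.mul_lt_top (ENNReal.rpow_lt_top_of_nonneg (by norm_num) ENNReal.coe_ne_top)
        hS.measure_lt_top
    exact ENNReal.mul_lt_top ENNReal.coe_lt_top (h1.trans_lt h2)
  have huniq : ν = addHaarScalarFactor ν volume • (volume : Measure (ℝ × ℝ)) :=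
    isAddLeftInvariant_eq_smul ν volume
  refine ⟨(addHaarScalarFactor ν volume : ℝ≥0∞), ?_, ENNReal.coe_ne_top, ?_⟩
  · intro h0
    have hν0 : ν (Icc 0 1 ×ˢ Icc 0 1) = 0 := by
      rw [huniq, Measure.smul_apply]
      simp [ENNReal.smul_def, h0]
    rw [hνapp, hμ] at hν0
    have h3 : (μH[2] : Measure E) (L '' (Icc 0 1 ×ˢ Icc 0 1)) = 0 := by
      rcases mul_eq_zero.1 hν0 with h | h
      · exact absurd (by exact_mod_cast h) hc₀ne
      · exact h
    have h4 := hKa.le_hausdorffMeasure_image (d := 2) (by norm_num) (Icc (0:ℝ) 1 ×ˢ Icc (0:ℝ) 1)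
    rw [h3, mul_zero, hH, Measure.volume_eq_prod, Measure.prod_prod, Real.volume_Icc] at h4
    simp at h4
  · intro S _
    rw [← hνapp]
    conv_lhs => rw [huniq]
    rw [Measure.smul_apply]
    simp [ENNReal.smul_def]

end Vale.Agent.Lib.P243
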