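import Mathlib
import Vale.Agent.Lib.P243.Alg

open MeasureTheory Set

namespace Vale.Agent.Lib.P243

/-- A measurable function with values in `[0,1]` is interval integrable. -/
theorem ii_of_unit {f : ℝ → ℝ} (hf : Measurable f) (hf0 : ∀ x, 0 ≤ f x) (hf1 : ∀ x, f x ≤ 1)
    (a b : ℝ) : IntervalIntegrable f volume a b := by
  rw [intervalIntegrable_iff]
  refine Measure.integrableOn_of_bounded (M := 1) ?_ hf.aestronglyMeasurable ?_
  · exact (measure_mono uIoc_subset_uIcc).trans_lt (isCompact_uIcc.measure_lt_top) |>.ne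
  · exact Filter.Eventually.of_forall fun x => by
      rw [Real.norm_eq_abs, abs_of_nonneg (hf0 x)]; exact hf1 x

/-- Unnormalised version of the algebraic core. -/
theorem alg_unnorm (W H l r b t xb Xb Xt yb Yl Yr : ℝ) (hW : 0 < W) (hH : 0 < H)
    (hl0 : 0 < l) (hl1 : l < H) (hr0 : 0 < r) (hr1 : r < H)
    (hb0 : 0 < b) (hb1 : b < W) (ht0 : 0 < t) (ht1 : t < W)
    (h1 : b * l ≤ l * Xb + b * Yl)
    (h2 : (W - b) * r ≤ r * (xb - Xb) + (W - b) * Yr)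
    (h3 : (W - t) * (H - r) ≤ (H - r) * (xb - Xt) + (W - t) * (yb - Yr))
    (h4 : t * (H - l) ≤ (H - l) * Xt + t * (yb - Yl))
    (h5 : l ≤ r → W * (r - l) ≤ (r - l) * xb + W * (Yr - Yl))
    (h5' : r ≤ l → W * (l - r) ≤ (l - r) * xb + W * (Yl - Yr))
    (h6 : b ≤ t → (t - b) * H ≤ H * (Xt - Xb) + (t - b) * yb)
    (h6' : t ≤ b → (b - t) * H ≤ H * (Xb - Xt) + (b - t) * yb) :
    W * H ≤ H * xb + W * yb := by
  have hWH : 0 < W * H := mul_pos hW hH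
  have key := alg_core (l / H) (r / H) (b / W) (t / W) (xb / W) (Xb / W) (Xt / W) (yb / H)
    (Yl / H) (Yr / H) (div_pos hl0 hH) ((div_lt_one hH).2 hl1) (div_pos hr0 hH)
    ((div_lt_one hH).2 hr1) (div_pos hb0 hW) ((div_lt_one hW).2 hb1) (div_pos ht0 hW)
    ((div_lt_one hW).2 ht1)
    (by
      have e : l / H * (Xb / W) + b / W * (Yl / H) - b / W * (l / H)
          = (l * Xb + b * Yl - b * l) / (W * H) := by field_simp
      have : 0 ≤ (l * Xb + b * Yl - b * l) / (W * H) := div_nonneg (by linarith) hWH.le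
      linarith)
    (by
      have e : r / H * (xb / W - Xb / W) + (1 - b / W) * (Yr / H) - (1 - b / W) * (r / H)
          = (r * (xb - Xb) + (W - b) * Yr - (W - b) * r) / (W * H) := by field_simp
      have : 0 ≤ (r * (xb - Xb) + (W - b) * Yr - (W - b) * r) / (W * H) :=
        div_nonneg (by linarith) hWH.le
      linarith)
    (by
      have e : (1 - r / H) * (xb / W - Xt / W) + (1 - t / W) * (yb / H - Yr / H)
            - (1 - t / W) * (1 - r / H)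
          = ((H - r) * (xb - Xt) + (W - t) * (yb - Yr) - (W - t) * (H - r)) / (W * H) := by
        field_simp
      have : 0 ≤ ((H - r) * (xb - Xt) + (W - t) * (yb - Yr) - (W - t) * (H - r)) / (W * H) :=
        div_nonneg (by linarith) hWH.le
      linarith)
    (by
      have e : (1 - l / H) * (Xt / W) + t / W * (yb / H - Yl / H) - t / W * (1 - l / H)
          = ((H - l) * Xt + t * (yb - Yl) - t * (H - l)) / (W * H) := by field_simp
      have : 0 ≤ ((H - l) * Xt + t * (yb - Yl) - t * (H - l)) / (W * H) :=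
        div_nonneg (by linarith) hWH.le
      linarith)
    (by
      intro hlr
      have hlr' : l ≤ r := by
        have := (div_le_div_iff_of_pos_right hH).1 hlr
        exact this
      have e : (r / H - l / H) * (xb / W) + (Yr / H - Yl / H) - (r / H - l / H)
          = ((r - l) * xb + W * (Yr - Yl) - W * (r - l)) / (W * H) := by field_simp
      have : 0 ≤ ((r - l) * xb + W * (Yr - Yl) - W * (r - l)) / (W * H) :=
        div_nonneg (by linarith [h5 hlr']) hWH.le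
      linarith)
    (by
      intro hlr
      have hlr' : r ≤ l := (div_le_div_iff_of_pos_right hH).1 hlr
      have e : (l / H - r / H) * (xb / W) + (Yl / H - Yr / H) - (l / H - r / H)
          = ((l - r) * xb + W * (Yl - Yr) - W * (l - r)) / (W * H) := by field_simp
      have : 0 ≤ ((l - r) * xb + W * (Yl - Yr) - W * (l - r)) / (W * H) :=
        div_nonneg (by linarith [h5' hlr']) hWH.le
      linarith)
    (by
      intro hbt
      have hbt' : b ≤ t := (div_le_div_iff_of_pos_right hW).1 hbt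
      have e : (Xt / W - Xb / W) + (t / W - b / W) * (yb / H) - (t / W - b / W)
          = (H * (Xt - Xb) + (t - b) * yb - (t - b) * H) / (W * H) := by field_simp
      have : 0 ≤ (H * (Xt - Xb) + (t - b) * yb - (t - b) * H) / (W * H) :=
        div_nonneg (by linarith [h6 hbt']) hWH.le
      linarith)
    (by
      intro hbt
      have hbt' : t ≤ b := (div_le_div_iff_of_pos_right hW).1 hbt
      have e : (Xb / W - Xt / W) + (b / W - t / W) * (yb / H) - (b / W - t / W)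
          = (H * (Xb - Xt) + (b - t) * yb - (b - t) * H) / (W * H) := by field_simp
      have : 0 ≤ (H * (Xb - Xt) + (b - t) * yb - (b - t) * H) / (W * H) :=
        div_nonneg (by linarith [h6' hbt']) hWH.le
      linarith)
  have e : xb / W + yb / H - 1 = (H * xb + W * yb - W * H) / (W * H) := by field_simp
  have h0 : 0 ≤ (H * xb + W * yb - W * H) / (W * H) := by linarith
  have := (div_nonneg_iff.1 h0)
  rcases this with ⟨h, _⟩ | ⟨_, h⟩
  · linarith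
  · linarith


/-- Segment inequality. -/
theorem seg_ineq {S : Set (ℝ × ℝ)} (hS : Convex ℝ S) {f g : ℝ → ℝ}
    (hf : Measurable f) (hf0 : ∀ x, 0 ≤ f x) (hf1 : ∀ x, f x ≤ 1)
    (hg : Measurable g) (hg0 : ∀ x, 0 ≤ g x) (hg1 : ∀ x, g x ≤ 1)
    (hcov : ∀ p ∈ S, 1 ≤ f p.1 + g p.2)
    {x₁ y₁ x₂ y₂ : ℝ} (h₁ : (x₁, y₁) ∈ S) (h₂ : (x₂, y₂) ∈ S) (hx : x₁ < x₂) (hy : y₁ ≠ y₂) :
    x₂ - x₁ ≤ (∫ x in x₁..x₂, f x) + (x₂ - x₁) / (y₂ - y₁) * ∫ y in y₁..y₂, g y := by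
  set s : ℝ := (y₂ - y₁) / (x₂ - x₁) with hs
  set c : ℝ := y₁ - s * x₁ with hc
  have hx' : 0 < x₂ - x₁ := sub_pos.2 hx
  have hy' : y₂ - y₁ ≠ 0 := sub_ne_zero.2 (Ne.symm hy)
  have hs0 : s ≠ 0 := div_ne_zero hy' hx'.ne'
  have hpt : ∀ x ∈ Icc x₁ x₂, (1:ℝ) ≤ f x + g (s * x + c) := by
    intro x hxm
    set θ : ℝ := (x - x₁) / (x₂ - x₁) with hθ
    have hθ0 : 0 ≤ θ := div_nonneg (sub_nonneg.2 hxm.1) hx'.le
    have hθ1 : θ ≤ 1 := (div_le_one hx').2 (by linarith [hxm.2])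
    have hmem : (1 - θ) • ((x₁, y₁) : ℝ × ℝ) + θ • ((x₂, y₂) : ℝ × ℝ) ∈ S :=
      hS h₁ h₂ (by linarith) hθ0 (by ring)
    have e : (1 - θ) • ((x₁, y₁) : ℝ × ℝ) + θ • ((x₂, y₂) : ℝ × ℝ) = (x, s * x + c) := by
      ext
      · simp only [Prod.smul_mk, smul_eq_mul, Prod.mk_add_mk, hθ]
        field_simp
        ring
      · simp only [Prod.smul_mk, smul_eq_mul, Prod.mk_add_mk, hθ, hs, hc]
        field_simp
        ring
    rw [e] at hmem
    exact hcov _ hmem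
  have hgm : Measurable fun x => g (s * x + c) := hg.comp (by fun_prop)
  have I1 : IntervalIntegrable f volume x₁ x₂ := ii_of_unit hf hf0 hf1 _ _
  have I2 : IntervalIntegrable (fun x => g (s * x + c)) volume x₁ x₂ :=
    ii_of_unit hgm (fun x => hg0 _) (fun x => hg1 _) _ _
  have hmono : (∫ _ in x₁..x₂, (1:ℝ)) ≤ ∫ x in x₁..x₂, (f x + g (s * x + c)) :=
    intervalIntegral.integral_mono_on hx.le intervalIntegrable_const (I1.add I2) hpt
  rw [intervalIntegral.integral_add I1 I2, intervalIntegral.integral_comp_mul_add _ hs0] at hmono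
  have e1 : s * x₁ + c = y₁ := by simp [hc]
  have e2 : s * x₂ + c = y₂ := by
    simp only [hc, hs]
    field_simp
    ring
  rw [e1, e2] at hmono
  simp only [intervalIntegral.integral_const, smul_eq_mul, mul_one] at hmono
  have e3 : s⁻¹ = (x₂ - x₁) / (y₂ - y₁) := by rw [hs, inv_div]
  rw [e3] at hmono
  exact hmono

theorem seg_pos {S : Set (ℝ × ℝ)} (hS : Convex ℝ S) {f g : ℝ → ℝ}
    (hf : Measurable f) (hf0 : ∀ x, 0 ≤ f x) (hf1 : ∀ x, f x ≤ 1)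
    (hg : Measurable g) (hg0 : ∀ x, 0 ≤ g x) (hg1 : ∀ x, g x ≤ 1)
    (hcov : ∀ p ∈ S, 1 ≤ f p.1 + g p.2)
    {x₁ y₁ x₂ y₂ : ℝ} (h₁ : (x₁, y₁) ∈ S) (h₂ : (x₂, y₂) ∈ S) (hx : x₁ < x₂) (hy : y₁ < y₂) :
    (x₂ - x₁) * (y₂ - y₁) ≤
      (y₂ - y₁) * (∫ x in x₁..x₂, f x) + (x₂ - x₁) * ∫ y in y₁..y₂, g y := by
  have h := seg_ineq hS hf hf0 hf1 hg hg0 hg1 hcov h₁ h₂ hx hy.ne
  have hd : 0 < y₂ - y₁ := sub_pos.2 hy
  have h2 := mul_le_mul_of_nonneg_left h hd.le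
  have e : (y₂ - y₁) * ((∫ x in x₁..x₂, f x) + (x₂ - x₁) / (y₂ - y₁) * ∫ y in y₁..y₂, g y)
      = (y₂ - y₁) * (∫ x in x₁..x₂, f x) + (x₂ - x₁) * ∫ y in y₁..y₂, g y := by
    field_simp
  rw [e] at h2
  linarith

theorem seg_neg {S : Set (ℝ × ℝ)} (hS : Convex ℝ S) {f g : ℝ → ℝ}
    (hf : Measurable f) (hf0 : ∀ x, 0 ≤ f x) (hf1 : ∀ x, f x ≤ 1)
    (hg : Measurable g) (hg0 : ∀ x, 0 ≤ g x) (hg1 : ∀ x, g x ≤ 1)
    (hcov : ∀ p ∈ S, 1 ≤ f p.1 + g p.2)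
    {x₁ y₁ x₂ y₂ : ℝ} (h₁ : (x₁, y₁) ∈ S) (h₂ : (x₂, y₂) ∈ S) (hx : x₁ < x₂) (hy : y₂ < y₁) :
    (x₂ - x₁) * (y₁ - y₂) ≤
      (y₁ - y₂) * (∫ x in x₁..x₂, f x) + (x₂ - x₁) * ∫ y in y₂..y₁, g y := by
  have h := seg_ineq hS hf hf0 hf1 hg hg0 hg1 hcov h₁ h₂ hx hy.ne'
  have hd : 0 < y₁ - y₂ := sub_pos.2 hy
  rw [intervalIntegral.integral_symm y₂ y₁] at h
  have h2 := mul_le_mul_of_nonneg_left h hd.le
  have hne : y₂ - y₁ ≠ 0 := by linarith
  have e : (y₁ - y₂) * ((∫ x in x₁..x₂, f x) + (x₂ - x₁) / (y₂ - y₁) * -∫ y in y₂..y₁, g y)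
      = (y₁ - y₂) * (∫ x in x₁..x₂, f x) + (x₂ - x₁) * ∫ y in y₂..y₁, g y := by
    field_simp
    ring
  rw [e] at h2
  linarith

/-- Quadrilateral inequality (non-degenerate inscribed quadrilateral). -/
theorem quad_ineq {S : Set (ℝ × ℝ)} (hS : Convex ℝ S) {f g : ℝ → ℝ}
    (hf : Measurable f) (hf0 : ∀ x, 0 ≤ f x) (hf1 : ∀ x, f x ≤ 1)
    (hg : Measurable g) (hg0 : ∀ x, 0 ≤ g x) (hg1 : ∀ x, g x ≤ 1)
    (hcov : ∀ p ∈ S, 1 ≤ f p.1 + g p.2)
    {xL xR yB yT l r b t : ℝ}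
    (hPL : (xL, l) ∈ S) (hPR : (xR, r) ∈ S) (hPB : (b, yB) ∈ S) (hPT : (t, yT) ∈ S)
    (hLb : xL < b) (hLt : xL < t) (hbR : b < xR) (htR : t < xR)
    (hBl : yB < l) (hBr : yB < r) (hlT : l < yT) (hrT : r < yT) :
    (xR - xL) * (yT - yB) ≤
      (yT - yB) * (∫ x in xL..xR, f x) + (xR - xL) * ∫ y in yB..yT, g y := by
  have iif := ii_of_unit hf hf0 hf1
  have iig := ii_of_unit hg hg0 hg1
  have hGX : ∀ p q, ∫ x in p..q, f x = (∫ x in xL..q, f x) - ∫ x in xL..p, f x := fun p q =>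
    (intervalIntegral.integral_interval_sub_left (iif _ _) (iif _ _)).symm
  have hGY : ∀ p q, ∫ y in p..q, g y = (∫ y in yB..q, g y) - ∫ y in yB..p, g y := fun p q =>
    (intervalIntegral.integral_interval_sub_left (iig _ _) (iig _ _)).symm
  have sp := @seg_pos S hS f g hf hf0 hf1 hg hg0 hg1 hcov
  have sn := @seg_neg S hS f g hf hf0 hf1 hg hg0 hg1 hcov
  refine alg_unnorm (xR - xL) (yT - yB) (l - yB) (r - yB) (b - xL) (t - xL)
    (∫ x in xL..xR, f x) (∫ x in xL..b, f x) (∫ x in xL..t, f x)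
    (∫ y in yB..yT, g y) (∫ y in yB..l, g y) (∫ y in yB..r, g y)
    (by linarith) (by linarith) (by linarith) (by linarith) (by linarith) (by linarith)
    (by linarith) (by linarith) (by linarith) (by linarith) ?_ ?_ ?_ ?_ ?_ ?_ ?_ ?_
  · have := sn hPL hPB hLb hBl
    linarith
  · have := sp hPB hPR hbR hBr
    rw [hGX b xR] at this
    linarith
  · have := sn hPT hPR htR hrT
    rw [hGX t xR, hGY r yT] at this
    linarith
  · have := sp hPL hPT hLt hlT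
    rw [hGY l yT] at this
    linarith
  · intro hlr
    rcases (show l ≤ r by linarith).lt_or_eq with h | h
    · have := sp hPL hPR (by linarith) h
      rw [hGY l r] at this
      linarith
    · subst h
      simp
  · intro hlr
    rcases (show r ≤ l by linarith).lt_or_eq with h | h
    · have := sn hPL hPR (by linarith) h
      rw [hGY r l] at this
      linarith
    · subst h
      simp
  · intro hbt
    rcases (show b ≤ t by linarith).lt_or_eq with h | h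
    · have := sp hPB hPT h (by linarith)
      rw [hGX b t] at this
      linarith
    · subst h
      simp
  · intro hbt
    rcases (show t ≤ b by linarith).lt_or_eq with h | h
    · have := sn hPT hPB h (by linarith)
      rw [hGX t b] at this
      linarith
    · subst h
      simp



theorem planar_aux1 (W H If Ig Wε Hε If' Ig' ε : ℝ) (h1ε : 0 ≤ 1 - ε) (hW : 0 ≤ W) (hH : 0 ≤ H)
    (hWε1 : (1 - ε) * W ≤ Wε) (hWε2 : Wε ≤ W) (hHε1 : (1 - ε) * H ≤ Hε) (hHε2 : Hε ≤ H)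
    (hIf : 0 ≤ If) (hIg : 0 ≤ Ig) (hIf' : If' ≤ If) (hIg' : Ig' ≤ Ig)
    (q : Wε * Hε ≤ Hε * If' + Wε * Ig') :
    (1 - ε) ^ 2 * (W * H) ≤ H * If + W * Ig := by
  have hWε0 : 0 ≤ Wε := le_trans (mul_nonneg h1ε hW) hWε1
  have hHε0 : 0 ≤ Hε := le_trans (mul_nonneg h1ε hH) hHε1
  have a1 : (1 - ε) ^ 2 * (W * H) ≤ Wε * Hε := by
    have := mul_le_mul hWε1 hHε1 (mul_nonneg h1ε hH) hWε0
    calc (1 - ε) ^ 2 * (W * H) = (1 - ε) * W * ((1 - ε) * H) := by ring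
      _ ≤ Wε * Hε := this
  have a2 : Hε * If' ≤ H * If :=
    calc Hε * If' ≤ Hε * If := mul_le_mul_of_nonneg_left hIf' hHε0
      _ ≤ H * If := mul_le_mul_of_nonneg_right hHε2 hIf
  have a3 : Wε * Ig' ≤ W * Ig :=
    calc Wε * Ig' ≤ Wε * Ig := mul_le_mul_of_nonneg_left hIg' hWε0
      _ ≤ W * Ig := mul_le_mul_of_nonneg_right hWε2 hIg
  linarith

theorem planar_aux2 (A R : ℝ) (hA : 0 < A)
    (key : ∀ ε : ℝ, 0 < ε → ε < 1 → (1 - ε) ^ 2 * A ≤ R) : A ≤ R := by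
  by_contra hcon
  push Not at hcon
  have hd : 0 < A - R := by linarith
  have hε0 : 0 < min (1 / 2) ((A - R) / (4 * A)) := lt_min (by norm_num) (div_pos hd (by positivity))
  have hε1 : min (1 / 2) ((A - R) / (4 * A)) < 1 :=
    lt_of_le_of_lt (min_le_left _ _) (by norm_num)
  have hε2 : min (1 / 2) ((A - R) / (4 * A)) ≤ (A - R) / (4 * A) := min_le_right _ _
  have hk := key _ hε0 hε1
  generalize min (1 / 2) ((A - R) / (4 * A)) = ε at hε0 hε1 hε2 hk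
  have h4 : ε * (4 * A) ≤ A - R := by
    have := mul_le_mul_of_nonneg_right hε2 (by positivity : (0:ℝ) ≤ 4 * A)
    rwa [div_mul_cancel₀ _ (by positivity : (4 * A) ≠ 0)] at this
  nlinarith [sq_nonneg ε, mul_pos hε0 hA]

/-- strict convex-combination inequality used for the perturbed quadrilateral -/
theorem planar_aux3 (ε a b c d : ℝ) (h1ε : 0 ≤ 1 - ε) (hε : 0 < ε) (hab : a ≤ b) (hcd : c < d) :
    (1 - ε) * a + ε * c < (1 - ε) * b + ε * d := by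
  have h1 := mul_le_mul_of_nonneg_left hab h1ε
  have h2 := mul_lt_mul_of_pos_left hcd hε
  linarith

theorem planar_aux4 (ε a b c d : ℝ) (h1ε : 0 ≤ 1 - ε) (hε : 0 ≤ ε) (hab : a ≤ b) (hcd : c ≤ d) :
    (1 - ε) * a + ε * c ≤ (1 - ε) * b + ε * d := by
  have h1 := mul_le_mul_of_nonneg_left hab h1ε
  have h2 := mul_le_mul_of_nonneg_left hcd hε
  linarith

/-- Planar two-direction covering lemma: if `f x + g y ≥ 1` on a convex set `S` which touches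
all four sides of the box `[x₀,x₁] × [y₀,y₁]` and contains a small diamond, then
`(y₁-y₀) ∫ f + (x₁-x₀) ∫ g ≥ (x₁-x₀)(y₁-y₀)`. -/
theorem planar_cover {S : Set (ℝ × ℝ)} (hS : Convex ℝ S) {f g : ℝ → ℝ}
    (hf : Measurable f) (hf0 : ∀ x, 0 ≤ f x) (hf1 : ∀ x, f x ≤ 1)
    (hg : Measurable g) (hg0 : ∀ x, 0 ≤ g x) (hg1 : ∀ x, g x ≤ 1)
    (hcov : ∀ p ∈ S, 1 ≤ f p.1 + g p.2)
    {x₀ x₁ y₀ y₁ : ℝ}
    (hbox : ∀ p ∈ S, x₀ ≤ p.1 ∧ p.1 ≤ x₁ ∧ y₀ ≤ p.2 ∧ p.2 ≤ y₁)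
    {l0 r0 b0 t0 : ℝ} (hL : (x₀, l0) ∈ S) (hR : (x₁, r0) ∈ S) (hB : (b0, y₀) ∈ S)
    (hT : (t0, y₁) ∈ S)
    {cx cy δ : ℝ} (hδ : 0 < δ) (hc1 : (cx - δ, cy) ∈ S) (hc2 : (cx + δ, cy) ∈ S)
    (hc3 : (cx, cy - δ) ∈ S) (hc4 : (cx, cy + δ) ∈ S) :
    (x₁ - x₀) * (y₁ - y₀) ≤
      (y₁ - y₀) * (∫ x in x₀..x₁, f x) + (x₁ - x₀) * ∫ y in y₀..y₁, g y := by
  have iif := ii_of_unit hf hf0 hf1
  have iig := ii_of_unit hg hg0 hg1
  obtain ⟨hc1a, -, hc1c, hc1d⟩ := hbox _ hc1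
  obtain ⟨-, hc2b, -, -⟩ := hbox _ hc2
  obtain ⟨-, -, hc3c, -⟩ := hbox _ hc3
  obtain ⟨-, -, -, hc4d⟩ := hbox _ hc4
  obtain ⟨-, -, hLc, hLd⟩ := hbox _ hL
  obtain ⟨-, -, hRc, hRd⟩ := hbox _ hR
  obtain ⟨hBa, hBb, -, -⟩ := hbox _ hB
  obtain ⟨hTa, hTb, -, -⟩ := hbox _ hT
  simp only at hc1a hc1c hc1d hc2b hc3c hc4d hLc hLd hRc hRd hBa hBb hTa hTb
  have hW : 0 < x₁ - x₀ := by linarith
  have hH : 0 < y₁ - y₀ := by linarith
  have hIf : 0 ≤ ∫ x in x₀..x₁, f x :=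
    intervalIntegral.integral_nonneg (by linarith) (fun x _ => hf0 x)
  have hIg : 0 ≤ ∫ y in y₀..y₁, g y :=
    intervalIntegral.integral_nonneg (by linarith) (fun x _ => hg0 x)
  refine planar_aux2 _ _ (mul_pos hW hH) ?_
  intro ε hε0 hε1
  have h1ε : 0 < 1 - ε := by linarith
  have mem : ∀ {p q : ℝ × ℝ}, p ∈ S → q ∈ S → (1 - ε) • p + ε • q ∈ S :=
    fun hp hq => hS hp hq h1ε.le hε0.le (by ring)
  have hPL := mem hL hc1
  have hPR := mem hR hc2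
  have hPB := mem hB hc3
  have hPT := mem hT hc4
  simp only [Prod.smul_mk, smul_eq_mul, Prod.mk_add_mk] at hPL hPR hPB hPT
  have q := quad_ineq hS hf hf0 hf1 hg hg0 hg1 hcov hPL hPR hPB hPT
    (planar_aux3 ε _ _ _ _ h1ε.le hε0 hBa (by linarith))
    (planar_aux3 ε _ _ _ _ h1ε.le hε0 hTa (by linarith))
    (planar_aux3 ε _ _ _ _ h1ε.le hε0 hBb (by linarith))
    (planar_aux3 ε _ _ _ _ h1ε.le hε0 hTb (by linarith))
    (planar_aux3 ε _ _ _ _ h1ε.le hε0 hLc (by linarith))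
    (planar_aux3 ε _ _ _ _ h1ε.le hε0 hRc (by linarith))
    (planar_aux3 ε _ _ _ _ h1ε.le hε0 hLd (by linarith))
    (planar_aux3 ε _ _ _ _ h1ε.le hε0 hRd (by linarith))
  have hxL : x₀ ≤ (1 - ε) * x₀ + ε * (cx - δ) := by
    have := planar_aux4 ε x₀ x₀ x₀ (cx - δ) h1ε.le hε0.le le_rfl hc1a
    linarith
  have hxR : (1 - ε) * x₁ + ε * (cx + δ) ≤ x₁ := by
    have := planar_aux4 ε x₁ x₁ (cx + δ) x₁ h1ε.le hε0.le le_rfl hc2b
    linarith
  have hyB : y₀ ≤ (1 - ε) * y₀ + ε * (cy - δ) := by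
    have := planar_aux4 ε y₀ y₀ y₀ (cy - δ) h1ε.le hε0.le le_rfl hc3c
    linarith
  have hyT : (1 - ε) * y₁ + ε * (cy + δ) ≤ y₁ := by
    have := planar_aux4 ε y₁ y₁ (cy + δ) y₁ h1ε.le hε0.le le_rfl hc4d
    linarith
  have hxLR : (1 - ε) * x₀ + ε * (cx - δ) ≤ (1 - ε) * x₁ + ε * (cx + δ) :=
    planar_aux4 ε _ _ _ _ h1ε.le hε0.le (by linarith) (by linarith)
  have hyBT : (1 - ε) * y₀ + ε * (cy - δ) ≤ (1 - ε) * y₁ + ε * (cy + δ) :=
    planar_aux4 ε _ _ _ _ h1ε.le hε0.le (by linarith) (by linarith)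
  have hIf' : (∫ x in ((1 - ε) * x₀ + ε * (cx - δ))..((1 - ε) * x₁ + ε * (cx + δ)), f x)
      ≤ ∫ x in x₀..x₁, f x :=
    intervalIntegral.integral_mono_interval hxL hxLR hxR
      (Filter.Eventually.of_forall fun x => hf0 x) (iif _ _)
  have hIg' : (∫ y in ((1 - ε) * y₀ + ε * (cy - δ))..((1 - ε) * y₁ + ε * (cy + δ)), g y)
      ≤ ∫ y in y₀..y₁, g y :=
    intervalIntegral.integral_mono_interval hyB hyBT hyT
      (Filter.Eventually.of_forall fun x => hg0 x) (iig _ _)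
  have hεδ : 0 < ε * δ := mul_pos hε0 hδ
  refine planar_aux1 _ _ _ _ _ _ _ _ ε h1ε.le hW.le hH.le ?_ ?_ ?_ ?_ hIf hIg hIf' hIg' q
  · have e : (1 - ε) * x₁ + ε * (cx + δ) - ((1 - ε) * x₀ + ε * (cx - δ))
        = (1 - ε) * (x₁ - x₀) + 2 * (ε * δ) := by ring
    rw [e]; linarith
  · have e : (1 - ε) * x₁ + ε * (cx + δ) - ((1 - ε) * x₀ + ε * (cx - δ))
        = (x₁ - x₀) - ε * ((x₁ - x₀) - 2 * δ) := by ring
    have := mul_nonneg hε0.le (by linarith : (0:ℝ) ≤ (x₁ - x₀) - 2 * δ)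
    rw [e]; linarith
  · have e : (1 - ε) * y₁ + ε * (cy + δ) - ((1 - ε) * y₀ + ε * (cy - δ))
        = (1 - ε) * (y₁ - y₀) + 2 * (ε * δ) := by ring
    rw [e]; linarith
  · have e : (1 - ε) * y₁ + ε * (cy + δ) - ((1 - ε) * y₀ + ε * (cy - δ))
        = (y₁ - y₀) - ε * ((y₁ - y₀) - 2 * δ) := by ring
    have := mul_nonneg hε0.le (by linarith : (0:ℝ) ≤ (y₁ - y₀) - 2 * δ)
    rw [e]; linarith

end Vale.Agent.Lib.P243
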