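import Mathlib

open MeasureTheory Set

namespace Vale.Agent.Lib.P243

/-- Section of a planar set at height `t` (second coordinate fixed). -/
def sec (P : Set (ℝ × ℝ)) (t : ℝ) : Set ℝ := {b | (b, t) ∈ P}

/-- Width of the section. -/
noncomputable def wid (P : Set (ℝ × ℝ)) (t : ℝ) : ℝ := sSup (sec P t) - sInf (sec P t)

theorem sec_compact {P : Set (ℝ × ℝ)} (hP : IsCompact P) (t : ℝ) : IsCompact (sec P t) := by
  have h : sec P t = Prod.fst '' (P ∩ {p | p.2 = t}) := by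
    ext b
    constructor
    · intro hb
      exact ⟨(b, t), ⟨hb, rfl⟩, rfl⟩
    · rintro ⟨p, ⟨hp, hpt⟩, rfl⟩
      have hpt' : p.2 = t := hpt
      have : p = (p.1, t) := by rw [← hpt']
      show (p.1, t) ∈ P
      rw [← this]; exact hp
  rw [h]
  exact (hP.inter_right (isClosed_eq continuous_snd continuous_const)).image continuous_fst

theorem sec_convex {P : Set (ℝ × ℝ)} (hP : Convex ℝ P) (t : ℝ) : Convex ℝ (sec P t) := by
  intro b₁ hb₁ b₂ hb₂ θ₁ θ₂ h1 h2 h12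
  have := hP hb₁ hb₂ h1 h2 h12
  have e : θ₁ • ((b₁, t) : ℝ × ℝ) + θ₂ • ((b₂, t) : ℝ × ℝ) = (θ₁ • b₁ + θ₂ • b₂, t) := by
    ext
    · simp
    · simp only [Prod.smul_mk, smul_eq_mul, Prod.mk_add_mk]
      rw [← add_mul, h12, one_mul]
  rw [e] at this
  exact this

theorem sec_eq_Icc {P : Set (ℝ × ℝ)} (hP : IsCompact P) (hPc : Convex ℝ P) {t : ℝ}
    (hne : (sec P t).Nonempty) : sec P t = Icc (sInf (sec P t)) (sSup (sec P t)) := by
  have hc := sec_compact hP t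
  apply Subset.antisymm
  · intro b hb
    exact ⟨csInf_le hc.bddBelow hb, le_csSup hc.bddAbove hb⟩
  · have hoc : OrdConnected (sec P t) := (sec_convex hPc t).ordConnected
    exact hoc.out (hc.sInf_mem hne) (hc.sSup_mem hne)

theorem wid_nonneg {P : Set (ℝ × ℝ)} (hP : IsCompact P) {t : ℝ}
    (hne : (sec P t).Nonempty) : 0 ≤ wid P t := by
  have hc := sec_compact hP t
  obtain ⟨b, hb⟩ := hne
  have h1 := csInf_le hc.bddBelow hb
  have h2 := le_csSup hc.bddAbove hb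
  unfold wid
  linarith

theorem volume_sec {P : Set (ℝ × ℝ)} (hP : IsCompact P) (hPc : Convex ℝ P) {t : ℝ}
    (hne : (sec P t).Nonempty) : volume (sec P t) = ENNReal.ofReal (wid P t) := by
  rw [sec_eq_Icc hP hPc hne, Real.volume_Icc]
  rfl

theorem wid_concave {P : Set (ℝ × ℝ)} (hP : IsCompact P) (hPc : Convex ℝ P) {t₁ t₂ : ℝ}
    (h₁ : (sec P t₁).Nonempty) (h₂ : (sec P t₂).Nonempty) {θ : ℝ} (hθ0 : 0 ≤ θ) (hθ1 : θ ≤ 1) :
    (1 - θ) * wid P t₁ + θ * wid P t₂ ≤ wid P ((1 - θ) * t₁ + θ * t₂) := by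
  have hc₁ := sec_compact hP t₁
  have hc₂ := sec_compact hP t₂
  have hc := sec_compact hP ((1 - θ) * t₁ + θ * t₂)
  have hmix : ∀ b₁ ∈ sec P t₁, ∀ b₂ ∈ sec P t₂,
      (1 - θ) * b₁ + θ * b₂ ∈ sec P ((1 - θ) * t₁ + θ * t₂) := by
    intro b₁ hb₁ b₂ hb₂
    have := hPc hb₁ hb₂ (by linarith : (0:ℝ) ≤ 1 - θ) hθ0 (by ring)
    simp only [Prod.smul_mk, smul_eq_mul, Prod.mk_add_mk] at this
    exact this
  have hhi := le_csSup hc.bddAbove (hmix _ (hc₁.sSup_mem h₁) _ (hc₂.sSup_mem h₂))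
  have hlo := csInf_le hc.bddBelow (hmix _ (hc₁.sInf_mem h₁) _ (hc₂.sInf_mem h₂))
  unfold wid
  linarith

theorem sec_nonempty_of_mem {P : Set (ℝ × ℝ)} (hPc : Convex ℝ P) {t₀ t₁ : ℝ}
    (h0 : (sec P t₀).Nonempty) (h1 : (sec P t₁).Nonempty) {t : ℝ} (ht : t ∈ Icc t₀ t₁) :
    (sec P t).Nonempty := by
  obtain ⟨b₀, hb₀⟩ := h0
  obtain ⟨b₁, hb₁⟩ := h1
  rcases eq_or_lt_of_le (ht.1.trans ht.2) with h | h
  · have : t = t₀ := le_antisymm (h ▸ ht.2) ht.1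
    exact ⟨b₀, this ▸ hb₀⟩
  · set θ : ℝ := (t - t₀) / (t₁ - t₀) with hθ
    have hd : 0 < t₁ - t₀ := sub_pos.2 h
    have hθ0 : 0 ≤ θ := div_nonneg (sub_nonneg.2 ht.1) hd.le
    have hθ1 : θ ≤ 1 := (div_le_one hd).2 (by linarith [ht.2])
    have := hPc hb₀ hb₁ (by linarith : (0:ℝ) ≤ 1 - θ) hθ0 (by ring)
    refine ⟨(1 - θ) * b₀ + θ * b₁, ?_⟩
    have e : (1 - θ) * t₀ + θ * t₁ = t := by
      rw [hθ]; field_simp; ring
    have e2 : (1 - θ) • ((b₀, t₀) : ℝ × ℝ) + θ • ((b₁, t₁) : ℝ × ℝ)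
        = ((1 - θ) * b₀ + θ * b₁, t) := by
      ext
      · simp
      · simp only [Prod.smul_mk, smul_eq_mul, Prod.mk_add_mk]; exact e
    rw [e2] at this
    exact this

/-- Hermite–Hadamard type bound: the area is at most length times the middle width. -/
theorem volume_le_mid {P : Set (ℝ × ℝ)} (hP : IsCompact P) (hPc : Convex ℝ P) {t₀ t₁ : ℝ}
    (h01 : t₀ ≤ t₁) (hrange : ∀ p ∈ P, t₀ ≤ p.2 ∧ p.2 ≤ t₁)
    (h0 : (sec P t₀).Nonempty) (h1 : (sec P t₁).Nonempty) :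
    volume P ≤ ENNReal.ofReal ((t₁ - t₀) * wid P ((t₀ + t₁) / 2)) := by
  have hmeas : Measurable fun t => volume (sec P t) :=
    measurable_measure_prodMk_right hP.measurableSet
  have hV : volume P = ∫⁻ t, volume (sec P t) := by
    rw [Measure.volume_eq_prod, Measure.prod_apply_symm hP.measurableSet]
    rfl
  have hV' : volume P = ∫⁻ t, volume (sec P (t₀ + t₁ - t)) := by
    rw [hV]
    exact (lintegral_sub_left_eq_self (fun t => volume (sec P t)) (t₀ + t₁)).symm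
  have hempty : ∀ t, t ∉ Icc t₀ t₁ → sec P t = ∅ := by
    intro t ht
    ext b
    simp only [mem_empty_iff_false, iff_false]
    intro hb
    exact ht (hrange _ hb)
  have hm : (t₀ + t₁) / 2 ∈ Icc t₀ t₁ := ⟨by linarith, by linarith⟩
  have hwm : 0 ≤ wid P ((t₀ + t₁) / 2) := wid_nonneg hP (sec_nonempty_of_mem hPc h0 h1 hm)
  have hpt : ∀ t, volume (sec P t) + volume (sec P (t₀ + t₁ - t)) ≤
      (Icc t₀ t₁).indicator (fun _ => ENNReal.ofReal (2 * wid P ((t₀ + t₁) / 2))) t := by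
    intro t
    by_cases ht : t ∈ Icc t₀ t₁
    · have ht' : t₀ + t₁ - t ∈ Icc t₀ t₁ := ⟨by linarith [ht.2], by linarith [ht.1]⟩
      have hn := sec_nonempty_of_mem hPc h0 h1 ht
      have hn' := sec_nonempty_of_mem hPc h0 h1 ht'
      rw [indicator_of_mem ht, volume_sec hP hPc hn, volume_sec hP hPc hn',
        ← ENNReal.ofReal_add (wid_nonneg hP hn) (wid_nonneg hP hn')]
      apply ENNReal.ofReal_le_ofReal
      have := wid_concave hP hPc hn hn' (θ := 1 / 2) (by norm_num) (by norm_num)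
      have e : (1 - 1 / 2 : ℝ) * t + 1 / 2 * (t₀ + t₁ - t) = (t₀ + t₁) / 2 := by ring
      rw [e] at this
      linarith
    · have ht' : t₀ + t₁ - t ∉ Icc t₀ t₁ := by
        intro h
        exact ht ⟨by linarith [h.2], by linarith [h.1]⟩
      rw [indicator_of_notMem ht, hempty t ht, hempty _ ht']
      simp
  have h2 : volume P + volume P ≤
      ENNReal.ofReal (2 * wid P ((t₀ + t₁) / 2)) * ENNReal.ofReal (t₁ - t₀) := by
    calc volume P + volume P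
        = ∫⁻ t, (volume (sec P t) + volume (sec P (t₀ + t₁ - t))) := by
          rw [lintegral_add_left hmeas, ← hV, ← hV']
      _ ≤ ∫⁻ t, (Icc t₀ t₁).indicator
            (fun _ => ENNReal.ofReal (2 * wid P ((t₀ + t₁) / 2))) t := lintegral_mono hpt
      _ = ENNReal.ofReal (2 * wid P ((t₀ + t₁) / 2)) * ENNReal.ofReal (t₁ - t₀) := by
          rw [lintegral_indicator_const measurableSet_Icc, Real.volume_Icc]
  have h3 : ENNReal.ofReal (2 * wid P ((t₀ + t₁) / 2)) * ENNReal.ofReal (t₁ - t₀)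
      = 2 * ENNReal.ofReal ((t₁ - t₀) * wid P ((t₀ + t₁) / 2)) := by
    rw [← ENNReal.ofReal_mul (by positivity), ← ENNReal.ofReal_ofNat 2,
      ← ENNReal.ofReal_mul (by norm_num)]
    congr 1
    ring
  rw [h3, ← two_mul] at h2
  exact (ENNReal.mul_le_mul_iff_right (by norm_num) (by norm_num)).1 h2


/-- Tent bound for the width of the sections of a compact convex planar set. -/
theorem tent_bound {P : Set (ℝ × ℝ)} (hP : IsCompact P) (hPc : Convex ℝ P) {t₀ t₁ : ℝ}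
    (h01 : t₀ < t₁) (hrange : ∀ p ∈ P, t₀ ≤ p.2 ∧ p.2 ≤ t₁)
    (h0 : (sec P t₀).Nonempty) (h1 : (sec P t₁).Nonempty) {t : ℝ} (ht : t ∈ Icc t₀ t₁) :
    (volume P).toReal * (2 * min (t - t₀) (t₁ - t)) ≤ (t₁ - t₀) ^ 2 * wid P t := by
  have hL : 0 < t₁ - t₀ := sub_pos.2 h01
  have hm : (t₀ + t₁) / 2 ∈ Icc t₀ t₁ := ⟨by linarith, by linarith⟩
  have hnm := sec_nonempty_of_mem hPc h0 h1 hm
  have hwm := wid_nonneg hP hnm
  have hV : (volume P).toReal ≤ (t₁ - t₀) * wid P ((t₀ + t₁) / 2) :=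
    ENNReal.toReal_le_of_le_ofReal (by positivity) (volume_le_mid hP hPc h01.le hrange h0 h1)
  have hV0 : 0 ≤ (volume P).toReal := ENNReal.toReal_nonneg
  rcases le_total t ((t₀ + t₁) / 2) with htm | htm
  · have hθ0 : 0 ≤ 2 * (t - t₀) / (t₁ - t₀) := div_nonneg (by linarith [ht.1]) hL.le
    have hθ1 : 2 * (t - t₀) / (t₁ - t₀) ≤ 1 := (div_le_one hL).2 (by linarith)
    have hc := wid_concave hP hPc h0 hnm hθ0 hθ1
    have e : (1 - 2 * (t - t₀) / (t₁ - t₀)) * t₀ + 2 * (t - t₀) / (t₁ - t₀) * ((t₀ + t₁) / 2)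
        = t := by
      field_simp
      ring
    rw [e] at hc
    have hw0 := wid_nonneg hP h0
    have h3 : 2 * (t - t₀) / (t₁ - t₀) * wid P ((t₀ + t₁) / 2) ≤ wid P t := by
      have := mul_nonneg (by linarith : (0:ℝ) ≤ 1 - 2 * (t - t₀) / (t₁ - t₀)) hw0
      linarith
    have a : (t₁ - t₀) ^ 2 * (2 * (t - t₀) / (t₁ - t₀) * wid P ((t₀ + t₁) / 2))
        = 2 * (t - t₀) * ((t₁ - t₀) * wid P ((t₀ + t₁) / 2)) := by
      field_simp
    calc (volume P).toReal * (2 * min (t - t₀) (t₁ - t))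
        ≤ (volume P).toReal * (2 * (t - t₀)) :=
          mul_le_mul_of_nonneg_left (by linarith [min_le_left (t - t₀) (t₁ - t)]) hV0
      _ = 2 * (t - t₀) * (volume P).toReal := by ring
      _ ≤ 2 * (t - t₀) * ((t₁ - t₀) * wid P ((t₀ + t₁) / 2)) :=
          mul_le_mul_of_nonneg_left hV (by linarith [ht.1])
      _ = (t₁ - t₀) ^ 2 * (2 * (t - t₀) / (t₁ - t₀) * wid P ((t₀ + t₁) / 2)) := a.symm
      _ ≤ (t₁ - t₀) ^ 2 * wid P t := mul_le_mul_of_nonneg_left h3 (by positivity)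
  · have hθ0 : 0 ≤ 2 * (t₁ - t) / (t₁ - t₀) := div_nonneg (by linarith [ht.2]) hL.le
    have hθ1 : 2 * (t₁ - t) / (t₁ - t₀) ≤ 1 := (div_le_one hL).2 (by linarith)
    have hc := wid_concave hP hPc h1 hnm hθ0 hθ1
    have e : (1 - 2 * (t₁ - t) / (t₁ - t₀)) * t₁ + 2 * (t₁ - t) / (t₁ - t₀) * ((t₀ + t₁) / 2)
        = t := by
      field_simp
      ring
    rw [e] at hc
    have hw0 := wid_nonneg hP h1
    have h3 : 2 * (t₁ - t) / (t₁ - t₀) * wid P ((t₀ + t₁) / 2) ≤ wid P t := by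
      have := mul_nonneg (by linarith : (0:ℝ) ≤ 1 - 2 * (t₁ - t) / (t₁ - t₀)) hw0
      linarith
    have a : (t₁ - t₀) ^ 2 * (2 * (t₁ - t) / (t₁ - t₀) * wid P ((t₀ + t₁) / 2))
        = 2 * (t₁ - t) * ((t₁ - t₀) * wid P ((t₀ + t₁) / 2)) := by
      field_simp
    calc (volume P).toReal * (2 * min (t - t₀) (t₁ - t))
        ≤ (volume P).toReal * (2 * (t₁ - t)) :=
          mul_le_mul_of_nonneg_left (by linarith [min_le_right (t - t₀) (t₁ - t)]) hV0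
      _ = 2 * (t₁ - t) * (volume P).toReal := by ring
      _ ≤ 2 * (t₁ - t) * ((t₁ - t₀) * wid P ((t₀ + t₁) / 2)) :=
          mul_le_mul_of_nonneg_left hV (by linarith [ht.2])
      _ = (t₁ - t₀) ^ 2 * (2 * (t₁ - t) / (t₁ - t₀) * wid P ((t₀ + t₁) / 2)) := a.symm
      _ ≤ (t₁ - t₀) ^ 2 * wid P t := mul_le_mul_of_nonneg_left h3 (by positivity)

/-- The integral of the tent function. -/
theorem tent_integral {t₀ t₁ : ℝ} (h01 : t₀ < t₁) :
    ∫ t in t₀..t₁, 2 * min (t - t₀) (t₁ - t) / (t₁ - t₀) ^ 2 = 1 / 2 := by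
  have hL : 0 < t₁ - t₀ := sub_pos.2 h01
  have hcont : Continuous fun t : ℝ => 2 * min (t - t₀) (t₁ - t) / (t₁ - t₀) ^ 2 := by
    fun_prop
  rw [← intervalIntegral.integral_add_adjacent_intervals (b := (t₀ + t₁) / 2)
    (hcont.intervalIntegrable _ _) (hcont.intervalIntegrable _ _)]
  have e1 : ∫ t in t₀..(t₀ + t₁) / 2, 2 * min (t - t₀) (t₁ - t) / (t₁ - t₀) ^ 2
      = ∫ t in t₀..(t₀ + t₁) / 2, 2 * (t - t₀) / (t₁ - t₀) ^ 2 := by
    apply intervalIntegral.integral_congr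
    intro t ht
    rw [uIcc_of_le (by linarith)] at ht
    simp only
    rw [min_eq_left (by linarith [ht.2])]
  have e2 : ∫ t in (t₀ + t₁) / 2..t₁, 2 * min (t - t₀) (t₁ - t) / (t₁ - t₀) ^ 2
      = ∫ t in (t₀ + t₁) / 2..t₁, 2 * (t₁ - t) / (t₁ - t₀) ^ 2 := by
    apply intervalIntegral.integral_congr
    intro t ht
    rw [uIcc_of_le (by linarith)] at ht
    simp only
    rw [min_eq_right (by linarith [ht.1])]
  have f1 : ∫ t in t₀..(t₀ + t₁) / 2, 2 * (t - t₀) / (t₁ - t₀) ^ 2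
      = (((t₀ + t₁) / 2 - t₀) ^ 2 / (t₁ - t₀) ^ 2) - ((t₀ - t₀) ^ 2 / (t₁ - t₀) ^ 2) := by
    refine intervalIntegral.integral_eq_sub_of_hasDerivAt
      (f := fun t => (t - t₀) ^ 2 / (t₁ - t₀) ^ 2)
      (f' := fun t => 2 * (t - t₀) / (t₁ - t₀) ^ 2) ?_ ?_
    · intro x _
      have h1 : HasDerivAt (fun t : ℝ => t - t₀) 1 x := (hasDerivAt_id x).sub_const t₀
      have h2 : HasDerivAt (fun t : ℝ => (t - t₀) ^ 2) (2 * (x - t₀) ^ 1 * 1) x := h1.pow 2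
      have h3 : HasDerivAt (fun t : ℝ => (t - t₀) ^ 2 / (t₁ - t₀) ^ 2)
          (2 * (x - t₀) ^ 1 * 1 / (t₁ - t₀) ^ 2) x := h2.div_const ((t₁ - t₀) ^ 2)
      have e : 2 * (x - t₀) ^ 1 * 1 / (t₁ - t₀) ^ 2 = 2 * (x - t₀) / (t₁ - t₀) ^ 2 := by ring
      rw [e] at h3
      exact h3
    · apply Continuous.intervalIntegrable
      fun_prop
  have f2 : ∫ t in (t₀ + t₁) / 2..t₁, 2 * (t₁ - t) / (t₁ - t₀) ^ 2
      = (-((t₁ - t₁) ^ 2 / (t₁ - t₀) ^ 2)) - (-((t₁ - (t₀ + t₁) / 2) ^ 2 / (t₁ - t₀) ^ 2)) := by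
    refine intervalIntegral.integral_eq_sub_of_hasDerivAt
      (f := fun t => -((t₁ - t) ^ 2 / (t₁ - t₀) ^ 2))
      (f' := fun t => 2 * (t₁ - t) / (t₁ - t₀) ^ 2) ?_ ?_
    · intro x _
      have h1 : HasDerivAt (fun t : ℝ => t₁ - t) (-1) x := by
        simpa using (hasDerivAt_id x).const_sub t₁
      have h2 : HasDerivAt (fun t : ℝ => (t₁ - t) ^ 2) (2 * (t₁ - x) ^ 1 * (-1)) x := h1.pow 2
      have h3 : HasDerivAt (fun t : ℝ => (t₁ - t) ^ 2 / (t₁ - t₀) ^ 2)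
          (2 * (t₁ - x) ^ 1 * (-1) / (t₁ - t₀) ^ 2) x := h2.div_const ((t₁ - t₀) ^ 2)
      have h4 : HasDerivAt (fun t : ℝ => -((t₁ - t) ^ 2 / (t₁ - t₀) ^ 2))
          (-(2 * (t₁ - x) ^ 1 * (-1) / (t₁ - t₀) ^ 2)) x := h3.neg
      have e : -(2 * (t₁ - x) ^ 1 * (-1) / (t₁ - t₀) ^ 2) = 2 * (t₁ - x) / (t₁ - t₀) ^ 2 := by
        ring
      rw [e] at h4
      exact h4
    · apply Continuous.intervalIntegrable
      fun_prop
  rw [e1, e2, f1, f2]
  field_simp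
  ring

end Vale.Agent.Lib.P243
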