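import Mathlib
import Vale.Agent.Lib.P243.Planar
import Vale.Agent.Lib.P243.Slices

open MeasureTheory Set

namespace Vale.Agent.Lib.P243

/-- Real-number core of the slice estimate. -/
theorem real_core {m V₁ V₂ W H If Ig : ℝ} (hV₁ : 0 < V₁) (hV₂ : 0 < V₂) (hm : 0 < m)
    (h1 : V₁ * m ≤ H) (h2 : V₂ * m ≤ W) (hIf : 0 ≤ If) (hIg : 0 ≤ Ig)
    (h : W * H ≤ H * If + W * Ig) : m ≤ Ig / V₁ + If / V₂ := by
  have hH : 0 < H := lt_of_lt_of_le (mul_pos hV₁ hm) h1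
  have hW : 0 < W := lt_of_lt_of_le (mul_pos hV₂ hm) h2
  have a1 : Ig * m / H ≤ Ig / V₁ := by
    rw [div_le_div_iff₀ hH hV₁]
    nlinarith
  have a2 : If * m / W ≤ If / V₂ := by
    rw [div_le_div_iff₀ hW hV₂]
    nlinarith
  have a3 : m ≤ Ig * m / H + If * m / W := by
    have e : Ig * m / H + If * m / W = m * ((H * If + W * Ig) / (W * H)) := by
      field_simp
      ring
    rw [e]
    have : 1 ≤ (H * If + W * Ig) / (W * H) := by
      rw [le_div_iff₀ (mul_pos hW hH)]; linarith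
    nlinarith
  linarith

/-- The two coordinate projections of a set in space used below. -/
def pr1 (K : Set (ℝ × ℝ × ℝ)) : Set (ℝ × ℝ) := Prod.snd '' K

def pr2 (K : Set (ℝ × ℝ × ℝ)) : Set (ℝ × ℝ) := (fun p : ℝ × ℝ × ℝ => (p.1, p.2.2)) '' K

theorem pr1_compact {K : Set (ℝ × ℝ × ℝ)} (hK : IsCompact K) : IsCompact (pr1 K) :=
  hK.image continuous_snd

theorem pr2_compact {K : Set (ℝ × ℝ × ℝ)} (hK : IsCompact K) : IsCompact (pr2 K) :=
  hK.image (by fun_prop)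

theorem pr1_convex {K : Set (ℝ × ℝ × ℝ)} (hK : Convex ℝ K) : Convex ℝ (pr1 K) := by
  rintro x ⟨p, hp, rfl⟩ y ⟨p', hp', rfl⟩ a b ha hb hab
  exact ⟨a • p + b • p', hK hp hp' ha hb hab, rfl⟩

theorem pr2_convex {K : Set (ℝ × ℝ × ℝ)} (hK : Convex ℝ K) : Convex ℝ (pr2 K) := by
  rintro x ⟨p, hp, rfl⟩ y ⟨p', hp', rfl⟩ a b ha hb hab
  exact ⟨a • p + b • p', hK hp hp' ha hb hab, rfl⟩

theorem mem_sec_pr1 {K : Set (ℝ × ℝ × ℝ)} {a b t : ℝ} (h : (a, b, t) ∈ K) :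
    b ∈ sec (pr1 K) t := ⟨(a, b, t), h, rfl⟩

theorem mem_sec_pr2 {K : Set (ℝ × ℝ × ℝ)} {a b t : ℝ} (h : (a, b, t) ∈ K) :
    a ∈ sec (pr2 K) t := ⟨(a, b, t), h, rfl⟩

theorem exists_of_mem_sec_pr1 {K : Set (ℝ × ℝ × ℝ)} {b t : ℝ} (h : b ∈ sec (pr1 K) t) :
    ∃ a, (a, b, t) ∈ K := by
  obtain ⟨p, hp, hpe⟩ := h
  refine ⟨p.1, ?_⟩
  have : p = (p.1, b, t) := by rw [← hpe]
  rw [← this]; exact hp

theorem exists_of_mem_sec_pr2 {K : Set (ℝ × ℝ × ℝ)} {a t : ℝ} (h : a ∈ sec (pr2 K) t) :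
    ∃ b, (a, b, t) ∈ K := by
  obtain ⟨p, hp, hpe⟩ := h
  refine ⟨p.2.1, ?_⟩
  have h1 : p.1 = a := congrArg Prod.fst hpe
  have h2 : p.2.2 = t := congrArg Prod.snd hpe
  have : p = (a, p.2.1, t) := by rw [← h1, ← h2]
  rw [← this]; exact hp

/-- Integral of an indicator over an interval is at most the measure of the set. -/
theorem ofReal_integral_indicator_le {A : Set ℝ} (hA : MeasurableSet A) (x₀ x₁ : ℝ)
    (h01 : x₀ ≤ x₁) :
    ENNReal.ofReal (∫ x in x₀..x₁, A.indicator (fun _ => (1 : ℝ)) x) ≤ volume A := by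
  rw [intervalIntegral.integral_of_le h01]
  have e : (A.indicator (fun _ => (1 : ℝ))) = A.indicator (1 : ℝ → ℝ) := rfl
  rw [e, integral_indicator_one hA, measureReal_def, Measure.restrict_apply hA]
  exact ENNReal.ofReal_toReal_le.trans (measure_mono inter_subset_left)

/-- The slice estimate: planar covering lemma applied to a horizontal slice of `K`. -/
theorem slice_ineq {K : Set (ℝ × ℝ × ℝ)} (hK : Convex ℝ K) (hKc : IsCompact K)
    {B₁ B₂ : Set (ℝ × ℝ)} (hB₁ : MeasurableSet B₁) (hB₂ : MeasurableSet B₂)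
    (hcov : ∀ p ∈ K, p.2 ∈ B₁ ∨ (p.1, p.2.2) ∈ B₂)
    {t cx cy δ : ℝ} (hδ : 0 < δ)
    (hc1 : (cx - δ, cy, t) ∈ K) (hc2 : (cx + δ, cy, t) ∈ K)
    (hc3 : (cx, cy - δ, t) ∈ K) (hc4 : (cx, cy + δ, t) ∈ K) :
    ∃ If Ig : ℝ, 0 ≤ If ∧ 0 ≤ Ig ∧ ENNReal.ofReal If ≤ volume (sec B₂ t) ∧
      ENNReal.ofReal Ig ≤ volume (sec B₁ t) ∧
      wid (pr2 K) t * wid (pr1 K) t ≤ wid (pr1 K) t * If + wid (pr2 K) t * Ig := by
  have hm₁ : MeasurableSet (sec B₁ t) := measurable_prodMk_right hB₁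
  have hm₂ : MeasurableSet (sec B₂ t) := measurable_prodMk_right hB₂
  set f : ℝ → ℝ := (sec B₂ t).indicator (fun _ => (1 : ℝ)) with hf
  set g : ℝ → ℝ := (sec B₁ t).indicator (fun _ => (1 : ℝ)) with hg
  have hfm : Measurable f := measurable_const.indicator hm₂
  have hgm : Measurable g := measurable_const.indicator hm₁
  have hf0 : ∀ x, 0 ≤ f x := fun x => indicator_nonneg (fun _ _ => zero_le_one) x
  have hg0 : ∀ x, 0 ≤ g x := fun x => indicator_nonneg (fun _ _ => zero_le_one) x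
  have hf1 : ∀ x, f x ≤ 1 := fun x => by
    rw [hf]; by_cases h : x ∈ sec B₂ t
    · rw [indicator_of_mem h]
    · rw [indicator_of_notMem h]; exact zero_le_one
  have hg1 : ∀ x, g x ≤ 1 := fun x => by
    rw [hg]; by_cases h : x ∈ sec B₁ t
    · rw [indicator_of_mem h]
    · rw [indicator_of_notMem h]; exact zero_le_one
  have hc₁ := sec_compact (pr1_compact hKc) t
  have hc₂ := sec_compact (pr2_compact hKc) t
  have hne₁ : (sec (pr1 K) t).Nonempty := ⟨_, mem_sec_pr1 hc1⟩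
  have hne₂ : (sec (pr2 K) t).Nonempty := ⟨_, mem_sec_pr2 hc1⟩
  set x₀ := sInf (sec (pr2 K) t) with hx₀
  set x₁ := sSup (sec (pr2 K) t) with hx₁
  set y₀ := sInf (sec (pr1 K) t) with hy₀
  set y₁ := sSup (sec (pr1 K) t) with hy₁
  obtain ⟨l0, hL⟩ := exists_of_mem_sec_pr2 (hc₂.sInf_mem hne₂)
  obtain ⟨r0, hR⟩ := exists_of_mem_sec_pr2 (hc₂.sSup_mem hne₂)
  obtain ⟨b0, hB⟩ := exists_of_mem_sec_pr1 (hc₁.sInf_mem hne₁)
  obtain ⟨t0, hT⟩ := exists_of_mem_sec_pr1 (hc₁.sSup_mem hne₁)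
  set S : Set (ℝ × ℝ) := {q | (q.1, q.2, t) ∈ K} with hS
  have hSc : Convex ℝ S := by
    intro q hq q' hq' a b ha hb hab
    have := hK hq hq' ha hb hab
    have e : a • ((q.1, q.2, t) : ℝ × ℝ × ℝ) + b • ((q'.1, q'.2, t) : ℝ × ℝ × ℝ)
        = ((a • q + b • q').1, (a • q + b • q').2, t) := by
      ext
      · simp
      · simp
      · simp only [Prod.smul_mk, smul_eq_mul, Prod.mk_add_mk]
        rw [← add_mul, hab, one_mul]
    rw [e] at this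
    exact this
  have hcovS : ∀ q ∈ S, 1 ≤ f q.1 + g q.2 := by
    intro q hq
    rcases hcov _ hq with h | h
    · have : q.2 ∈ sec B₁ t := h
      have h1 : g q.2 = 1 := by rw [hg, indicator_of_mem this]
      linarith [hf0 q.1]
    · have : q.1 ∈ sec B₂ t := h
      have h1 : f q.1 = 1 := by rw [hf, indicator_of_mem this]
      linarith [hg0 q.2]
  have hbox : ∀ q ∈ S, x₀ ≤ q.1 ∧ q.1 ≤ x₁ ∧ y₀ ≤ q.2 ∧ q.2 ≤ y₁ := by
    intro q hq
    have hq' : (q.1, q.2, t) ∈ K := hq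
    exact ⟨csInf_le hc₂.bddBelow (mem_sec_pr2 hq'), le_csSup hc₂.bddAbove (mem_sec_pr2 hq'),
      csInf_le hc₁.bddBelow (mem_sec_pr1 hq'), le_csSup hc₁.bddAbove (mem_sec_pr1 hq')⟩
  have hmain := planar_cover hSc hfm hf0 hf1 hgm hg0 hg1 hcovS hbox
    (l0 := l0) (r0 := r0) (b0 := b0) (t0 := t0) hL hR hB hT hδ
    (cx := cx) (cy := cy) hc1 hc2 hc3 hc4
  have hx01 : x₀ ≤ x₁ := (hbox (cx - δ, cy) hc1).1.trans (hbox (cx - δ, cy) hc1).2.1
  have hy01 : y₀ ≤ y₁ := (hbox (cx - δ, cy) hc1).2.2.1.trans (hbox (cx - δ, cy) hc1).2.2.2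
  refine ⟨∫ x in x₀..x₁, f x, ∫ y in y₀..y₁, g y, ?_, ?_, ?_, ?_, ?_⟩
  · exact intervalIntegral.integral_nonneg hx01 (fun x _ => hf0 x)
  · exact intervalIntegral.integral_nonneg hy01 (fun x _ => hg0 x)
  · exact ofReal_integral_indicator_le hm₂ x₀ x₁ hx01
  · exact ofReal_integral_indicator_le hm₁ y₀ y₁ hy01
  · exact hmain

/-- A small axis-parallel cube around an interior point. -/
theorem exists_cube {K : Set (ℝ × ℝ × ℝ)} (hKi : (interior K).Nonempty) :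
    ∃ q : ℝ × ℝ × ℝ, ∃ ρ : ℝ, 0 < ρ ∧ ∀ p : ℝ × ℝ × ℝ, |p.1 - q.1| ≤ ρ →
      |p.2.1 - q.2.1| ≤ ρ → |p.2.2 - q.2.2| ≤ ρ → p ∈ K := by
  obtain ⟨q, hq⟩ := hKi
  rw [mem_interior_iff_mem_nhds, Metric.mem_nhds_iff] at hq
  obtain ⟨ε, hε, hball⟩ := hq
  refine ⟨q, ε / 2, half_pos hε, fun p h1 h2 h3 => hball ?_⟩
  rw [Metric.mem_ball, Prod.dist_eq, Prod.dist_eq, Real.dist_eq, Real.dist_eq, Real.dist_eq]
  simp only [max_lt_iff]
  exact ⟨by linarith, by linarith, by linarith⟩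

/-- A small diamond inside a slice, obtained by coning the cube from a point of `K`. -/
theorem diamond {K : Set (ℝ × ℝ × ℝ)} (hK : Convex ℝ K) {q : ℝ × ℝ × ℝ} {ρ : ℝ} (hρ : 0 < ρ)
    (hcube : ∀ p : ℝ × ℝ × ℝ, |p.1 - q.1| ≤ ρ → |p.2.1 - q.2.1| ≤ ρ →
      |p.2.2 - q.2.2| ≤ ρ → p ∈ K)
    {p : ℝ × ℝ × ℝ} (hp : p ∈ K) {θ : ℝ} (hθ0 : 0 < θ) (hθ1 : θ ≤ 1) {t : ℝ}
    (ht : (1 - θ) * p.2.2 + θ * q.2.2 = t) :
    ∃ cx cy δ : ℝ, 0 < δ ∧ (cx - δ, cy, t) ∈ K ∧ (cx + δ, cy, t) ∈ K ∧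
      (cx, cy - δ, t) ∈ K ∧ (cx, cy + δ, t) ∈ K := by
  have h0 : (0 : ℝ) ≤ 1 - θ := by linarith
  have habs : |(-ρ)| ≤ ρ := by rw [abs_neg, abs_of_pos hρ]
  have habs' : |ρ| ≤ ρ := by rw [abs_of_pos hρ]
  have habs0 : |(0 : ℝ)| ≤ ρ := by rw [abs_zero]; exact hρ.le
  have m1 : ((q.1 - ρ, q.2.1, q.2.2) : ℝ × ℝ × ℝ) ∈ K :=
    hcube _ (by simpa using habs) (by simpa using habs0) (by simpa using habs0)
  have m2 : ((q.1 + ρ, q.2.1, q.2.2) : ℝ × ℝ × ℝ) ∈ K :=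
    hcube _ (by simpa using habs') (by simpa using habs0) (by simpa using habs0)
  have m3 : ((q.1, q.2.1 - ρ, q.2.2) : ℝ × ℝ × ℝ) ∈ K :=
    hcube _ (by simpa using habs0) (by simpa using habs) (by simpa using habs0)
  have m4 : ((q.1, q.2.1 + ρ, q.2.2) : ℝ × ℝ × ℝ) ∈ K :=
    hcube _ (by simpa using habs0) (by simpa using habs') (by simpa using habs0)
  refine ⟨(1 - θ) * p.1 + θ * q.1, (1 - θ) * p.2.1 + θ * q.2.1, θ * ρ, mul_pos hθ0 hρ,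
    ?_, ?_, ?_, ?_⟩
  · have h := hK hp m1 h0 hθ0.le (by ring)
    convert h using 1
    ext
    · simp only [Prod.smul_mk, smul_eq_mul, Prod.fst_add, Prod.smul_fst]; ring
    · simp
    · simp [← ht]
  · have h := hK hp m2 h0 hθ0.le (by ring)
    convert h using 1
    ext
    · simp only [Prod.smul_mk, smul_eq_mul, Prod.fst_add, Prod.smul_fst]; ring
    · simp
    · simp [← ht]
  · have h := hK hp m3 h0 hθ0.le (by ring)
    convert h using 1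
    ext
    · simp
    · simp only [Prod.smul_mk, smul_eq_mul, Prod.fst_add, Prod.smul_fst, Prod.snd_add,
        Prod.smul_snd]; ring
    · simp [← ht]
  · have h := hK hp m4 h0 hθ0.le (by ring)
    convert h using 1
    ext
    · simp
    · simp only [Prod.smul_mk, smul_eq_mul, Prod.fst_add, Prod.smul_fst, Prod.snd_add,
        Prod.smul_snd]; ring
    · simp [← ht]

/-- Pointwise (in the height `t`) form of the two-cylinder estimate. -/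
theorem pointwise {K : Set (ℝ × ℝ × ℝ)} (hK : Convex ℝ K) (hKc : IsCompact K)
    {B₁ B₂ : Set (ℝ × ℝ)} (hB₁ : MeasurableSet B₁) (hB₂ : MeasurableSet B₂)
    (hcov : ∀ p ∈ K, p.2 ∈ B₁ ∨ (p.1, p.2.2) ∈ B₂)
    {q : ℝ × ℝ × ℝ} {ρ : ℝ} (hρ : 0 < ρ)
    (hcube : ∀ p : ℝ × ℝ × ℝ, |p.1 - q.1| ≤ ρ → |p.2.1 - q.2.1| ≤ ρ →
      |p.2.2 - q.2.2| ≤ ρ → p ∈ K)
    {pmin pmax : ℝ × ℝ × ℝ} (hpmin : pmin ∈ K) (hpmax : pmax ∈ K)
    (hmin : ∀ p ∈ K, pmin.2.2 ≤ p.2.2) (hmax : ∀ p ∈ K, p.2.2 ≤ pmax.2.2)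
    (hV₁ : 0 < volume (pr1 K)) (hV₂ : 0 < volume (pr2 K))
    {t : ℝ} (ht : t ∈ Ioo pmin.2.2 pmax.2.2) :
    ENNReal.ofReal (2 * min (t - pmin.2.2) (pmax.2.2 - t) / (pmax.2.2 - pmin.2.2) ^ 2) ≤
      volume (sec B₁ t) / volume (pr1 K) + volume (sec B₂ t) / volume (pr2 K) := by
  set t₀ := pmin.2.2 with ht₀
  set t₁ := pmax.2.2 with ht₁
  have habs : |(-ρ)| ≤ ρ := by rw [abs_neg, abs_of_pos hρ]
  have habs' : |ρ| ≤ ρ := by rw [abs_of_pos hρ]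
  have habs0 : |(0 : ℝ)| ≤ ρ := by rw [abs_zero]; exact hρ.le
  have mlo : ((q.1, q.2.1, q.2.2 - ρ) : ℝ × ℝ × ℝ) ∈ K :=
    hcube _ (by simpa using habs0) (by simpa using habs0) (by simpa using habs)
  have mhi : ((q.1, q.2.1, q.2.2 + ρ) : ℝ × ℝ × ℝ) ∈ K :=
    hcube _ (by simpa using habs0) (by simpa using habs0) (by simpa using habs')
  have hq0 : t₀ < q.2.2 := by have := hmin _ mlo; simp only at this; linarith
  have hq1 : q.2.2 < t₁ := by have := hmax _ mhi; simp only at this; linarith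
  have h01 : t₀ < t₁ := hq0.trans hq1
  -- the diamond at height t
  obtain ⟨cx, cy, δ, hδ, hc1, hc2, hc3, hc4⟩ : ∃ cx cy δ : ℝ, 0 < δ ∧ (cx - δ, cy, t) ∈ K ∧
      (cx + δ, cy, t) ∈ K ∧ (cx, cy - δ, t) ∈ K ∧ (cx, cy + δ, t) ∈ K := by
    rcases le_or_gt t q.2.2 with htq | htq
    · have hd : 0 < q.2.2 - t₀ := sub_pos.2 hq0
      refine diamond hK hρ hcube hpmin (θ := (t - t₀) / (q.2.2 - t₀))
        (div_pos (sub_pos.2 ht.1) hd) ((div_le_one hd).2 (by linarith)) ?_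
      rw [← ht₀]
      field_simp
      ring
    · have hd : 0 < t₁ - q.2.2 := sub_pos.2 hq1
      refine diamond hK hρ hcube hpmax (θ := (t₁ - t) / (t₁ - q.2.2))
        (div_pos (sub_pos.2 ht.2) hd) ((div_le_one hd).2 (by linarith)) ?_
      rw [← ht₁]
      field_simp
      ring
  obtain ⟨If, Ig, hIf, hIg, hIfle, hIgle, hmain⟩ :=
    slice_ineq hK hKc hB₁ hB₂ hcov hδ hc1 hc2 hc3 hc4
  have hP₁ := pr1_compact hKc
  have hP₂ := pr2_compact hKc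
  have hfin₁ : volume (pr1 K) ≠ ⊤ := hP₁.measure_lt_top.ne
  have hfin₂ : volume (pr2 K) ≠ ⊤ := hP₂.measure_lt_top.ne
  have hV₁r : 0 < (volume (pr1 K)).toReal := ENNReal.toReal_pos hV₁.ne' hfin₁
  have hV₂r : 0 < (volume (pr2 K)).toReal := ENNReal.toReal_pos hV₂.ne' hfin₂
  have hr₁ : ∀ p ∈ pr1 K, t₀ ≤ p.2 ∧ p.2 ≤ t₁ := by
    rintro p ⟨p', hp', rfl⟩
    exact ⟨hmin _ hp', hmax _ hp'⟩
  have hr₂ : ∀ p ∈ pr2 K, t₀ ≤ p.2 ∧ p.2 ≤ t₁ := by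
    rintro p ⟨p', hp', rfl⟩
    exact ⟨hmin _ hp', hmax _ hp'⟩
  have hn₁₀ : (sec (pr1 K) t₀).Nonempty := ⟨pmin.2.1, mem_sec_pr1 (a := pmin.1) hpmin⟩
  have hn₁₁ : (sec (pr1 K) t₁).Nonempty := ⟨pmax.2.1, mem_sec_pr1 (a := pmax.1) hpmax⟩
  have hn₂₀ : (sec (pr2 K) t₀).Nonempty := ⟨pmin.1, mem_sec_pr2 (b := pmin.2.1) hpmin⟩
  have hn₂₁ : (sec (pr2 K) t₁).Nonempty := ⟨pmax.1, mem_sec_pr2 (b := pmax.2.1) hpmax⟩
  have htI : t ∈ Icc t₀ t₁ := ⟨ht.1.le, ht.2.le⟩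
  have tb₁ := tent_bound hP₁ (pr1_convex hK) h01 hr₁ hn₁₀ hn₁₁ htI
  have tb₂ := tent_bound hP₂ (pr2_convex hK) h01 hr₂ hn₂₀ hn₂₁ htI
  have hL : 0 < (t₁ - t₀) ^ 2 := by have := sub_pos.2 h01; positivity
  have hmin0 : 0 < min (t - t₀) (t₁ - t) := lt_min (sub_pos.2 ht.1) (sub_pos.2 ht.2)
  set m := 2 * min (t - t₀) (t₁ - t) / (t₁ - t₀) ^ 2 with hm
  have hmpos : 0 < m := by rw [hm]; positivity
  have e₁ : (volume (pr1 K)).toReal * m ≤ wid (pr1 K) t := by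
    rw [hm, ← mul_div_assoc, div_le_iff₀ hL]
    linarith
  have e₂ : (volume (pr2 K)).toReal * m ≤ wid (pr2 K) t := by
    rw [hm, ← mul_div_assoc, div_le_iff₀ hL]
    linarith
  have hreal := real_core hV₁r hV₂r hmpos e₁ e₂ hIf hIg hmain
  calc ENNReal.ofReal m
      ≤ ENNReal.ofReal (Ig / (volume (pr1 K)).toReal + If / (volume (pr2 K)).toReal) :=
        ENNReal.ofReal_le_ofReal hreal
    _ = ENNReal.ofReal Ig / volume (pr1 K) + ENNReal.ofReal If / volume (pr2 K) := by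
        rw [ENNReal.ofReal_add (div_nonneg hIg hV₁r.le) (div_nonneg hIf hV₂r.le),
          ENNReal.ofReal_div_of_pos hV₁r, ENNReal.ofReal_div_of_pos hV₂r,
          ENNReal.ofReal_toReal hfin₁, ENNReal.ofReal_toReal hfin₂]
    _ ≤ volume (sec B₁ t) / volume (pr1 K) + volume (sec B₂ t) / volume (pr2 K) :=
        add_le_add (ENNReal.div_le_div_right hIgle _) (ENNReal.div_le_div_right hIfle _)

theorem pr1_volume_pos {K : Set (ℝ × ℝ × ℝ)} (hKi : (interior K).Nonempty) :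
    0 < volume (pr1 K) := by
  obtain ⟨q, ρ, hρ, hcube⟩ := exists_cube hKi
  have hsub : Ioo (q.2.1 - ρ) (q.2.1 + ρ) ×ˢ Ioo (q.2.2 - ρ) (q.2.2 + ρ) ⊆ pr1 K := by
    rintro ⟨b, t⟩ ⟨hb, ht⟩
    simp only [mem_Ioo] at hb ht
    refine ⟨(q.1, b, t), hcube _ (by simpa using hρ.le) ?_ ?_, rfl⟩
    · simp only; rw [abs_le]; constructor <;> linarith [hb.1, hb.2]
    · simp only; rw [abs_le]; constructor <;> linarith [ht.1, ht.2]
  have hopen : IsOpen (Ioo (q.2.1 - ρ) (q.2.1 + ρ) ×ˢ Ioo (q.2.2 - ρ) (q.2.2 + ρ)) :=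
    isOpen_Ioo.prod isOpen_Ioo
  have hne' : (Ioo (q.2.1 - ρ) (q.2.1 + ρ) ×ˢ Ioo (q.2.2 - ρ) (q.2.2 + ρ)).Nonempty :=
    ⟨(q.2.1, q.2.2), ⟨by constructor <;> linarith, by constructor <;> linarith⟩⟩
  exact (hopen.measure_pos volume hne').trans_le (measure_mono hsub)

theorem pr2_volume_pos {K : Set (ℝ × ℝ × ℝ)} (hKi : (interior K).Nonempty) :
    0 < volume (pr2 K) := by
  obtain ⟨q, ρ, hρ, hcube⟩ := exists_cube hKi
  have hsub : Ioo (q.1 - ρ) (q.1 + ρ) ×ˢ Ioo (q.2.2 - ρ) (q.2.2 + ρ) ⊆ pr2 K := by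
    rintro ⟨a, t⟩ ⟨ha, ht⟩
    simp only [mem_Ioo] at ha ht
    refine ⟨(a, q.2.1, t), hcube _ ?_ (by simpa using hρ.le) ?_, rfl⟩
    · simp only; rw [abs_le]; constructor <;> linarith [ha.1, ha.2]
    · simp only; rw [abs_le]; constructor <;> linarith [ht.1, ht.2]
  have hopen : IsOpen (Ioo (q.1 - ρ) (q.1 + ρ) ×ˢ Ioo (q.2.2 - ρ) (q.2.2 + ρ)) :=
    isOpen_Ioo.prod isOpen_Ioo
  have hne' : (Ioo (q.1 - ρ) (q.1 + ρ) ×ˢ Ioo (q.2.2 - ρ) (q.2.2 + ρ)).Nonempty :=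
    ⟨(q.1, q.2.2), ⟨by constructor <;> linarith, by constructor <;> linarith⟩⟩
  exact (hopen.measure_pos volume hne').trans_le (measure_mono hsub)

theorem volume_eq_lintegral_sec {B : Set (ℝ × ℝ)} (hB : MeasurableSet B) :
    volume B = ∫⁻ t, volume (sec B t) := by
  rw [Measure.volume_eq_prod, Measure.prod_apply_symm hB]
  rfl

/-- Two-cylinder covering theorem in coordinates: a convex body `K` in `ℝ × ℝ × ℝ` covered by
a cylinder along the first axis with base `B₁` and a cylinder along the second axis with base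
`B₂`. -/
theorem coord_two_cylinders {K : Set (ℝ × ℝ × ℝ)} (hK : Convex ℝ K) (hKc : IsCompact K)
    (hKi : (interior K).Nonempty)
    {B₁ B₂ : Set (ℝ × ℝ)} (hB₁ : MeasurableSet B₁) (hB₂ : MeasurableSet B₂)
    (hcov : ∀ p ∈ K, p.2 ∈ B₁ ∨ (p.1, p.2.2) ∈ B₂) :
    (1 / 2 : ENNReal) ≤ volume B₁ / volume (pr1 K) + volume B₂ / volume (pr2 K) := by
  obtain ⟨q, ρ, hρ, hcube⟩ := exists_cube hKi
  have hqK : q ∈ K := hcube q (by simpa using hρ.le) (by simpa using hρ.le) (by simpa using hρ.le)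
  have hne : K.Nonempty := ⟨q, hqK⟩
  have hcont : ContinuousOn (fun p : ℝ × ℝ × ℝ => p.2.2) K := by fun_prop
  obtain ⟨pmin, hpmin, hmin'⟩ := hKc.exists_isMinOn hne hcont
  obtain ⟨pmax, hpmax, hmax'⟩ := hKc.exists_isMaxOn hne hcont
  have hmin : ∀ p ∈ K, pmin.2.2 ≤ p.2.2 := fun p hp => isMinOn_iff.1 hmin' p hp
  have hmax : ∀ p ∈ K, p.2.2 ≤ pmax.2.2 := fun p hp => isMaxOn_iff.1 hmax' p hp
  set t₀ := pmin.2.2 with ht₀
  set t₁ := pmax.2.2 with ht₁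
  have habs : |(-ρ)| ≤ ρ := by rw [abs_neg, abs_of_pos hρ]
  have habs' : |ρ| ≤ ρ := by rw [abs_of_pos hρ]
  have habs0 : |(0 : ℝ)| ≤ ρ := by rw [abs_zero]; exact hρ.le
  have mlo : ((q.1, q.2.1, q.2.2 - ρ) : ℝ × ℝ × ℝ) ∈ K :=
    hcube _ (by simpa using habs0) (by simpa using habs0) (by simpa using habs)
  have mhi : ((q.1, q.2.1, q.2.2 + ρ) : ℝ × ℝ × ℝ) ∈ K :=
    hcube _ (by simpa using habs0) (by simpa using habs0) (by simpa using habs')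
  have hq0 : t₀ < q.2.2 := by have := hmin _ mlo; simp only at this; linarith
  have hq1 : q.2.2 < t₁ := by have := hmax _ mhi; simp only at this; linarith
  have h01 : t₀ < t₁ := hq0.trans hq1
  have hV₁ : 0 < volume (pr1 K) := pr1_volume_pos hKi
  have hV₂ : 0 < volume (pr2 K) := pr2_volume_pos hKi
  have hms₁ : Measurable fun t => volume (sec B₁ t) := measurable_measure_prodMk_right hB₁
  have hms₂ : Measurable fun t => volume (sec B₂ t) := measurable_measure_prodMk_right hB₂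
  have hsum : volume B₁ / volume (pr1 K) + volume B₂ / volume (pr2 K)
      = ∫⁻ t, (volume (sec B₁ t) / volume (pr1 K) + volume (sec B₂ t) / volume (pr2 K)) := by
    rw [lintegral_add_left (hms₁.div_const _)]
    simp only [div_eq_mul_inv]
    rw [lintegral_mul_const _ hms₁, lintegral_mul_const _ hms₂,
      ← volume_eq_lintegral_sec hB₁, ← volume_eq_lintegral_sec hB₂]
  rw [hsum]
  have hcontm : Continuous fun t : ℝ => 2 * min (t - t₀) (t₁ - t) / (t₁ - t₀) ^ 2 := by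
    fun_prop
  have hnn : ∀ t ∈ Ioc t₀ t₁, 0 ≤ 2 * min (t - t₀) (t₁ - t) / (t₁ - t₀) ^ 2 := by
    intro t ht
    have : 0 ≤ min (t - t₀) (t₁ - t) := le_min (sub_nonneg.2 ht.1.le) (sub_nonneg.2 ht.2)
    positivity
  have hhalf : (1 / 2 : ENNReal)
      = ∫⁻ t in Ioo t₀ t₁, ENNReal.ofReal (2 * min (t - t₀) (t₁ - t) / (t₁ - t₀) ^ 2) := by
    rw [setLIntegral_congr Ioo_ae_eq_Ioc,
      ← ofReal_integral_eq_lintegral_ofReal (hcontm.integrableOn_Icc.mono_set Ioc_subset_Icc_self)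
        ((ae_restrict_iff' measurableSet_Ioc).2 (Filter.Eventually.of_forall hnn)),
      ← intervalIntegral.integral_of_le h01.le, tent_integral h01]
    rw [ENNReal.ofReal_div_of_pos (by norm_num)]
    simp
  rw [hhalf]
  calc ∫⁻ t in Ioo t₀ t₁, ENNReal.ofReal (2 * min (t - t₀) (t₁ - t) / (t₁ - t₀) ^ 2)
      ≤ ∫⁻ t in Ioo t₀ t₁,
          (volume (sec B₁ t) / volume (pr1 K) + volume (sec B₂ t) / volume (pr2 K)) :=
        setLIntegral_mono' measurableSet_Ioo (fun t ht =>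
          pointwise hK hKc hB₁ hB₂ hcov hρ hcube hpmin hpmax hmin hmax hV₁ hV₂ ht)
    _ ≤ ∫⁻ t, (volume (sec B₁ t) / volume (pr1 K) + volume (sec B₂ t) / volume (pr2 K)) :=
        setLIntegral_le_lintegral _ _

end Vale.Agent.Lib.P243
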