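import Mathlib
import Vale.Agent.Lib.P243.Coord
import Vale.Agent.Lib.P243.Area

open MeasureTheory Measure Set
open scoped ENNReal NNReal InnerProductSpace

namespace Vale.Agent.Lib.P243

variable {E : Type*} [NormedAddCommGroup E] [InnerProductSpace ℝ E]

/-- In a three-dimensional space there is a nonzero vector orthogonal to two given vectors. -/
theorem exists_normal [FiniteDimensional ℝ E] (hdim : Module.finrank ℝ E = 3) (u v : E) :
    ∃ n : E, n ≠ 0 ∧ ⟪n, u⟫_ℝ = 0 ∧ ⟪n, v⟫_ℝ = 0 := by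
  classical
  set S : Submodule ℝ E := Submodule.span ℝ ((({u, v} : Finset E)) : Set E) with hS
  have h1 : Module.finrank ℝ S ≤ 2 :=
    (finrank_span_finset_le_card ({u, v} : Finset E)).trans Finset.card_le_two
  have h2 := Submodule.finrank_add_finrank_orthogonal S
  have h4 : 0 < Module.finrank ℝ Sᗮ := by omega
  obtain ⟨⟨n, hn⟩, hn0⟩ := Module.finrank_pos_iff_exists_ne_zero.1 h4
  have hu : u ∈ S := Submodule.subset_span (by simp)
  have hv : v ∈ S := Submodule.subset_span (by simp)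
  refine ⟨n, fun h => hn0 (Subtype.ext h), ?_, ?_⟩
  · exact (Submodule.mem_orthogonal' S n).1 hn u hu
  · exact (Submodule.mem_orthogonal' S n).1 hn v hv

/-- The linear parametrisation `(a, b, t) ↦ a • u + b • v + t • n` of space. -/
noncomputable def frameMap (u v n : E) : (ℝ × ℝ × ℝ) →ₗ[ℝ] E where
  toFun p := p.1 • u + p.2.1 • v + p.2.2 • n
  map_add' p q := by
    simp only [Prod.fst_add, Prod.snd_add]; module
  map_smul' c p := by
    simp only [Prod.smul_fst, Prod.smul_snd, smul_eq_mul, RingHom.id_apply]; module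

/-- The linear parametrisation `(b, t) ↦ b • w + t • n` of a plane. -/
noncomputable def planeMap (w n : E) : (ℝ × ℝ) →ₗ[ℝ] E where
  toFun p := p.1 • w + p.2 • n
  map_add' p q := by
    simp only [Prod.fst_add, Prod.snd_add]; module
  map_smul' c p := by
    simp only [Prod.smul_fst, Prod.smul_snd, smul_eq_mul, RingHom.id_apply]; module

theorem frameMap_apply (u v n : E) (p : ℝ × ℝ × ℝ) :
    frameMap u v n p = p.1 • u + p.2.1 • v + p.2.2 • n := rfl

theorem planeMap_apply (w n : E) (p : ℝ × ℝ) : planeMap w n p = p.1 • w + p.2 • n := rfl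

theorem planeMap_injective {w n : E} (hw : w ≠ 0) (hn : n ≠ 0) (hwn : ⟪n, w⟫_ℝ = 0) :
    Function.Injective (planeMap w n) := by
  rw [← LinearMap.ker_eq_bot, LinearMap.ker_eq_bot']
  intro p hp
  have hp' : p.1 • w + p.2 • n = 0 := hp
  have h1 : p.2 * ⟪n, n⟫_ℝ = 0 := by
    have := congrArg (fun x => ⟪n, x⟫_ℝ) hp'
    simp only [inner_add_right, real_inner_smul_right, hwn, inner_zero_right, mul_zero,
      zero_add] at this
    exact this
  have hnn : ⟪n, n⟫_ℝ ≠ 0 := by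
    rw [real_inner_self_eq_norm_sq]
    exact pow_ne_zero 2 (norm_ne_zero_iff.2 hn)
  have h2 : p.2 = 0 := by
    rcases mul_eq_zero.1 h1 with h | h
    · exact h
    · exact absurd h hnn
  rw [h2, zero_smul, add_zero] at hp'
  have h3 : p.1 = 0 := by
    rcases smul_eq_zero.1 hp' with h | h
    · exact h
    · exact absurd h hw
  exact Prod.ext h3 h2

theorem proj_frameMap_u {u v n : E} (hu : ‖u‖ = 1) (hnu : ⟪n, u⟫_ℝ = 0) (p : ℝ × ℝ × ℝ) :
    frameMap u v n p - ⟪frameMap u v n p, u⟫_ℝ • u = planeMap (v - ⟪v, u⟫_ℝ • u) n p.2 := by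
  have huu : ⟪u, u⟫_ℝ = 1 := by rw [real_inner_self_eq_norm_sq, hu]; norm_num
  rw [frameMap_apply, planeMap_apply, inner_add_left, inner_add_left, real_inner_smul_left,
    real_inner_smul_left, real_inner_smul_left, huu, hnu]
  module

theorem proj_frameMap_v {u v n : E} (hv : ‖v‖ = 1) (hnv : ⟪n, v⟫_ℝ = 0) (p : ℝ × ℝ × ℝ) :
    frameMap u v n p - ⟪frameMap u v n p, v⟫_ℝ • v
      = planeMap (u - ⟪u, v⟫_ℝ • v) n (p.1, p.2.2) := by
  have hvv : ⟪v, v⟫_ℝ = 1 := by rw [real_inner_self_eq_norm_sq, hv]; norm_num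
  rw [frameMap_apply, planeMap_apply, inner_add_left, inner_add_left, real_inner_smul_left,
    real_inner_smul_left, real_inner_smul_left, hvv, hnv]
  module

theorem frameMap_injective {u v n : E} (hu : ‖u‖ = 1) (hn : n ≠ 0) (hnu : ⟪n, u⟫_ℝ = 0)
    (hnv : ⟪n, v⟫_ℝ = 0) (hw : v - ⟪v, u⟫_ℝ • u ≠ 0) : Function.Injective (frameMap u v n) := by
  rw [← LinearMap.ker_eq_bot, LinearMap.ker_eq_bot']
  intro p hp
  have h1 := proj_frameMap_u (v := v) hu hnu p
  rw [hp, inner_zero_left, zero_smul, sub_zero] at h1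
  have hnw : ⟪n, v - ⟪v, u⟫_ℝ • u⟫_ℝ = 0 := by
    rw [inner_sub_right, real_inner_smul_right, hnv, hnu]; simp
  have h2 : p.2 = 0 := planeMap_injective hw hn hnw (by rw [← h1, map_zero])
  have hp' : p.1 • u + p.2.1 • v + p.2.2 • n = 0 := hp
  have h21 : p.2.1 = 0 := by rw [h2]; rfl
  have h22 : p.2.2 = 0 := by rw [h2]; rfl
  rw [h21, h22, zero_smul, zero_smul, add_zero, add_zero] at hp'
  have hu0 : u ≠ 0 := by
    intro h; rw [h, norm_zero] at hu; exact zero_ne_one hu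
  have h3 : p.1 = 0 := by
    rcases smul_eq_zero.1 hp' with h | h
    · exact h
    · exact absurd h hu0
  exact Prod.ext h3 h2

theorem w_symm {u v : E} (hu : ‖u‖ = 1) (hv : ‖v‖ = 1) (hw : v - ⟪v, u⟫_ℝ • u ≠ 0) :
    u - ⟪u, v⟫_ℝ • v ≠ 0 := by
  intro h
  apply hw
  have hus : u = ⟪u, v⟫_ℝ • v := sub_eq_zero.1 h
  have hs : |⟪u, v⟫_ℝ| = 1 := by
    have := congrArg norm hus
    rw [norm_smul, hu, hv, mul_one, Real.norm_eq_abs] at this
    exact this.symm
  have hs2 : ⟪u, v⟫_ℝ * ⟪u, v⟫_ℝ = 1 := by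
    have := abs_mul_abs_self ⟪u, v⟫_ℝ
    rw [hs] at this; linarith
  have hvu : ⟪v, u⟫_ℝ = ⟪u, v⟫_ℝ := real_inner_comm u v
  rw [hvu]
  generalize ⟪u, v⟫_ℝ = s at hus hs2
  rw [hus, smul_smul, hs2, one_smul, sub_self]

theorem proj_eq_of_dep {u v : E} (hu : ‖u‖ = 1) (hv : ‖v‖ = 1) (hw : v - ⟪v, u⟫_ℝ • u = 0)
    (x : E) : x - ⟪x, v⟫_ℝ • v = x - ⟪x, u⟫_ℝ • u := by
  have hvs : v = ⟪v, u⟫_ℝ • u := sub_eq_zero.1 hw
  have hs : |⟪v, u⟫_ℝ| = 1 := by
    have := congrArg norm hvs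
    rw [norm_smul, hu, hv, mul_one, Real.norm_eq_abs] at this
    exact this.symm
  have hs2 : ⟪v, u⟫_ℝ * ⟪v, u⟫_ℝ = 1 := by
    have := abs_mul_abs_self ⟪v, u⟫_ℝ
    rw [hs] at this; linarith
  generalize ⟪v, u⟫_ℝ = s at hvs hs2
  rw [hvs, real_inner_smul_right, smul_smul, mul_assoc, mul_comm ⟪x, u⟫_ℝ s, ← mul_assoc, hs2,
    one_mul]

end Vale.Agent.Lib.P243
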