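import Mathlib
import Vale.Agent.Lib.P243.Frame

open MeasureTheory Measure Set
open scoped ENNReal NNReal InnerProductSpace

namespace Vale.Agent.Lib.P243

variable {E : Type*} [NormedAddCommGroup E] [InnerProductSpace ℝ E] [FiniteDimensional ℝ E]

theorem preimage_facts (hdim : Module.finrank ℝ E = 3)
    {K : Set E} (hK : Convex ℝ K) (hKc : IsCompact K) (hKi : (interior K).Nonempty)
    {u v n : E} (hu : ‖u‖ = 1) (hn : n ≠ 0) (hnu : ⟪n, u⟫_ℝ = 0) (hnv : ⟪n, v⟫_ℝ = 0)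
    (hw : v - ⟪v, u⟫_ℝ • u ≠ 0) :
    Convex ℝ (frameMap u v n ⁻¹' K) ∧ IsCompact (frameMap u v n ⁻¹' K) ∧
      (interior (frameMap u v n ⁻¹' K)).Nonempty ∧ Function.Surjective (frameMap u v n) := by
  have hinj := frameMap_injective hu hn hnu hnv hw
  have hfr : Module.finrank ℝ (ℝ × ℝ × ℝ) = Module.finrank ℝ E := by rw [hdim]; simp
  have hsurj : Function.Surjective (frameMap u v n) :=
    (LinearMap.injective_iff_surjective_of_finrank_eq_finrank hfr).1 hinj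
  have hcl : Topology.IsClosedEmbedding (frameMap u v n) :=
    LinearMap.isClosedEmbedding_of_injective (LinearMap.ker_eq_bot.2 hinj)
  refine ⟨hK.linear_preimage _, hcl.isCompact_preimage hKc, ?_, hsurj⟩
  obtain ⟨x, hx⟩ := hKi
  obtain ⟨p, rfl⟩ := hsurj x
  exact ⟨p, preimage_interior_subset_interior_preimage hcl.continuous hx⟩

omit [FiniteDimensional ℝ E] in
theorem proj_image_u {K : Set E} {u v n : E} (hu : ‖u‖ = 1) (hnu : ⟪n, u⟫_ℝ = 0)
    (hsurj : Function.Surjective (frameMap u v n)) :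
    (fun x => x - ⟪x, u⟫_ℝ • u) '' K
      = planeMap (v - ⟪v, u⟫_ℝ • u) n '' pr1 (frameMap u v n ⁻¹' K) := by
  ext y
  constructor
  · rintro ⟨x, hx, rfl⟩
    obtain ⟨p, rfl⟩ := hsurj x
    exact ⟨p.2, ⟨p, hx, rfl⟩, (proj_frameMap_u hu hnu p).symm⟩
  · rintro ⟨q, ⟨p, hp, rfl⟩, rfl⟩
    exact ⟨frameMap u v n p, hp, proj_frameMap_u hu hnu p⟩

omit [FiniteDimensional ℝ E] in
theorem proj_image_v {K : Set E} {u v n : E} (hv : ‖v‖ = 1) (hnv : ⟪n, v⟫_ℝ = 0)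
    (hsurj : Function.Surjective (frameMap u v n)) :
    (fun x => x - ⟪x, v⟫_ℝ • v) '' K
      = planeMap (u - ⟪u, v⟫_ℝ • v) n '' pr2 (frameMap u v n ⁻¹' K) := by
  ext y
  constructor
  · rintro ⟨x, hx, rfl⟩
    obtain ⟨p, rfl⟩ := hsurj x
    exact ⟨(p.1, p.2.2), ⟨p, hx, rfl⟩, (proj_frameMap_v hv hnv p).symm⟩
  · rintro ⟨q, ⟨p, hp, rfl⟩, rfl⟩
    exact ⟨frameMap u v n p, hp, proj_frameMap_v hv hnv p⟩

variable [MeasurableSpace E] [BorelSpace E]

/-- Two cylinders with linearly independent axis directions, measurable bases. -/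
theorem two_cyl_indep (hdim : Module.finrank ℝ E = 3)
    {K : Set E} (hK : Convex ℝ K) (hKc : IsCompact K) (hKi : (interior K).Nonempty)
    {u v : E} (hu : ‖u‖ = 1) (hv : ‖v‖ = 1) (hw : v - ⟪v, u⟫_ℝ • u ≠ 0)
    {B C : Set E} (hBm : MeasurableSet B) (hCm : MeasurableSet C)
    (hcov : ∀ x ∈ K, (x - ⟪x, u⟫_ℝ • u) ∈ B ∨ (x - ⟪x, v⟫_ℝ • v) ∈ C) :
    (1 / 2 : ℝ≥0∞) ≤
      (μHE[2] : Measure E) B / (μHE[2] : Measure E) ((fun x => x - ⟪x, u⟫_ℝ • u) '' K)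
      + (μHE[2] : Measure E) C / (μHE[2] : Measure E) ((fun x => x - ⟪x, v⟫_ℝ • v) '' K) := by
  obtain ⟨n, hn, hnu, hnv⟩ := exists_normal hdim u v
  obtain ⟨hK', hKc', hKi', hsurj⟩ := preimage_facts hdim hK hKc hKi hu hn hnu hnv hw
  have hw' := w_symm hu hv hw
  have hnw : ⟪n, v - ⟪v, u⟫_ℝ • u⟫_ℝ = 0 := by
    rw [inner_sub_right, real_inner_smul_right, hnv, hnu]; simp
  have hnw' : ⟪n, u - ⟪u, v⟫_ℝ • v⟫_ℝ = 0 := by
    rw [inner_sub_right, real_inner_smul_right, hnv, hnu]; simp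
  have e1 := proj_image_u (K := K) hu hnu hsurj
  have e2 := proj_image_v (K := K) hv hnv hsurj
  obtain ⟨cu, hcu0, hcut, hcu⟩ :=
    exists_area_const (planeMap (v - ⟪v, u⟫_ℝ • u) n) (planeMap_injective hw hn hnw)
  obtain ⟨cv, hcv0, hcvt, hcv⟩ :=
    exists_area_const (planeMap (u - ⟪u, v⟫_ℝ • v) n) (planeMap_injective hw' hn hnw')
  have hLum : Measurable (planeMap (v - ⟪v, u⟫_ℝ • u) n) :=
    (LinearMap.continuous_of_finiteDimensional _).measurable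
  have hLvm : Measurable (planeMap (u - ⟪u, v⟫_ℝ • v) n) :=
    (LinearMap.continuous_of_finiteDimensional _).measurable
  have hB₁ : MeasurableSet (planeMap (v - ⟪v, u⟫_ℝ • u) n ⁻¹' B) := hLum hBm
  have hB₂ : MeasurableSet (planeMap (u - ⟪u, v⟫_ℝ • v) n ⁻¹' C) := hLvm hCm
  have hcov' : ∀ p ∈ frameMap u v n ⁻¹' K, p.2 ∈ planeMap (v - ⟪v, u⟫_ℝ • u) n ⁻¹' B ∨
      (p.1, p.2.2) ∈ planeMap (u - ⟪u, v⟫_ℝ • v) n ⁻¹' C := by
    intro p hp
    rcases hcov _ hp with h | h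
    · left
      show planeMap (v - ⟪v, u⟫_ℝ • u) n p.2 ∈ B
      rw [← proj_frameMap_u hu hnu p]; exact h
    · right
      show planeMap (u - ⟪u, v⟫_ℝ • v) n (p.1, p.2.2) ∈ C
      rw [← proj_frameMap_v hv hnv p]; exact h
  have hmain := coord_two_cylinders hK' hKc' hKi' hB₁ hB₂ hcov'
  have m1 : MeasurableSet (pr1 (frameMap u v n ⁻¹' K)) := (pr1_compact hKc').measurableSet
  have m2 : MeasurableSet (pr2 (frameMap u v n ⁻¹' K)) := (pr2_compact hKc').measurableSet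
  have i1 : volume (planeMap (v - ⟪v, u⟫_ℝ • u) n ⁻¹' B) / volume (pr1 (frameMap u v n ⁻¹' K))
      ≤ (μHE[2] : Measure E) B / (μHE[2] : Measure E) ((fun x => x - ⟪x, u⟫_ℝ • u) '' K) := by
    rw [e1, hcu _ m1, ← ENNReal.mul_div_mul_left _ _ hcu0 hcut, ← hcu _ hB₁]
    exact ENNReal.div_le_div_right (measure_mono (image_preimage_subset _ _)) _
  have i2 : volume (planeMap (u - ⟪u, v⟫_ℝ • v) n ⁻¹' C) / volume (pr2 (frameMap u v n ⁻¹' K))
      ≤ (μHE[2] : Measure E) C / (μHE[2] : Measure E) ((fun x => x - ⟪x, v⟫_ℝ • v) '' K) := by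
    rw [e2, hcv _ m2, ← ENNReal.mul_div_mul_left _ _ hcv0 hcvt, ← hcv _ hB₂]
    exact ENNReal.div_le_div_right (measure_mono (image_preimage_subset _ _)) _
  exact hmain.trans (add_le_add i1 i2)

/-- The orthogonal projection of a convex body along a unit vector has positive finite area. -/
theorem proj_area_pos_finite (hdim : Module.finrank ℝ E = 3)
    {K : Set E} (hK : Convex ℝ K) (hKc : IsCompact K) (hKi : (interior K).Nonempty)
    {u : E} (hu : ‖u‖ = 1) :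
    0 < (μHE[2] : Measure E) ((fun x => x - ⟪x, u⟫_ℝ • u) '' K) ∧
      (μHE[2] : Measure E) ((fun x => x - ⟪x, u⟫_ℝ • u) '' K) < ⊤ := by
  obtain ⟨n₁, hn₁, hn₁u, -⟩ := exists_normal hdim u u
  obtain ⟨v, hv⟩ : ∃ v : E, v = ‖n₁‖⁻¹ • n₁ := ⟨_, rfl⟩
  have hvn : ‖v‖ = 1 := by rw [hv]; exact norm_smul_inv_norm hn₁
  have hvu : ⟪v, u⟫_ℝ = 0 := by rw [hv, real_inner_smul_left, hn₁u, mul_zero]
  have hv0 : v ≠ 0 := by
    intro h; rw [h, norm_zero] at hvn; exact zero_ne_one hvn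
  have hw : v - ⟪v, u⟫_ℝ • u ≠ 0 := by
    rw [hvu, zero_smul, sub_zero]; exact hv0
  obtain ⟨n, hn, hnu, hnv⟩ := exists_normal hdim u v
  obtain ⟨hK', hKc', hKi', hsurj⟩ := preimage_facts hdim hK hKc hKi hu hn hnu hnv hw
  have hnw : ⟪n, v - ⟪v, u⟫_ℝ • u⟫_ℝ = 0 := by
    rw [inner_sub_right, real_inner_smul_right, hnv, hnu]; simp
  have e1 := proj_image_u (K := K) hu hnu hsurj
  obtain ⟨cu, hcu0, hcut, hcu⟩ :=
    exists_area_const (planeMap (v - ⟪v, u⟫_ℝ • u) n) (planeMap_injective hw hn hnw)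
  have m1 : MeasurableSet (pr1 (frameMap u v n ⁻¹' K)) := (pr1_compact hKc').measurableSet
  rw [e1, hcu _ m1]
  exact ⟨ENNReal.mul_pos hcu0 (pr1_volume_pos hKi').ne',
    ENNReal.mul_lt_top hcut.lt_top (pr1_compact hKc').measure_lt_top⟩

/-- Two cylinders (arbitrary bases, arbitrary unit axis directions), projection form. -/
theorem two_cyl_general (hdim : Module.finrank ℝ E = 3)
    {K : Set E} (hK : Convex ℝ K) (hKc : IsCompact K) (hKi : (interior K).Nonempty)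
    {u v : E} (hu : ‖u‖ = 1) (hv : ‖v‖ = 1) {B C : Set E}
    (hcov : ∀ x ∈ K, (x - ⟪x, u⟫_ℝ • u) ∈ B ∨ (x - ⟪x, v⟫_ℝ • v) ∈ C) :
    (1 / 2 : ℝ≥0∞) ≤
      (μHE[2] : Measure E) B / (μHE[2] : Measure E) ((fun x => x - ⟪x, u⟫_ℝ • u) '' K)
      + (μHE[2] : Measure E) C / (μHE[2] : Measure E) ((fun x => x - ⟪x, v⟫_ℝ • v) '' K) := by
  by_cases hw : v - ⟪v, u⟫_ℝ • u = 0
  · have hpe := proj_eq_of_dep hu hv hw
    have e : (fun x => x - ⟪x, v⟫_ℝ • v) = (fun x => x - ⟪x, u⟫_ℝ • u) := funext hpe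
    rw [e]
    obtain ⟨hpos, hfin⟩ := proj_area_pos_finite hdim hK hKc hKi hu
    have hsub : (fun x => x - ⟪x, u⟫_ℝ • u) '' K ⊆ B ∪ C := by
      rintro y ⟨x, hx, rfl⟩
      rcases hcov x hx with h | h
      · exact Or.inl h
      · right
        rw [hpe] at h; exact h
    have h1 : (μHE[2] : Measure E) ((fun x => x - ⟪x, u⟫_ℝ • u) '' K)
        ≤ (μHE[2] : Measure E) B + (μHE[2] : Measure E) C :=
      (measure_mono hsub).trans (measure_union_le _ _)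
    rw [ENNReal.div_add_div_same]
    have h2 : (1 : ℝ≥0∞) ≤ ((μHE[2] : Measure E) B + (μHE[2] : Measure E) C) /
        (μHE[2] : Measure E) ((fun x => x - ⟪x, u⟫_ℝ • u) '' K) :=
      (ENNReal.le_div_iff_mul_le (Or.inl hpos.ne') (Or.inl hfin.ne)).2 (by rwa [one_mul])
    exact le_trans (by norm_num) h2
  · have := two_cyl_indep hdim hK hKc hKi hu hv hw
      (measurableSet_toMeasurable (μHE[2] : Measure E) B)
      (measurableSet_toMeasurable (μHE[2] : Measure E) C)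
      (fun x hx => (hcov x hx).imp (fun h => subset_toMeasurable _ _ h)
        (fun h => subset_toMeasurable _ _ h))
    rwa [measure_toMeasurable, measure_toMeasurable] at this

end Vale.Agent.Lib.P243
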