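import Mathlib
import Vale.Agent.Lib.P243.Eucl

open MeasureTheory Measure Set
open scoped ENNReal NNReal InnerProductSpace

namespace Vale.Agent.Lib.P243

variable {E : Type*} [NormedAddCommGroup E] [InnerProductSpace ℝ E] [FiniteDimensional ℝ E]
  [MeasurableSpace E] [BorelSpace E]

omit [FiniteDimensional ℝ E] [MeasurableSpace E] [BorelSpace E] in
/-- The orthogonal projection along a unit vector `w` of a point `b + s • w` with `b ⟂ w`. -/
theorem proj_cyl_point {w b : E} (hw : ‖w‖ = 1) (hb : ⟪b, w⟫_ℝ = 0) (s : ℝ) :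
    (b + s • w) - ⟪b + s • w, w⟫_ℝ • w = b := by
  have hww : ⟪w, w⟫_ℝ = 1 := by rw [real_inner_self_eq_norm_sq, hw]; norm_num
  rw [inner_add_left, real_inner_smul_left, hb, hww]
  simp

/-- Finite coverings by cylinders whose unit axis directions all lie in `{u, v}`. -/
theorem family_two_dir (hdim : Module.finrank ℝ E = 3) {ι : Type*} [Fintype ι]
    {K : Set E} (hK : Convex ℝ K) (hKc : IsCompact K) (hKi : (interior K).Nonempty)
    {u v : E} (hu : ‖u‖ = 1) (hv : ‖v‖ = 1)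
    (d : ι → E) (hd : ∀ i, d i = u ∨ d i = v)
    (B : ι → Set E) (hB : ∀ i, ∀ x ∈ B i, ⟪x, d i⟫_ℝ = 0)
    (hcov : K ⊆ ⋃ i, {x | ∃ b ∈ B i, ∃ s : ℝ, x = b + s • d i}) :
    (1 / 2 : ℝ≥0∞) ≤ ∑ i, (μHE[2] : Measure E) (B i) /
      (μHE[2] : Measure E) ((fun x => x - ⟪x, d i⟫_ℝ • d i) '' K) := by
  classical
  have hd1 : ∀ i, ‖d i‖ = 1 := fun i => by
    rcases hd i with h | h <;> rw [h] <;> assumption
  set Bu : Set E := ⋃ i ∈ Finset.univ.filter (fun i => d i = u), B i with hBu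
  set Bv : Set E := ⋃ i ∈ Finset.univ.filter (fun i => ¬ d i = u), B i with hBv
  have hcov' : ∀ x ∈ K, (x - ⟪x, u⟫_ℝ • u) ∈ Bu ∨ (x - ⟪x, v⟫_ℝ • v) ∈ Bv := by
    intro x hx
    obtain ⟨i, b, hb, s, rfl⟩ := mem_iUnion.1 (hcov hx)
    have hproj := proj_cyl_point (hd1 i) (hB i b hb) s
    by_cases hi : d i = u
    · left
      rw [← hi, hproj]
      exact mem_biUnion (by simp [hi]) hb
    · right
      have hiv : d i = v := (hd i).resolve_left hi
      rw [← hiv, hproj]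
      exact mem_biUnion (by simp [hi]) hb
  have key := two_cyl_general hdim hK hKc hKi hu hv hcov'
  have h1 : (μHE[2] : Measure E) Bu / (μHE[2] : Measure E) ((fun x => x - ⟪x, u⟫_ℝ • u) '' K)
      ≤ ∑ i ∈ Finset.univ.filter (fun i => d i = u), (μHE[2] : Measure E) (B i) /
        (μHE[2] : Measure E) ((fun x => x - ⟪x, d i⟫_ℝ • d i) '' K) := by
    have e : ∑ i ∈ Finset.univ.filter (fun i => d i = u), (μHE[2] : Measure E) (B i) /
        (μHE[2] : Measure E) ((fun x => x - ⟪x, d i⟫_ℝ • d i) '' K)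
        = (∑ i ∈ Finset.univ.filter (fun i => d i = u), (μHE[2] : Measure E) (B i)) /
          (μHE[2] : Measure E) ((fun x => x - ⟪x, u⟫_ℝ • u) '' K) := by
      simp only [div_eq_mul_inv]
      rw [Finset.sum_mul]
      refine Finset.sum_congr rfl (fun i hi => ?_)
      rw [(Finset.mem_filter.1 hi).2]
    rw [e]
    exact ENNReal.div_le_div_right (measure_biUnion_finset_le _ _) _
  have h2 : (μHE[2] : Measure E) Bv / (μHE[2] : Measure E) ((fun x => x - ⟪x, v⟫_ℝ • v) '' K)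
      ≤ ∑ i ∈ Finset.univ.filter (fun i => ¬ d i = u), (μHE[2] : Measure E) (B i) /
        (μHE[2] : Measure E) ((fun x => x - ⟪x, d i⟫_ℝ • d i) '' K) := by
    have e : ∑ i ∈ Finset.univ.filter (fun i => ¬ d i = u), (μHE[2] : Measure E) (B i) /
        (μHE[2] : Measure E) ((fun x => x - ⟪x, d i⟫_ℝ • d i) '' K)
        = (∑ i ∈ Finset.univ.filter (fun i => ¬ d i = u), (μHE[2] : Measure E) (B i)) /
          (μHE[2] : Measure E) ((fun x => x - ⟪x, v⟫_ℝ • v) '' K) := by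
      simp only [div_eq_mul_inv]
      rw [Finset.sum_mul]
      refine Finset.sum_congr rfl (fun i hi => ?_)
      rw [(hd i).resolve_left (Finset.mem_filter.1 hi).2]
    rw [e]
    exact ENNReal.div_le_div_right (measure_biUnion_finset_le _ _) _
  calc (1 / 2 : ℝ≥0∞) ≤ _ := key
    _ ≤ _ := add_le_add h1 h2
    _ = _ := Finset.sum_filter_add_sum_filter_not _ _ _

/-- Finite coverings by cylinders whose unit axis directions take at most two values. -/
theorem family_two_dir' (hdim : Module.finrank ℝ E = 3) {ι : Type*} [Fintype ι]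
    {K : Set E} (hK : Convex ℝ K) (hKc : IsCompact K) (hKi : (interior K).Nonempty)
    (d : ι → E) (hd1 : ∀ i, ‖d i‖ = 1) (hd2 : ∃ u v : E, ∀ i, d i = u ∨ d i = v)
    (B : ι → Set E) (hB : ∀ i, ∀ x ∈ B i, ⟪x, d i⟫_ℝ = 0)
    (hcov : K ⊆ ⋃ i, {x | ∃ b ∈ B i, ∃ s : ℝ, x = b + s • d i}) :
    (1 / 2 : ℝ≥0∞) ≤ ∑ i, (μHE[2] : Measure E) (B i) /
      (μHE[2] : Measure E) ((fun x => x - ⟪x, d i⟫_ℝ • d i) '' K) := by
  obtain ⟨u, v, huv⟩ := hd2
  obtain ⟨x, hx⟩ := hKi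
  obtain ⟨i₀, -⟩ := mem_iUnion.1 (hcov (interior_subset hx))
  by_cases hu : ∃ i, d i = u
  · by_cases hv : ∃ i, d i = v
    · obtain ⟨i, hi⟩ := hu
      obtain ⟨j, hj⟩ := hv
      exact family_two_dir hdim hK hKc ⟨x, hx⟩ (hi ▸ hd1 i) (hj ▸ hd1 j) d huv B hB hcov
    · obtain ⟨i, hi⟩ := hu
      refine family_two_dir hdim hK hKc ⟨x, hx⟩ (hi ▸ hd1 i) (hi ▸ hd1 i) d (fun j => ?_) B hB hcov
      rcases huv j with h | h
      · exact Or.inl h
      · exact absurd ⟨j, h⟩ hv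
  · have hall : ∀ j, d j = v := fun j => (huv j).resolve_left (fun h => hu ⟨j, h⟩)
    have hvn : ‖v‖ = 1 := hall i₀ ▸ hd1 i₀
    exact family_two_dir hdim hK hKc ⟨x, hx⟩ hvn hvn d (fun j => Or.inl (hall j)) B hB hcov

/-- The same in the form of Bang's question: total base area at least half the minimal
projection area. -/
theorem family_two_dir_amin (hdim : Module.finrank ℝ E = 3) {ι : Type*} [Fintype ι]
    {K : Set E} (hK : Convex ℝ K) (hKc : IsCompact K) (hKi : (interior K).Nonempty)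
    (d : ι → E) (hd1 : ∀ i, ‖d i‖ = 1) (hd2 : ∃ u v : E, ∀ i, d i = u ∨ d i = v)
    (B : ι → Set E) (hB : ∀ i, ∀ x ∈ B i, ⟪x, d i⟫_ℝ = 0)
    (hcov : K ⊆ ⋃ i, {x | ∃ b ∈ B i, ∃ s : ℝ, x = b + s • d i}) :
    (1 / 2 : ℝ≥0∞) * (⨅ w : {w : E // ‖w‖ = 1},
        (μHE[2] : Measure E) ((fun x => x - ⟪x, (w : E)⟫_ℝ • (w : E)) '' K))
      ≤ ∑ i, (μHE[2] : Measure E) (B i) := by
  have key := family_two_dir' hdim hK hKc hKi d hd1 hd2 B hB hcov
  set A : ℝ≥0∞ := ⨅ w : {w : E // ‖w‖ = 1},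
    (μHE[2] : Measure E) ((fun x => x - ⟪x, (w : E)⟫_ℝ • (w : E)) '' K) with hA
  have hAle : ∀ i, A ≤ (μHE[2] : Measure E) ((fun x => x - ⟪x, d i⟫_ℝ • d i) '' K) :=
    fun i => iInf_le (fun w : {w : E // ‖w‖ = 1} =>
      (μHE[2] : Measure E) ((fun x => x - ⟪x, (w : E)⟫_ℝ • (w : E)) '' K)) ⟨d i, hd1 i⟩
  calc (1 / 2 : ℝ≥0∞) * A
      ≤ (∑ i, (μHE[2] : Measure E) (B i) /
          (μHE[2] : Measure E) ((fun x => x - ⟪x, d i⟫_ℝ • d i) '' K)) * A := by gcongr
    _ = ∑ i, (μHE[2] : Measure E) (B i) /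
          (μHE[2] : Measure E) ((fun x => x - ⟪x, d i⟫_ℝ • d i) '' K) * A := Finset.sum_mul _ _ _
    _ ≤ ∑ i, (μHE[2] : Measure E) (B i) := by
        refine Finset.sum_le_sum (fun i _ => ?_)
        obtain ⟨hpos, hfin⟩ := proj_area_pos_finite hdim hK hKc hKi (hd1 i)
        calc (μHE[2] : Measure E) (B i) /
              (μHE[2] : Measure E) ((fun x => x - ⟪x, d i⟫_ℝ • d i) '' K) * A
            ≤ (μHE[2] : Measure E) (B i) /
              (μHE[2] : Measure E) ((fun x => x - ⟪x, d i⟫_ℝ • d i) '' K) *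
              (μHE[2] : Measure E) ((fun x => x - ⟪x, d i⟫_ℝ • d i) '' K) := by
                gcongr
                exact hAle i
          _ = (μHE[2] : Measure E) (B i) := ENNReal.div_mul_cancel hpos.ne' hfin.ne

end Vale.Agent.Lib.P243
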