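import Mathlib
import Vale.Agent.Lib.P243.Family
import Vale.Agent.Lib.P243.helper23.CalcCore

open MeasureTheory Measure Set
open scoped ENNReal NNReal InnerProductSpace

namespace Vale.Agent.Lib.P243

open Vale.Agent.Lib.P243.helper23 (phi)

/-- Shape of the coordinate form of the cylinder-section volume bound. -/
def CoordBound : Prop :=
  ∀ K : Set (ℝ × ℝ × ℝ), Convex ℝ K → IsCompact K → (interior K).Nonempty →
    ∀ B : Set (ℝ × ℝ), MeasurableSet B → B ⊆ Prod.snd '' K →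
      volume (K ∩ Prod.snd ⁻¹' B) ≤
        ENNReal.ofReal (phi ((volume B).toReal / (volume (Prod.snd '' K)).toReal)) * volume K

variable {E : Type*} [NormedAddCommGroup E] [InnerProductSpace ℝ E] [FiniteDimensional ℝ E]
  [MeasurableSpace E] [BorelSpace E]

/-- A bijective linear parametrisation of space scales volume by a positive finite constant. -/
theorem exists_vol_const (μ : Measure E) [μ.IsAddHaarMeasure]
    (Ψ : (ℝ × ℝ × ℝ) →ₗ[ℝ] E) (hinj : Function.Injective Ψ) (hsurj : Function.Surjective Ψ) :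
    ∃ c : ℝ≥0∞, c ≠ 0 ∧ c ≠ ⊤ ∧
      ∀ T : Set E, MeasurableSet T → μ T = c * volume (Ψ ⁻¹' T) := by
  let e : (ℝ × ℝ × ℝ) ≃ₗ[ℝ] E := LinearEquiv.ofBijective Ψ ⟨hinj, hsurj⟩
  let eC : (ℝ × ℝ × ℝ) ≃L[ℝ] E := e.toContinuousLinearEquiv
  have heC : ∀ p, eC p = Ψ p := fun p => rfl
  have hvol : (volume : Measure (ℝ × ℝ × ℝ)).IsAddHaarMeasure := by
    have h : (volume : Measure (ℝ × ℝ × ℝ))
        = (volume : Measure ℝ).prod (volume : Measure (ℝ × ℝ)) := rfl
    rw [h]; infer_instance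
  have hmap : (Measure.map eC (volume : Measure (ℝ × ℝ × ℝ))).IsAddHaarMeasure :=
    eC.isAddHaarMeasure_map volume
  have huniq : μ = addHaarScalarFactor μ (Measure.map eC volume) • Measure.map eC volume :=
    isAddLeftInvariant_eq_smul μ _
  have hpos : 0 < addHaarScalarFactor μ (Measure.map eC (volume : Measure (ℝ × ℝ × ℝ))) :=
    addHaarScalarFactor_pos_of_isAddHaarMeasure _ _
  refine ⟨(addHaarScalarFactor μ (Measure.map eC (volume : Measure (ℝ × ℝ × ℝ))) : ℝ≥0∞), ?_,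
    ENNReal.coe_ne_top, ?_⟩
  · exact_mod_cast hpos.ne'
  · intro T hT
    conv_lhs => rw [huniq]
    rw [Measure.smul_apply, map_apply eC.continuous.measurable hT]
    have : (eC ⁻¹' T) = Ψ ⁻¹' T := by
      ext p; simp [heC]
    rw [this]
    simp [ENNReal.smul_def]

omit [FiniteDimensional ℝ E] [MeasurableSpace E] [BorelSpace E] in
theorem proj_neg (w x : E) : x - ⟪x, -w⟫_ℝ • (-w) = x - ⟪x, w⟫_ℝ • w := by
  rw [inner_neg_right]; simp

omit [FiniteDimensional ℝ E] [MeasurableSpace E] [BorelSpace E] in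
theorem continuous_proj (u : E) : Continuous (fun x : E => x - ⟪x, u⟫_ℝ • u) := by
  fun_prop

theorem phi_nonneg {b : ℝ} (h0 : 0 ≤ b) (h1 : b ≤ 1) : 0 ≤ phi b := by
  unfold phi
  have hs : Real.sqrt b ≤ 1 := by
    exact Real.sqrt_le_one.mpr h1
  have hs0 : 0 ≤ Real.sqrt b := Real.sqrt_nonneg b
  nlinarith [mul_nonneg h0 hs0, mul_nonneg h0 (sub_nonneg.2 hs)]

theorem phi_zero : phi 0 = 0 := by
  unfold phi; simp

/-- One direction: the part of a convex body over a base set `B` has volume fraction at most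
`phi b` with `b` at most the area ratio. -/
theorem single_dir (hV : CoordBound) (hdim : Module.finrank ℝ E = 3)
    (μ : Measure E) [μ.IsAddHaarMeasure]
    {K : Set E} (hK : Convex ℝ K) (hKc : IsCompact K) (hKi : (interior K).Nonempty)
    {u : E} (hu : ‖u‖ = 1) (B : Set E) :
    ∃ b : ℝ, 0 ≤ b ∧ b ≤ 1 ∧
      ENNReal.ofReal b ≤ (μHE[2] : Measure E) B /
        (μHE[2] : Measure E) ((fun x => x - ⟪x, u⟫_ℝ • u) '' K) ∧
      μ (K ∩ {x | x - ⟪x, u⟫_ℝ • u ∈ B}) ≤ ENNReal.ofReal (phi b) * μ K := by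
  obtain ⟨n₁, hn₁, hn₁u, -⟩ := exists_normal hdim u u
  obtain ⟨v, hv⟩ : ∃ v : E, v = ‖n₁‖⁻¹ • n₁ := ⟨_, rfl⟩
  have hvn : ‖v‖ = 1 := by rw [hv]; exact norm_smul_inv_norm hn₁
  have hvu : ⟪v, u⟫_ℝ = 0 := by rw [hv, real_inner_smul_left, hn₁u, mul_zero]
  have hv0 : v ≠ 0 := by
    intro h; rw [h, norm_zero] at hvn; exact zero_ne_one hvn
  have hw : v - ⟪v, u⟫_ℝ • u ≠ 0 := by
    rw [hvu, zero_smul, sub_zero]; exact hv0
  obtain ⟨n, hn, hnu, hnv⟩ := exists_normal hdim u v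
  obtain ⟨hK', hKc', hKi', hsurj⟩ := preimage_facts hdim hK hKc hKi hu hn hnu hnv hw
  have hinj := frameMap_injective hu hn hnu hnv hw
  have hnw : ⟪n, v - ⟪v, u⟫_ℝ • u⟫_ℝ = 0 := by
    rw [inner_sub_right, real_inner_smul_right, hnv, hnu]; simp
  have e1 := proj_image_u (K := K) hu hnu hsurj
  obtain ⟨cu, hcu0, hcut, hcu⟩ :=
    exists_area_const (planeMap (v - ⟪v, u⟫_ℝ • u) n) (planeMap_injective hw hn hnw)
  obtain ⟨c₃, hc0, hct, hc⟩ := exists_vol_const μ (frameMap u v n) hinj hsurj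
  set Ψ := frameMap u v n with hΨ
  set L := planeMap (v - ⟪v, u⟫_ℝ • u) n with hL
  set Bm : Set E := toMeasurable (μHE[2] : Measure E) B with hBm
  have hBmm : MeasurableSet Bm := measurableSet_toMeasurable _ _
  have hLm : Measurable L := (LinearMap.continuous_of_finiteDimensional _).measurable
  have m1 : MeasurableSet (pr1 (Ψ ⁻¹' K)) := (pr1_compact hKc').measurableSet
  set B' : Set (ℝ × ℝ) := L ⁻¹' Bm ∩ pr1 (Ψ ⁻¹' K) with hB'
  have hB'm : MeasurableSet B' := (hLm hBmm).inter m1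
  have hB'sub : B' ⊆ Prod.snd '' (Ψ ⁻¹' K) := inter_subset_right
  have hmain := hV (Ψ ⁻¹' K) hK' hKc' hKi' B' hB'm hB'sub
  have hpos : 0 < volume (pr1 (Ψ ⁻¹' K)) := pr1_volume_pos hKi'
  have hfin : volume (pr1 (Ψ ⁻¹' K)) < ⊤ := (pr1_compact hKc').measure_lt_top
  have hB'le : volume B' ≤ volume (pr1 (Ψ ⁻¹' K)) := measure_mono inter_subset_right
  have hB'fin : volume B' < ⊤ := hB'le.trans_lt hfin
  have hposR : 0 < (volume (pr1 (Ψ ⁻¹' K))).toReal := ENNReal.toReal_pos hpos.ne' hfin.ne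
  refine ⟨(volume B').toReal / (volume (pr1 (Ψ ⁻¹' K))).toReal, by positivity, ?_, ?_, ?_⟩
  · rw [div_le_one hposR]
    exact ENNReal.toReal_mono hfin.ne hB'le
  · rw [ENNReal.ofReal_div_of_pos hposR, ENNReal.ofReal_toReal hB'fin.ne,
      ENNReal.ofReal_toReal hfin.ne, e1, hcu _ m1, ← ENNReal.mul_div_mul_left _ _ hcu0 hcut,
      ← hcu _ hB'm]
    refine ENNReal.div_le_div_right ?_ _
    calc (μHE[2] : Measure E) (L '' B') ≤ (μHE[2] : Measure E) Bm := by
          refine measure_mono ?_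
          rintro y ⟨q, hq, rfl⟩
          exact hq.1
      _ = (μHE[2] : Measure E) B := measure_toMeasurable _
  · have hKm : MeasurableSet K := hKc.measurableSet
    have hTm : MeasurableSet (K ∩ {x | x - ⟪x, u⟫_ℝ • u ∈ Bm}) :=
      hKm.inter ((continuous_proj u).measurable hBmm)
    have hpre : Ψ ⁻¹' (K ∩ {x | x - ⟪x, u⟫_ℝ • u ∈ Bm}) = Ψ ⁻¹' K ∩ Prod.snd ⁻¹' B' := by
      ext p
      constructor
      · rintro ⟨h1, h2⟩
        have h2' : Ψ p - ⟪Ψ p, u⟫_ℝ • u ∈ Bm := h2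
        rw [hΨ, proj_frameMap_u hu hnu p] at h2'
        exact ⟨h1, h2', ⟨p, h1, rfl⟩⟩
      · rintro ⟨h1, h2, -⟩
        refine ⟨h1, ?_⟩
        show Ψ p - ⟪Ψ p, u⟫_ℝ • u ∈ Bm
        rw [hΨ, proj_frameMap_u hu hnu p]
        exact h2
    calc μ (K ∩ {x | x - ⟪x, u⟫_ℝ • u ∈ B})
        ≤ μ (K ∩ {x | x - ⟪x, u⟫_ℝ • u ∈ Bm}) := by
          refine measure_mono (inter_subset_inter_right _ ?_)
          intro x hx
          exact subset_toMeasurable _ _ hx
      _ = c₃ * volume (Ψ ⁻¹' K ∩ Prod.snd ⁻¹' B') := by rw [hc _ hTm, hpre]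
      _ ≤ c₃ * (ENNReal.ofReal (phi ((volume B').toReal /
            (volume (Prod.snd '' (Ψ ⁻¹' K))).toReal)) * volume (Ψ ⁻¹' K)) := by gcongr
      _ = ENNReal.ofReal (phi ((volume B').toReal / (volume (pr1 (Ψ ⁻¹' K))).toReal)) * μ K := by
          rw [hc _ hKm]; unfold pr1; ring

/-- All cylinders of one axis line (direction up to sign), merged. -/
theorem per_dir (hV : CoordBound) (hdim : Module.finrank ℝ E = 3)
    (μ : Measure E) [μ.IsAddHaarMeasure] {ι : Type*} [Fintype ι] [DecidableEq ι]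
    {K : Set E} (hK : Convex ℝ K) (hKc : IsCompact K) (hKi : (interior K).Nonempty)
    (d : ι → E) (hd1 : ∀ i, ‖d i‖ = 1) (B : ι → Set E)
    (F : Finset ι) (w : E) (hF : ∀ i ∈ F, d i = w ∨ d i = -w) :
    ∃ b : ℝ, 0 ≤ b ∧ b ≤ 1 ∧
      ENNReal.ofReal b ≤ ∑ i ∈ F, (μHE[2] : Measure E) (B i) /
        (μHE[2] : Measure E) ((fun x => x - ⟪x, d i⟫_ℝ • d i) '' K) ∧
      μ (K ∩ {x | ∃ i ∈ F, x - ⟪x, d i⟫_ℝ • d i ∈ B i}) ≤ ENNReal.ofReal (phi b) * μ K := by
  rcases F.eq_empty_or_nonempty with hFe | ⟨i₀, hi₀⟩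
  · refine ⟨0, le_refl _, zero_le_one, by simp, ?_⟩
    rw [hFe]
    simp
  · have hproj : ∀ i ∈ F, (fun x : E => x - ⟪x, d i⟫_ℝ • d i)
        = (fun x : E => x - ⟪x, d i₀⟫_ℝ • d i₀) := by
      intro i hi
      funext x
      rcases hF i hi with h | h <;> rcases hF i₀ hi₀ with h' | h' <;> rw [h, h'] <;>
        simp [inner_neg_right]
    obtain ⟨b, hb0, hb1, hbr, hbv⟩ :=
      single_dir hV hdim μ hK hKc hKi (hd1 i₀) (⋃ i ∈ F, B i)
    refine ⟨b, hb0, hb1, ?_, ?_⟩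
    · refine hbr.trans ?_
      have e : ∑ i ∈ F, (μHE[2] : Measure E) (B i) /
          (μHE[2] : Measure E) ((fun x => x - ⟪x, d i⟫_ℝ • d i) '' K)
          = (∑ i ∈ F, (μHE[2] : Measure E) (B i)) /
            (μHE[2] : Measure E) ((fun x => x - ⟪x, d i₀⟫_ℝ • d i₀) '' K) := by
        simp only [div_eq_mul_inv]
        rw [Finset.sum_mul]
        refine Finset.sum_congr rfl (fun i hi => ?_)
        rw [hproj i hi]
      rw [e]
      exact ENNReal.div_le_div_right (measure_biUnion_finset_le _ _) _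
    · refine le_trans (measure_mono (inter_subset_inter_right _ ?_)) hbv
      rintro x ⟨i, hi, hx⟩
      have hxe : x - ⟪x, d i⟫_ℝ • d i = x - ⟪x, d i₀⟫_ℝ • d i₀ := congrFun (hproj i hi) x
      rw [hxe] at hx
      exact mem_biUnion hi hx

/-- Coverings by cylinders whose axis lines take at most `J` values: the volume count. -/
theorem family_dir_core (hV : CoordBound) (hdim : Module.finrank ℝ E = 3)
    (μ : Measure E) [μ.IsAddHaarMeasure] {ι : Type*} [Fintype ι]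
    {K : Set E} (hK : Convex ℝ K) (hKc : IsCompact K) (hKi : (interior K).Nonempty)
    (d : ι → E) (hd1 : ∀ i, ‖d i‖ = 1) (B : ι → Set E)
    (hB : ∀ i, ∀ x ∈ B i, ⟪x, d i⟫_ℝ = 0)
    (hcov : K ⊆ ⋃ i, {x | ∃ b ∈ B i, ∃ s : ℝ, x = b + s • d i})
    (J : ℕ) (dir : Fin J → E) (hdir : ∀ i, ∃ j, d i = dir j ∨ d i = -dir j) :
    ∃ b : Fin J → ℝ, (∀ j, 0 ≤ b j) ∧ (∀ j, b j ≤ 1) ∧ 1 ≤ ∑ j, phi (b j) ∧
      ENNReal.ofReal (∑ j, b j) ≤ ∑ i, (μHE[2] : Measure E) (B i) /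
        (μHE[2] : Measure E) ((fun x => x - ⟪x, d i⟫_ℝ • d i) '' K) := by
  classical
  choose g hg using hdir
  have hper : ∀ j : Fin J, ∃ b : ℝ, 0 ≤ b ∧ b ≤ 1 ∧
      ENNReal.ofReal b ≤ ∑ i ∈ Finset.univ.filter (fun i => g i = j),
        (μHE[2] : Measure E) (B i) /
        (μHE[2] : Measure E) ((fun x => x - ⟪x, d i⟫_ℝ • d i) '' K) ∧
      μ (K ∩ {x | ∃ i ∈ Finset.univ.filter (fun i => g i = j), x - ⟪x, d i⟫_ℝ • d i ∈ B i})
        ≤ ENNReal.ofReal (phi b) * μ K := by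
    intro j
    refine per_dir hV hdim μ hK hKc hKi d hd1 B _ (dir j) ?_
    intro i hi
    have := hg i
    rw [(Finset.mem_filter.1 hi).2] at this
    exact this
  choose b hb0 hb1 hbr hbv using hper
  refine ⟨b, hb0, hb1, ?_, ?_⟩
  · have hμpos : 0 < μ K :=
      lt_of_lt_of_le (isOpen_interior.measure_pos μ hKi) (measure_mono interior_subset)
    have hμfin : μ K < ⊤ := hKc.measure_lt_top
    have hsub : K ⊆ ⋃ j : Fin J,
        (K ∩ {x | ∃ i ∈ Finset.univ.filter (fun i => g i = j), x - ⟪x, d i⟫_ℝ • d i ∈ B i}) := by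
      intro x hx
      obtain ⟨i, c, hc, s, rfl⟩ := mem_iUnion.1 (hcov hx)
      refine mem_iUnion.2 ⟨g i, hx, i, by simp, ?_⟩
      rw [proj_cyl_point (hd1 i) (hB i c hc) s]
      exact hc
    have h1 : μ K ≤ ENNReal.ofReal (∑ j, phi (b j)) * μ K := by
      calc μ K ≤ ∑ j : Fin J, μ (K ∩ {x | ∃ i ∈ Finset.univ.filter (fun i => g i = j),
            x - ⟪x, d i⟫_ℝ • d i ∈ B i}) :=
            (measure_mono hsub).trans (measure_iUnion_fintype_le _ _)
        _ ≤ ∑ j : Fin J, ENNReal.ofReal (phi (b j)) * μ K :=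
            Finset.sum_le_sum (fun j _ => hbv j)
        _ = ENNReal.ofReal (∑ j, phi (b j)) * μ K := by
            rw [← Finset.sum_mul, ENNReal.ofReal_sum_of_nonneg]
            intro j _
            exact phi_nonneg (hb0 j) (hb1 j)
    by_contra hlt
    push Not at hlt
    have h2 : ENNReal.ofReal (∑ j, phi (b j)) < 1 := by
      rw [← ENNReal.ofReal_one]
      exact (ENNReal.ofReal_lt_ofReal_iff one_pos).2 hlt
    have h3 : ENNReal.ofReal (∑ j, phi (b j)) * μ K < 1 * μ K :=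
      ENNReal.mul_lt_mul_left hμpos.ne' hμfin.ne h2
    rw [one_mul] at h3
    exact absurd h1 (not_le.2 h3)
  · rw [ENNReal.ofReal_sum_of_nonneg (fun j _ => hb0 j)]
    calc ∑ j, ENNReal.ofReal (b j)
        ≤ ∑ j, ∑ i ∈ Finset.univ.filter (fun i => g i = j), (μHE[2] : Measure E) (B i) /
          (μHE[2] : Measure E) ((fun x => x - ⟪x, d i⟫_ℝ • d i) '' K) :=
          Finset.sum_le_sum (fun j _ => hbr j)
      _ = ∑ i, (μHE[2] : Measure E) (B i) /
          (μHE[2] : Measure E) ((fun x => x - ⟪x, d i⟫_ℝ • d i) '' K) :=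
          Finset.sum_fiberwise _ g _

end Vale.Agent.Lib.P243
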