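import Mathlib
import Vale.Agent.Lib.P243.Tetra
import Vale.Agent.Lib.P243.Transfer

open MeasureTheory Measure Set
open scoped ENNReal NNReal InnerProductSpace

namespace Vale.Agent.Lib.P243

variable {E : Type*} [NormedAddCommGroup E] [InnerProductSpace ℝ E]

/-- The simplex spanned by four points: the set of their convex combinations. -/
def simplexSet (q : Fin 4 → E) : Set E :=
  {x | ∃ w : Fin 4 → ℝ, (∀ i, 0 ≤ w i) ∧ ∑ i, w i = 1 ∧ x = ∑ i, w i • q i}

/-- The central octahedron of the simplex: convex combinations with all weights at most one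
half. -/
def octSet (q : Fin 4 → E) : Set E :=
  {x | ∃ w : Fin 4 → ℝ, (∀ i, 0 ≤ w i ∧ w i ≤ 1 / 2) ∧ ∑ i, w i = 1 ∧ x = ∑ i, w i • q i}

theorem octSet_subset (q : Fin 4 → E) : octSet q ⊆ simplexSet q := by
  rintro x ⟨w, hw, hw1, hx⟩
  exact ⟨w, fun i => (hw i).1, hw1, hx⟩

theorem comb_eq (q : Fin 4 → E) (w : Fin 4 → ℝ) (hw : ∑ i, w i = 1) :
    ∑ i, w i • q i = q 0 + frameMap (q 1 - q 0) (q 2 - q 0) (q 3 - q 0) (w 1, w 2, w 3) := by
  rw [Fin.sum_univ_four] at hw ⊢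
  rw [frameMap_apply]
  have w0 : w 0 = 1 - w 1 - w 2 - w 3 := by linarith
  rw [w0]
  module

theorem frame_inj {q : Fin 4 → E} (hq : AffineIndependent ℝ q) :
    Function.Injective (frameMap (q 1 - q 0) (q 2 - q 0) (q 3 - q 0)) := by
  rw [← LinearMap.ker_eq_bot, LinearMap.ker_eq_bot']
  intro x hx
  have hx' : x.1 • (q 1 - q 0) + x.2.1 • (q 2 - q 0) + x.2.2 • (q 3 - q 0) = 0 := hx
  have key := (affineIndependent_iff_of_fintype ℝ q).1 hq
    ![-(x.1 + x.2.1 + x.2.2), x.1, x.2.1, x.2.2]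
    (by rw [Fin.sum_univ_four]; simp; ring)
    (by
      rw [Finset.weightedVSub_eq_linear_combination _ (by rw [Fin.sum_univ_four]; simp; ring),
        Fin.sum_univ_four]
      simp only [Matrix.cons_val_zero, Matrix.cons_val_one, Matrix.cons_val]
      rw [← hx']
      module)
  have h1 := key 1
  have h2 := key 2
  have h3 := key 3
  simp only [Matrix.cons_val_one, Matrix.cons_val] at h1 h2 h3
  exact Prod.ext h1 (Prod.ext h2 h3)

theorem par_mem_simplex {q : Fin 4 → E} (hq : AffineIndependent ℝ q) (x : ℝ × ℝ × ℝ) :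
    q 0 + frameMap (q 1 - q 0) (q 2 - q 0) (q 3 - q 0) x ∈ simplexSet q ↔ x ∈ stdTet := by
  constructor
  · rintro ⟨w, hw0, hw1, hx⟩
    rw [comb_eq q w hw1] at hx
    have hx' := frame_inj hq (add_left_cancel hx)
    rw [hx']
    rw [Fin.sum_univ_four] at hw1
    exact ⟨hw0 1, hw0 2, hw0 3, by show w 1 + w 2 + w 3 ≤ 1; linarith [hw0 0]⟩
  · rintro ⟨h1, h2, h3, h4⟩
    have hsum : ∑ i, (![1 - (x.1 + x.2.1 + x.2.2), x.1, x.2.1, x.2.2] : Fin 4 → ℝ) i = 1 := by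
      rw [Fin.sum_univ_four]; simp; ring
    refine ⟨![1 - (x.1 + x.2.1 + x.2.2), x.1, x.2.1, x.2.2], ?_, hsum, ?_⟩
    · intro i
      fin_cases i
      · show 0 ≤ 1 - (x.1 + x.2.1 + x.2.2); linarith
      · exact h1
      · exact h2
      · exact h3
    · rw [comb_eq q _ hsum]
      rfl

theorem par_mem_oct {q : Fin 4 → E} (hq : AffineIndependent ℝ q) (x : ℝ × ℝ × ℝ) :
    q 0 + frameMap (q 1 - q 0) (q 2 - q 0) (q 3 - q 0) x ∈ octSet q ↔ x ∈ stdOct := by
  constructor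
  · rintro ⟨w, hw0, hw1, hx⟩
    rw [comb_eq q w hw1] at hx
    have hx' := frame_inj hq (add_left_cancel hx)
    rw [hx']
    rw [Fin.sum_univ_four] at hw1
    refine ⟨hw0 1, hw0 2, hw0 3, ?_, ?_⟩
    · show 1 / 2 ≤ w 1 + w 2 + w 3; linarith [(hw0 0).2]
    · show w 1 + w 2 + w 3 ≤ 1; linarith [(hw0 0).1]
  · rintro ⟨h1, h2, h3, h4, h5⟩
    have hsum : ∑ i, (![1 - (x.1 + x.2.1 + x.2.2), x.1, x.2.1, x.2.2] : Fin 4 → ℝ) i = 1 := by
      rw [Fin.sum_univ_four]; simp; ring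
    refine ⟨![1 - (x.1 + x.2.1 + x.2.2), x.1, x.2.1, x.2.2], ?_, hsum, ?_⟩
    · intro i
      fin_cases i
      · show 0 ≤ 1 - (x.1 + x.2.1 + x.2.2) ∧ 1 - (x.1 + x.2.1 + x.2.2) ≤ 1 / 2
        constructor <;> linarith
      · exact h1
      · exact h2
      · exact h3
    · rw [comb_eq q _ hsum]
      rfl

/-- Orthogonal projection along a unit vector parallel to the edge `q 0 q 1`, in the
coordinates of the simplex. -/
theorem proj_par {q : Fin 4 → E} {d : E} (hd : ‖d‖ = 1) {c : ℝ} (hc : d = c • (q 1 - q 0))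
    (x : ℝ × ℝ × ℝ) :
    (q 0 + frameMap (q 1 - q 0) (q 2 - q 0) (q 3 - q 0) x)
        - ⟪q 0 + frameMap (q 1 - q 0) (q 2 - q 0) (q 3 - q 0) x, d⟫_ℝ • d
      = (q 0 - ⟪q 0, d⟫_ℝ • d)
        + planeMap ((q 2 - q 0) - ⟪q 2 - q 0, d⟫_ℝ • d) ((q 3 - q 0) - ⟪q 3 - q 0, d⟫_ℝ • d) x.2 := by
  have hdd : ⟪d, d⟫_ℝ = 1 := by rw [real_inner_self_eq_norm_sq, hd]; norm_num
  have hc0 : c ≠ 0 := by
    rintro rfl
    rw [zero_smul] at hc
    rw [hc, norm_zero] at hd
    exact zero_ne_one hd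
  have hu : q 1 - q 0 = c⁻¹ • d := by
    rw [hc, smul_smul, inv_mul_cancel₀ hc0, one_smul]
  have hu1 : (q 1 - q 0) - ⟪q 1 - q 0, d⟫_ℝ • d = 0 := by
    rw [hu, real_inner_smul_left, hdd, mul_one, sub_self]
  rw [frameMap_apply, planeMap_apply, inner_add_left, inner_add_left, inner_add_left,
    real_inner_smul_left, real_inner_smul_left, real_inner_smul_left]
  linear_combination (norm := module) x.1 • hu1

theorem plane_inj {q : Fin 4 → E} (hq : AffineIndependent ℝ q) {d : E} {c : ℝ}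
    (hc : d = c • (q 1 - q 0)) :
    Function.Injective
      (planeMap ((q 2 - q 0) - ⟪q 2 - q 0, d⟫_ℝ • d) ((q 3 - q 0) - ⟪q 3 - q 0, d⟫_ℝ • d)) := by
  rw [← LinearMap.ker_eq_bot, LinearMap.ker_eq_bot']
  intro y hy
  have hy' : y.1 • ((q 2 - q 0) - ⟪q 2 - q 0, d⟫_ℝ • d)
      + y.2 • ((q 3 - q 0) - ⟪q 3 - q 0, d⟫_ℝ • d) = 0 := hy
  have h0 : frameMap (q 1 - q 0) (q 2 - q 0) (q 3 - q 0)
      (-(y.1 * ⟪q 2 - q 0, d⟫_ℝ + y.2 * ⟪q 3 - q 0, d⟫_ℝ) * c, y.1, y.2) = 0 := by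
    rw [frameMap_apply]
    simp only
    rw [← hy', hc]
    module
  have h1 := frame_inj hq (h0.trans (map_zero _).symm)
  have h2 : y.1 = 0 := congrArg (fun p : ℝ × ℝ × ℝ => p.2.1) h1
  have h3 : y.2 = 0 := congrArg (fun p : ℝ × ℝ × ℝ => p.2.2) h1
  exact Prod.ext h2 h3

theorem isCompact_stdTet : IsCompact stdTet :=
  (isCompact_Icc.prod (isCompact_Icc.prod isCompact_Icc)).of_isClosed_subset isClosed_stdTet
    stdTet_subset_Icc

theorem isCompact_stdOct : IsCompact stdOct :=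
  isCompact_stdTet.of_isClosed_subset isClosed_stdOct stdOct_subset_stdTet

variable [FiniteDimensional ℝ E]

theorem frame_surj (hdim : Module.finrank ℝ E = 3) {q : Fin 4 → E}
    (hq : AffineIndependent ℝ q) :
    Function.Surjective (frameMap (q 1 - q 0) (q 2 - q 0) (q 3 - q 0)) :=
  (LinearMap.injective_iff_surjective_of_finrank_eq_finrank (by rw [hdim]; simp)).1 (frame_inj hq)

theorem simplexSet_eq_image (hdim : Module.finrank ℝ E = 3) {q : Fin 4 → E}
    (hq : AffineIndependent ℝ q) :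
    simplexSet q = (fun x => q 0 + frameMap (q 1 - q 0) (q 2 - q 0) (q 3 - q 0) x) '' stdTet := by
  ext z
  constructor
  · intro hz
    obtain ⟨x, hx⟩ := frame_surj hdim hq (z - q 0)
    have hz' : z = q 0 + frameMap (q 1 - q 0) (q 2 - q 0) (q 3 - q 0) x := by rw [hx]; abel
    rw [hz'] at hz
    exact ⟨x, (par_mem_simplex hq x).1 hz, hz'.symm⟩
  · rintro ⟨x, hx, rfl⟩
    exact (par_mem_simplex hq x).2 hx

theorem octSet_eq_image (hdim : Module.finrank ℝ E = 3) {q : Fin 4 → E}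
    (hq : AffineIndependent ℝ q) :
    octSet q = (fun x => q 0 + frameMap (q 1 - q 0) (q 2 - q 0) (q 3 - q 0) x) '' stdOct := by
  ext z
  constructor
  · intro hz
    obtain ⟨x, hx⟩ := frame_surj hdim hq (z - q 0)
    have hz' : z = q 0 + frameMap (q 1 - q 0) (q 2 - q 0) (q 3 - q 0) x := by rw [hx]; abel
    rw [hz'] at hz
    exact ⟨x, (par_mem_oct hq x).1 hz, hz'.symm⟩
  · rintro ⟨x, hx, rfl⟩
    exact (par_mem_oct hq x).2 hx

theorem isCompact_simplexSet (hdim : Module.finrank ℝ E = 3) {q : Fin 4 → E}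
    (hq : AffineIndependent ℝ q) : IsCompact (simplexSet q) := by
  rw [simplexSet_eq_image hdim hq]
  exact isCompact_stdTet.image
    (continuous_const.add (LinearMap.continuous_of_finiteDimensional _))

theorem isCompact_octSet (hdim : Module.finrank ℝ E = 3) {q : Fin 4 → E}
    (hq : AffineIndependent ℝ q) : IsCompact (octSet q) := by
  rw [octSet_eq_image hdim hq]
  exact isCompact_stdOct.image
    (continuous_const.add (LinearMap.continuous_of_finiteDimensional _))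

variable [MeasurableSpace E] [BorelSpace E]

/-- Volume in the coordinates of the simplex. -/
theorem vol_par (hdim : Module.finrank ℝ E = 3) (μ : Measure E) [μ.IsAddHaarMeasure]
    {q : Fin 4 → E} (hq : AffineIndependent ℝ q) :
    ∃ c : ℝ≥0∞, c ≠ 0 ∧ c ≠ ⊤ ∧ ∀ S : Set E, MeasurableSet S →
      μ S = c * volume {x | q 0 + frameMap (q 1 - q 0) (q 2 - q 0) (q 3 - q 0) x ∈ S} := by
  obtain ⟨c, hc0, hct, hc⟩ := exists_vol_const μ (frameMap (q 1 - q 0) (q 2 - q 0) (q 3 - q 0))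
    (frame_inj hq) (frame_surj hdim hq)
  refine ⟨c, hc0, hct, fun S hS => ?_⟩
  have h1 : μ S = μ ((fun z => q 0 + z) ⁻¹' S) := (measure_preimage_add μ (q 0) S).symm
  rw [h1, hc _ (measurable_const_add (q 0) hS)]
  rfl

theorem tetra_vol (hdim : Module.finrank ℝ E = 3) (μ : Measure E) [μ.IsAddHaarMeasure]
    {q : Fin 4 → E} (hq : AffineIndependent ℝ q) :
    μ (simplexSet q) ≤ 2 * μ (octSet q) ∧ 0 < μ (simplexSet q) ∧ μ (simplexSet q) < ⊤ := by
  obtain ⟨c, hc0, hct, hc⟩ := vol_par hdim μ hq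
  have e1 : {x | q 0 + frameMap (q 1 - q 0) (q 2 - q 0) (q 3 - q 0) x ∈ simplexSet q} = stdTet := by
    ext x; exact par_mem_simplex hq x
  have e2 : {x | q 0 + frameMap (q 1 - q 0) (q 2 - q 0) (q 3 - q 0) x ∈ octSet q} = stdOct := by
    ext x; exact par_mem_oct hq x
  rw [hc _ (isCompact_simplexSet hdim hq).measurableSet,
    hc _ (isCompact_octSet hdim hq).measurableSet, e1, e2]
  refine ⟨?_, ENNReal.mul_pos hc0 volume_stdTet_pos.ne',
    ENNReal.mul_lt_top hct.lt_top volume_stdTet_lt_top⟩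
  calc c * volume stdTet ≤ c * (2 * volume stdOct) := by gcongr; exact tet_le_two_oct
    _ = 2 * (c * volume stdOct) := by ring

/-- One cylinder parallel to the edge `q 0 q 1`: the volume it cuts from the simplex plus the
volume it cuts from the central octahedron is at most three times the volume of the simplex
times the area ratio. -/
theorem tetra_core (hdim : Module.finrank ℝ E = 3) (μ : Measure E) [μ.IsAddHaarMeasure]
    {q : Fin 4 → E} (hq : AffineIndependent ℝ q) {d : E} (hd : ‖d‖ = 1) {c : ℝ}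
    (hc : d = c • (q 1 - q 0)) (B : Set E) :
    μ (simplexSet q ∩ {x | x - ⟪x, d⟫_ℝ • d ∈ B}) + μ (octSet q ∩ {x | x - ⟪x, d⟫_ℝ • d ∈ B})
      ≤ 3 * μ (simplexSet q) * ((μHE[2] : Measure E) B /
        (μHE[2] : Measure E) ((fun x => x - ⟪x, d⟫_ℝ • d) '' simplexSet q)) := by
  obtain ⟨c₃, hc0, hct, hc₃⟩ := vol_par hdim μ hq
  obtain ⟨c₂, hc20, hc2t, hc₂⟩ := exists_area_const
    (planeMap ((q 2 - q 0) - ⟪q 2 - q 0, d⟫_ℝ • d) ((q 3 - q 0) - ⟪q 3 - q 0, d⟫_ℝ • d))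
    (plane_inj hq hc)
  set L := planeMap ((q 2 - q 0) - ⟪q 2 - q 0, d⟫_ℝ • d) ((q 3 - q 0) - ⟪q 3 - q 0, d⟫_ℝ • d)
    with hL
  set a : E := q 0 - ⟪q 0, d⟫_ℝ • d with ha
  set Bm : Set E := toMeasurable (μHE[2] : Measure E) B with hBm
  have hBmm : MeasurableSet Bm := measurableSet_toMeasurable _ _
  set B' : Set (ℝ × ℝ) := {y | a + L y ∈ Bm} with hB'
  have hLc : Continuous L := LinearMap.continuous_of_finiteDimensional _
  have hB'm : MeasurableSet B' := (continuous_const.add hLc).measurable hBmm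
  have hproj : (fun x => x - ⟪x, d⟫_ℝ • d) '' simplexSet q = (fun z => a + z) '' (L '' stdTri) := by
    ext y
    constructor
    · rintro ⟨z, hz, rfl⟩
      obtain ⟨x, hx⟩ := frame_surj hdim hq (z - q 0)
      have hz' : z = q 0 + frameMap (q 1 - q 0) (q 2 - q 0) (q 3 - q 0) x := by rw [hx]; abel
      rw [hz'] at hz ⊢
      have hxT := (par_mem_simplex hq x).1 hz
      refine ⟨L x.2, ⟨x.2, ?_, rfl⟩, ?_⟩
      · rw [← snd_image_stdTet]; exact ⟨x, hxT, rfl⟩
      · exact (proj_par hd hc x).symm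
    · rintro ⟨_, ⟨y', hy', rfl⟩, rfl⟩
      rw [← snd_image_stdTet] at hy'
      obtain ⟨x, hxT, rfl⟩ := hy'
      exact ⟨q 0 + frameMap (q 1 - q 0) (q 2 - q 0) (q 3 - q 0) x, (par_mem_simplex hq x).2 hxT,
        proj_par hd hc x⟩
  have hareaT : (μHE[2] : Measure E) ((fun x => x - ⟪x, d⟫_ℝ • d) '' simplexSet q)
      = c₂ * volume stdTri := by
    rw [hproj, image_add_left, measure_preimage_add, hc₂ _ isClosed_stdTri.measurableSet]
  have hareaB : c₂ * volume B' ≤ (μHE[2] : Measure E) B := by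
    rw [← hc₂ _ hB'm]
    calc (μHE[2] : Measure E) (L '' B') ≤ (μHE[2] : Measure E) ((fun z => a + z) ⁻¹' Bm) := by
          refine measure_mono ?_
          rintro _ ⟨y, hy, rfl⟩
          exact hy
      _ = (μHE[2] : Measure E) Bm := measure_preimage_add _ a Bm
      _ = (μHE[2] : Measure E) B := measure_toMeasurable _
  have hT : MeasurableSet (simplexSet q) := (isCompact_simplexSet hdim hq).measurableSet
  have hO : MeasurableSet (octSet q) := (isCompact_octSet hdim hq).measurableSet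
  have hC : MeasurableSet {x | x - ⟪x, d⟫_ℝ • d ∈ Bm} := (continuous_proj d).measurable hBmm
  have e0 : {x | q 0 + frameMap (q 1 - q 0) (q 2 - q 0) (q 3 - q 0) x ∈ simplexSet q} = stdTet := by
    ext x; exact par_mem_simplex hq x
  have e1 : {x | q 0 + frameMap (q 1 - q 0) (q 2 - q 0) (q 3 - q 0) x ∈
      simplexSet q ∩ {x | x - ⟪x, d⟫_ℝ • d ∈ Bm}} = stdTet ∩ Prod.snd ⁻¹' B' := by
    ext x
    show (q 0 + frameMap (q 1 - q 0) (q 2 - q 0) (q 3 - q 0) x ∈ simplexSet q ∧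
      (q 0 + frameMap (q 1 - q 0) (q 2 - q 0) (q 3 - q 0) x)
        - ⟪q 0 + frameMap (q 1 - q 0) (q 2 - q 0) (q 3 - q 0) x, d⟫_ℝ • d ∈ Bm)
      ↔ (x ∈ stdTet ∧ a + L x.2 ∈ Bm)
    rw [par_mem_simplex hq, proj_par hd hc]
  have e2 : {x | q 0 + frameMap (q 1 - q 0) (q 2 - q 0) (q 3 - q 0) x ∈
      octSet q ∩ {x | x - ⟪x, d⟫_ℝ • d ∈ Bm}} = stdOct ∩ Prod.snd ⁻¹' B' := by
    ext x
    show (q 0 + frameMap (q 1 - q 0) (q 2 - q 0) (q 3 - q 0) x ∈ octSet q ∧
      (q 0 + frameMap (q 1 - q 0) (q 2 - q 0) (q 3 - q 0) x)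
        - ⟪q 0 + frameMap (q 1 - q 0) (q 2 - q 0) (q 3 - q 0) x, d⟫_ℝ • d ∈ Bm)
      ↔ (x ∈ stdOct ∧ a + L x.2 ∈ Bm)
    rw [par_mem_oct hq, proj_par hd hc]
  have hsub : {x | x - ⟪x, d⟫_ℝ • d ∈ B} ⊆ {x | x - ⟪x, d⟫_ℝ • d ∈ Bm} :=
    fun x hx => subset_toMeasurable _ _ hx
  calc μ (simplexSet q ∩ {x | x - ⟪x, d⟫_ℝ • d ∈ B}) + μ (octSet q ∩ {x | x - ⟪x, d⟫_ℝ • d ∈ B})
      ≤ μ (simplexSet q ∩ {x | x - ⟪x, d⟫_ℝ • d ∈ Bm})
        + μ (octSet q ∩ {x | x - ⟪x, d⟫_ℝ • d ∈ Bm}) :=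
        add_le_add (measure_mono (inter_subset_inter_right _ hsub))
          (measure_mono (inter_subset_inter_right _ hsub))
    _ = c₃ * (volume (stdTet ∩ Prod.snd ⁻¹' B') + volume (stdOct ∩ Prod.snd ⁻¹' B')) := by
        rw [hc₃ _ (hT.inter hC), hc₃ _ (hO.inter hC), e1, e2, mul_add]
    _ ≤ c₃ * volume B' := by
        gcongr
        exact fibre_bound hB'm
    _ = c₃ * (volume stdTri * (volume B' / volume stdTri)) := by
        rw [ENNReal.mul_div_cancel volume_stdTri_pos.ne' volume_stdTri_lt_top.ne]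
    _ ≤ c₃ * ((3 * volume stdTet) * (volume B' / volume stdTri)) := by
        gcongr
        exact tri_le_three_tet
    _ = 3 * (c₃ * volume stdTet) * (c₂ * volume B' / (c₂ * volume stdTri)) := by
        rw [ENNReal.mul_div_mul_left _ _ hc20 hc2t]; ring
    _ ≤ 3 * (c₃ * volume stdTet) * ((μHE[2] : Measure E) B / (c₂ * volume stdTri)) := by
        gcongr
    _ = _ := by rw [hareaT, hc₃ _ hT, e0]

end Vale.Agent.Lib.P243
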