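import Mathlib
import Vale.Agent.Lib.P243.TetraEucl

open MeasureTheory Measure Set
open scoped ENNReal NNReal InnerProductSpace

namespace Vale.Agent.Lib.P243

variable {E : Type*} [NormedAddCommGroup E] [InnerProductSpace ℝ E]

theorem simplexSet_perm (p : Fin 4 → E) (σ : Equiv.Perm (Fin 4)) :
    simplexSet (p ∘ σ) = simplexSet p := by
  ext x
  constructor
  · rintro ⟨w, hw0, hw1, rfl⟩
    refine ⟨w ∘ σ.symm, fun i => hw0 _, ?_, ?_⟩
    · rw [← hw1]; exact Equiv.sum_comp σ.symm w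
    · rw [← Equiv.sum_comp σ (fun i => (w ∘ σ.symm) i • p i)]
      simp
  · rintro ⟨w, hw0, hw1, rfl⟩
    refine ⟨w ∘ σ, fun i => hw0 _, ?_, ?_⟩
    · rw [← hw1]; exact Equiv.sum_comp σ w
    · exact (Equiv.sum_comp σ (fun i => w i • p i)).symm

theorem octSet_perm (p : Fin 4 → E) (σ : Equiv.Perm (Fin 4)) :
    octSet (p ∘ σ) = octSet p := by
  ext x
  constructor
  · rintro ⟨w, hw0, hw1, rfl⟩
    refine ⟨w ∘ σ.symm, fun i => hw0 _, ?_, ?_⟩
    · rw [← hw1]; exact Equiv.sum_comp σ.symm w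
    · rw [← Equiv.sum_comp σ (fun i => (w ∘ σ.symm) i • p i)]
      simp
  · rintro ⟨w, hw0, hw1, rfl⟩
    refine ⟨w ∘ σ, fun i => hw0 _, ?_, ?_⟩
    · rw [← hw1]; exact Equiv.sum_comp σ w
    · exact (Equiv.sum_comp σ (fun i => w i • p i)).symm

theorem exists_perm (j k : Fin 4) (h : j ≠ k) :
    ∃ σ : Equiv.Perm (Fin 4), σ 0 = k ∧ σ 1 = j := by
  refine ⟨Equiv.swap (Equiv.swap 0 k 1) j * Equiv.swap 0 k, ?_, ?_⟩
  · rw [Equiv.Perm.mul_apply, Equiv.swap_apply_left]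
    refine Equiv.swap_apply_of_ne_of_ne ?_ (Ne.symm h)
    intro hk
    have h0 : Equiv.swap (0 : Fin 4) k 0 = k := Equiv.swap_apply_left 0 k
    have := (Equiv.swap (0 : Fin 4) k).injective (h0.trans hk)
    exact absurd this (by decide)
  · rw [Equiv.Perm.mul_apply, Equiv.swap_apply_left]

theorem convexHull_eq_simplexSet (p : Fin 4 → E) : convexHull ℝ (range p) = simplexSet p := by
  apply Subset.antisymm
  · apply convexHull_min
    · rintro _ ⟨i, rfl⟩
      refine ⟨fun j => if j = i then 1 else 0, fun j => ?_, ?_, ?_⟩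
      · show (0 : ℝ) ≤ if j = i then 1 else 0
        split_ifs <;> norm_num
      · simp
      · simp
    · rintro x ⟨w, hw0, hw1, rfl⟩ y ⟨w', hw0', hw1', rfl⟩ a b ha hb hab
      refine ⟨fun i => a * w i + b * w' i,
        fun i => add_nonneg (mul_nonneg ha (hw0 i)) (mul_nonneg hb (hw0' i)), ?_, ?_⟩
      · rw [Finset.sum_add_distrib, ← Finset.mul_sum, ← Finset.mul_sum, hw1, hw1']
        simpa using hab
      · rw [Finset.smul_sum, Finset.smul_sum, ← Finset.sum_add_distrib]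
        refine Finset.sum_congr rfl (fun i _ => ?_)
        rw [add_smul, mul_smul, mul_smul]
  · rintro x ⟨w, hw0, hw1, rfl⟩
    exact (convex_convexHull ℝ _).sum_mem (fun i _ => hw0 i) hw1
      (fun i _ => subset_convexHull ℝ _ (mem_range_self i))

variable [FiniteDimensional ℝ E] [MeasurableSpace E] [BorelSpace E]

/-- A tetrahedron and any finite covering by cylinders whose axes are parallel to edges. -/
theorem tetra_family (hdim : Module.finrank ℝ E = 3) (μ : Measure E) [μ.IsAddHaarMeasure]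
    {p : Fin 4 → E} (hp : AffineIndependent ℝ p) {ι : Type*} [Fintype ι]
    (d : ι → E) (hd1 : ∀ i, ‖d i‖ = 1)
    (hedge : ∀ i, ∃ j k : Fin 4, j ≠ k ∧ ∃ c : ℝ, d i = c • (p j - p k))
    (B : ι → Set E) (hB : ∀ i, ∀ x ∈ B i, ⟪x, d i⟫_ℝ = 0)
    (hcov : convexHull ℝ (range p) ⊆ ⋃ i, {x | ∃ b ∈ B i, ∃ s : ℝ, x = b + s • d i}) :
    (1 / 2 : ℝ≥0∞) ≤ ∑ i, (μHE[2] : Measure E) (B i) /
      (μHE[2] : Measure E) ((fun x => x - ⟪x, d i⟫_ℝ • d i) '' convexHull ℝ (range p)) := by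
  rw [convexHull_eq_simplexSet] at hcov ⊢
  have hper : ∀ i, μ (simplexSet p ∩ {x | x - ⟪x, d i⟫_ℝ • d i ∈ B i})
      + μ (octSet p ∩ {x | x - ⟪x, d i⟫_ℝ • d i ∈ B i})
      ≤ 3 * μ (simplexSet p) * ((μHE[2] : Measure E) (B i) /
        (μHE[2] : Measure E) ((fun x => x - ⟪x, d i⟫_ℝ • d i) '' simplexSet p)) := by
    intro i
    obtain ⟨j, k, hjk, c, hc⟩ := hedge i
    obtain ⟨σ, hσ0, hσ1⟩ := exists_perm j k hjk
    have hq : AffineIndependent ℝ (p ∘ σ) := hp.comp_embedding σ.toEmbedding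
    have hc' : d i = c • ((p ∘ σ) 1 - (p ∘ σ) 0) := by
      simp only [Function.comp_apply, hσ0, hσ1]; exact hc
    have := tetra_core hdim μ hq (hd1 i) hc' (B i)
    rwa [simplexSet_perm, octSet_perm] at this
  obtain ⟨hvol, hpos, hfin⟩ := tetra_vol hdim μ hp
  have hcovT : simplexSet p ⊆ ⋃ i, (simplexSet p ∩ {x | x - ⟪x, d i⟫_ℝ • d i ∈ B i}) := by
    intro x hx
    obtain ⟨i, b, hb, s, rfl⟩ := mem_iUnion.1 (hcov hx)
    refine mem_iUnion.2 ⟨i, hx, ?_⟩
    show (b + s • d i) - ⟪b + s • d i, d i⟫_ℝ • d i ∈ B i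
    rw [proj_cyl_point (hd1 i) (hB i b hb) s]
    exact hb
  have hcovO : octSet p ⊆ ⋃ i, (octSet p ∩ {x | x - ⟪x, d i⟫_ℝ • d i ∈ B i}) := by
    intro x hx
    obtain ⟨i, hi⟩ := mem_iUnion.1 (hcovT (octSet_subset p hx))
    exact mem_iUnion.2 ⟨i, hx, hi.2⟩
  set R : ℝ≥0∞ := ∑ i, (μHE[2] : Measure E) (B i) /
      (μHE[2] : Measure E) ((fun x => x - ⟪x, d i⟫_ℝ • d i) '' simplexSet p) with hR
  have hsum : μ (simplexSet p) + μ (octSet p) ≤ R * (3 * μ (simplexSet p)) := by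
    calc μ (simplexSet p) + μ (octSet p)
        ≤ ∑ i, μ (simplexSet p ∩ {x | x - ⟪x, d i⟫_ℝ • d i ∈ B i})
          + ∑ i, μ (octSet p ∩ {x | x - ⟪x, d i⟫_ℝ • d i ∈ B i}) :=
          add_le_add ((measure_mono hcovT).trans (measure_iUnion_fintype_le _ _))
            ((measure_mono hcovO).trans (measure_iUnion_fintype_le _ _))
      _ = ∑ i, (μ (simplexSet p ∩ {x | x - ⟪x, d i⟫_ℝ • d i ∈ B i})
          + μ (octSet p ∩ {x | x - ⟪x, d i⟫_ℝ • d i ∈ B i})) := Finset.sum_add_distrib.symm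
      _ ≤ ∑ i, 3 * μ (simplexSet p) * ((μHE[2] : Measure E) (B i) /
          (μHE[2] : Measure E) ((fun x => x - ⟪x, d i⟫_ℝ • d i) '' simplexSet p)) :=
          Finset.sum_le_sum (fun i _ => hper i)
      _ = R * (3 * μ (simplexSet p)) := by
          rw [← Finset.mul_sum, mul_comm]
  have h3 : 3 * μ (simplexSet p) ≤ 2 * (μ (simplexSet p) + μ (octSet p)) := by
    calc 3 * μ (simplexSet p) = 2 * μ (simplexSet p) + μ (simplexSet p) := by ring
      _ ≤ 2 * μ (simplexSet p) + 2 * μ (octSet p) := by gcongr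
      _ = 2 * (μ (simplexSet p) + μ (octSet p)) := by ring
  by_contra hlt
  push Not at hlt
  have hne0 : 3 * μ (simplexSet p) ≠ 0 := by
    simp [hpos.ne']
  have hneT : 3 * μ (simplexSet p) ≠ ⊤ := ENNReal.mul_ne_top (by simp) hfin.ne
  have h4 : R * (3 * μ (simplexSet p)) < 1 / 2 * (3 * μ (simplexSet p)) :=
    ENNReal.mul_lt_mul_left hne0 hneT hlt
  have h5 : 2 * (R * (3 * μ (simplexSet p))) < 2 * (1 / 2 * (3 * μ (simplexSet p))) := by
    rw [mul_comm 2, mul_comm 2]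
    exact ENNReal.mul_lt_mul_left (by simp) (by simp) h4
  have h6 : (2 : ℝ≥0∞) * (1 / 2 * (3 * μ (simplexSet p))) = 3 * μ (simplexSet p) := by
    rw [← mul_assoc]
    have : (2 : ℝ≥0∞) * (1 / 2) = 1 := by
      rw [one_div]; exact ENNReal.mul_inv_cancel (by simp) (by simp)
    rw [this, one_mul]
  rw [h6] at h5
  have h7 : 3 * μ (simplexSet p) ≤ 2 * (R * (3 * μ (simplexSet p))) :=
    h3.trans (by gcongr)
  exact absurd h7 (not_le.2 h5)

end Vale.Agent.Lib.P243
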