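import Mathlib
import Vale.Agent.Lib.P243.TetraFamily

open MeasureTheory Measure Set
open scoped ENNReal NNReal InnerProductSpace

namespace Vale.Agent.Lib.P243

variable {E : Type*} [NormedAddCommGroup E] [InnerProductSpace ℝ E] [FiniteDimensional ℝ E]
  [MeasurableSpace E] [BorelSpace E]

/-- From a lower bound on the directionwise relative area to the same lower bound on the total
base area divided by the least projection area. -/
theorem amin_of_ratio (hdim : Module.finrank ℝ E = 3) {ι : Type*} [Fintype ι]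
    {K : Set E} (hK : Convex ℝ K) (hKc : IsCompact K) (hKi : (interior K).Nonempty)
    (d : ι → E) (hd1 : ∀ i, ‖d i‖ = 1) (B : ι → Set E) (c : ℝ≥0∞)
    (key : c ≤ ∑ i, (μHE[2] : Measure E) (B i) /
      (μHE[2] : Measure E) ((fun x => x - ⟪x, d i⟫_ℝ • d i) '' K)) :
    c * (⨅ w : {w : E // ‖w‖ = 1},
        (μHE[2] : Measure E) ((fun x => x - ⟪x, (w : E)⟫_ℝ • (w : E)) '' K))
      ≤ ∑ i, (μHE[2] : Measure E) (B i) := by
  set A : ℝ≥0∞ := ⨅ w : {w : E // ‖w‖ = 1},
    (μHE[2] : Measure E) ((fun x => x - ⟪x, (w : E)⟫_ℝ • (w : E)) '' K) with hA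
  have hAle : ∀ i, A ≤ (μHE[2] : Measure E) ((fun x => x - ⟪x, d i⟫_ℝ • d i) '' K) :=
    fun i => iInf_le (fun w : {w : E // ‖w‖ = 1} =>
      (μHE[2] : Measure E) ((fun x => x - ⟪x, (w : E)⟫_ℝ • (w : E)) '' K)) ⟨d i, hd1 i⟩
  calc c * A
      ≤ (∑ i, (μHE[2] : Measure E) (B i) /
          (μHE[2] : Measure E) ((fun x => x - ⟪x, d i⟫_ℝ • d i) '' K)) * A := by gcongr
    _ = ∑ i, (μHE[2] : Measure E) (B i) /
          (μHE[2] : Measure E) ((fun x => x - ⟪x, d i⟫_ℝ • d i) '' K) * A := Finset.sum_mul _ _ _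
    _ ≤ ∑ i, (μHE[2] : Measure E) (B i) := by
        refine Finset.sum_le_sum (fun i _ => ?_)
        obtain ⟨hpos, hfin⟩ := proj_area_pos_finite hdim hK hKc hKi (hd1 i)
        calc (μHE[2] : Measure E) (B i) /
              (μHE[2] : Measure E) ((fun x => x - ⟪x, d i⟫_ℝ • d i) '' K) * A
            ≤ (μHE[2] : Measure E) (B i) /
              (μHE[2] : Measure E) ((fun x => x - ⟪x, d i⟫_ℝ • d i) '' K) *
              (μHE[2] : Measure E) ((fun x => x - ⟪x, d i⟫_ℝ • d i) '' K) := by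
                gcongr
                exact hAle i
          _ = (μHE[2] : Measure E) (B i) := ENNReal.div_mul_cancel hpos.ne' hfin.ne

omit [MeasurableSpace E] [BorelSpace E] in
/-- A nondegenerate tetrahedron is a convex body. -/
theorem tetra_body (hdim : Module.finrank ℝ E = 3) {p : Fin 4 → E}
    (hp : AffineIndependent ℝ p) :
    Convex ℝ (convexHull ℝ (range p)) ∧ IsCompact (convexHull ℝ (range p)) ∧
      (interior (convexHull ℝ (range p))).Nonempty := by
  refine ⟨convex_convexHull ℝ _, ?_, ?_⟩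
  · rw [convexHull_eq_simplexSet]
    exact isCompact_simplexSet hdim hp
  · rw [interior_convexHull_nonempty_iff_affineSpan_eq_top,
      hp.affineSpan_eq_top_iff_card_eq_finrank_add_one, hdim]
    simp

/-- A tetrahedron and any finite covering by cylinders whose axes are parallel to edges:
both forms of the half-area bound. -/
theorem tetra_family_both (hdim : Module.finrank ℝ E = 3) (μ : Measure E) [μ.IsAddHaarMeasure]
    {p : Fin 4 → E} (hp : AffineIndependent ℝ p) {ι : Type*} [Fintype ι]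
    (d : ι → E) (hd1 : ∀ i, ‖d i‖ = 1)
    (hedge : ∀ i, ∃ j k : Fin 4, j ≠ k ∧ ∃ c : ℝ, d i = c • (p j - p k))
    (B : ι → Set E) (hB : ∀ i, ∀ x ∈ B i, ⟪x, d i⟫_ℝ = 0)
    (hcov : convexHull ℝ (range p) ⊆ ⋃ i, {x | ∃ b ∈ B i, ∃ s : ℝ, x = b + s • d i}) :
    (1 / 2 : ℝ≥0∞) ≤ ∑ i, (μHE[2] : Measure E) (B i) /
        (μHE[2] : Measure E) ((fun x => x - ⟪x, d i⟫_ℝ • d i) '' convexHull ℝ (range p))
      ∧ (1 / 2 : ℝ≥0∞) * (⨅ w : {w : E // ‖w‖ = 1}, (μHE[2] : Measure E)
          ((fun x => x - ⟪x, (w : E)⟫_ℝ • (w : E)) '' convexHull ℝ (range p)))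
        ≤ ∑ i, (μHE[2] : Measure E) (B i) := by
  have key := tetra_family hdim μ hp d hd1 hedge B hB hcov
  obtain ⟨hK, hKc, hKi⟩ := tetra_body hdim hp
  exact ⟨key, amin_of_ratio hdim hK hKc hKi d hd1 B _ key⟩

end Vale.Agent.Lib.P243
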