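import Mathlib
import Vale.Agent.Lib.P243.helper23.Chord

open MeasureTheory Measure Set
open scoped ENNReal NNReal

namespace Vale.Agent.Lib.P243

open Vale.Agent.Lib.P243.helper23 (fib fib_compact fib_convex volume_fib_ne_top lintegral_line_sq)

/-- If every line parallel to the first axis meets `S` in a set of diameter at most `M`, the part
of `S` over a planar set `B` has volume at most `M` times the area of `B`. -/
theorem fibre_diam_bound {S : Set (ℝ × ℝ × ℝ)} (hS : MeasurableSet S) {B : Set (ℝ × ℝ)}
    (hB : MeasurableSet B) {M : ℝ}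
    (hdiam : ∀ a a' : ℝ, ∀ y : ℝ × ℝ, (a, y) ∈ S → (a', y) ∈ S → |a - a'| ≤ M) :
    volume (S ∩ Prod.snd ⁻¹' B) ≤ ENNReal.ofReal M * volume B := by
  have hm : MeasurableSet (S ∩ Prod.snd ⁻¹' B) := hS.inter (measurable_snd hB)
  rw [Measure.volume_eq_prod, Measure.prod_apply_symm hm]
  calc ∫⁻ y, volume ((fun x : ℝ => (x, y)) ⁻¹' (S ∩ Prod.snd ⁻¹' B))
      ≤ ∫⁻ y, B.indicator (fun _ => ENNReal.ofReal M) y := by
        refine lintegral_mono (fun y => ?_)
        by_cases hy : y ∈ B
        · rw [indicator_of_mem hy]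
          refine (Real.volume_le_diam _).trans (Metric.ediam_le ?_)
          rintro a ⟨ha, -⟩ a' ⟨ha', -⟩
          rw [edist_dist, Real.dist_eq]
          exact ENNReal.ofReal_le_ofReal (hdiam a a' y ha ha')
        · rw [indicator_of_notMem hy]
          have e : (fun x : ℝ => (x, y)) ⁻¹' (S ∩ Prod.snd ⁻¹' B) = ∅ := by
            ext x
            simp only [mem_preimage, mem_inter_iff, mem_empty_iff_false, iff_false, not_and]
            intro _ h
            exact hy h
          rw [e]; simp
    _ = ENNReal.ofReal M * volume B := by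
        rw [lintegral_indicator hB, setLIntegral_const]

/-- Cone inequality: a convex body containing a segment of length `L` parallel to the first
axis has volume at least `L / 3` times the area of its projection along that axis. -/
theorem cone_ineq {K : Set (ℝ × ℝ × ℝ)} (hK : Convex ℝ K) (hKc : IsCompact K)
    {a₀ : ℝ} {y₀ : ℝ × ℝ} {L : ℝ} (hL : 0 < L) (hP : (a₀, y₀) ∈ K) (hP' : (a₀ + L, y₀) ∈ K) :
    ENNReal.ofReal L * volume (Prod.snd '' K) ≤ 3 * volume K := by
  set D : Set (ℝ × ℝ) := Prod.snd '' K with hD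
  have hDm : MeasurableSet D := (hKc.image continuous_snd).measurableSet
  set g : ℝ × ℝ × ℝ → ℝ × ℝ := fun p => y₀ + (L / (L - p.1)) • (p.2 - y₀) with hg
  have hgm : Measurable g :=
    measurable_const.add
      ((measurable_const.div (measurable_const.sub measurable_fst)).smul
        (measurable_snd.sub measurable_const))
  set W : Set (ℝ × ℝ × ℝ) := (Prod.fst ⁻¹' Ioo 0 L) ∩ (g ⁻¹' D) with hW
  have hWm : MeasurableSet W := (measurable_fst measurableSet_Ioo).inter (hgm hDm)
  -- Step A: the volume of `W` is at most the volume of `K`.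
  have hA : volume W ≤ volume K := by
    rw [Measure.volume_eq_prod, Measure.prod_apply_symm hWm,
      Measure.prod_apply_symm hKc.measurableSet]
    refine lintegral_mono (fun y => ?_)
    have hfin : volume (fib K y) ≠ ⊤ := volume_fib_ne_top hKc y
    have hsub : (fun x : ℝ => (x, y)) ⁻¹' W ⊆ Icc 0 (volume (fib K y)).toReal := by
      rintro s ⟨⟨hs0, hsL⟩, hz⟩
      have hz' : y₀ + (L / (L - s)) • (y - y₀) ∈ D := hz
      obtain ⟨⟨b, z⟩, hbz, hzz⟩ := hz'
      have hzz' : z = y₀ + (L / (L - s)) • (y - y₀) := hzz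
      have hLs : 0 < L - s := by linarith
      set τ : ℝ := (L - s) / L with hτ
      have hτ0 : 0 ≤ τ := div_nonneg hLs.le hL.le
      have hτ1 : τ ≤ 1 := by rw [hτ, div_le_one hL]; linarith
      have h1τ : 0 ≤ 1 - τ := by linarith
      have hu₁ : (1 - τ) • ((a₀, y₀) : ℝ × ℝ × ℝ) + τ • ((b, z) : ℝ × ℝ × ℝ) ∈ K :=
        hK hP hbz h1τ hτ0 (by ring)
      have hu₂ : (1 - τ) • ((a₀ + L, y₀) : ℝ × ℝ × ℝ) + τ • ((b, z) : ℝ × ℝ × ℝ) ∈ K :=
        hK hP' hbz h1τ hτ0 (by ring)
      have hy2 : (1 - τ) • y₀ + τ • z = y := by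
        rw [hzz', smul_add, smul_smul]
        have : τ * (L / (L - s)) = 1 := by
          rw [hτ]; field_simp
        rw [this]
        module
      have e₁ : (1 - τ) • ((a₀, y₀) : ℝ × ℝ × ℝ) + τ • ((b, z) : ℝ × ℝ × ℝ)
          = ((1 - τ) * a₀ + τ * b, y) := by
        rw [← hy2]; rfl
      have e₂ : (1 - τ) • ((a₀ + L, y₀) : ℝ × ℝ × ℝ) + τ • ((b, z) : ℝ × ℝ × ℝ)
          = ((1 - τ) * a₀ + τ * b + s, y) := by
        rw [← hy2]
        have hs' : (1 - τ) * L = s := by rw [hτ]; field_simp; ring
        refine Prod.ext ?_ rfl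
        show (1 - τ) * (a₀ + L) + τ * b = (1 - τ) * a₀ + τ * b + s
        rw [← hs']; ring
      rw [e₁] at hu₁
      rw [e₂] at hu₂
      have hI : Icc ((1 - τ) * a₀ + τ * b) ((1 - τ) * a₀ + τ * b + s) ⊆ fib K y :=
        (fib_convex hK y).ordConnected.out hu₁ hu₂
      have hvol : ENNReal.ofReal s ≤ volume (fib K y) := by
        calc ENNReal.ofReal s = volume (Icc ((1 - τ) * a₀ + τ * b) ((1 - τ) * a₀ + τ * b + s)) := by
              rw [Real.volume_Icc]; congr 1; ring
          _ ≤ _ := measure_mono hI
      refine ⟨hs0.le, ?_⟩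
      exact (ENNReal.ofReal_le_iff_le_toReal hfin).1 hvol
    calc volume ((fun x : ℝ => (x, y)) ⁻¹' W)
        ≤ volume (Icc 0 (volume (fib K y)).toReal) := measure_mono hsub
      _ = volume (fib K y) := by
          rw [Real.volume_Icc, sub_zero, ENNReal.ofReal_toReal hfin]
  -- Step B: the volume of `W` equals `L / 3` times the area of `D`.
  have hB : volume W = ENNReal.ofReal (L / 3) * volume D := by
    rw [Measure.volume_eq_prod, Measure.prod_apply hWm]
    have hslice : ∀ s : ℝ, volume (Prod.mk s ⁻¹' W)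
        = (Ioo (0 : ℝ) L).indicator
            (fun s => ENNReal.ofReal (1 * (1 - 1 / L * s) ^ 2) * volume D) s := by
      intro s
      by_cases hs : s ∈ Ioo (0 : ℝ) L
      · rw [indicator_of_mem hs]
        have hLs : 0 < L - s := by linarith [hs.2]
        set c : ℝ := L / (L - s) with hc
        have hc0 : c ≠ 0 := (div_pos hL hLs).ne'
        have e : Prod.mk s ⁻¹' W
            = (fun y : ℝ × ℝ => c • y) ⁻¹' ((fun z : ℝ × ℝ => z + (y₀ - c • y₀)) ⁻¹' D) := by
          ext y
          constructor
          · rintro ⟨-, hy⟩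
            have hy' : y₀ + c • (y - y₀) ∈ D := hy
            show c • y + (y₀ - c • y₀) ∈ D
            have : c • y + (y₀ - c • y₀) = y₀ + c • (y - y₀) := by module
            rw [this]; exact hy'
          · intro hy
            have hy' : c • y + (y₀ - c • y₀) ∈ D := hy
            refine ⟨hs, ?_⟩
            show y₀ + c • (y - y₀) ∈ D
            have : y₀ + c • (y - y₀) = c • y + (y₀ - c • y₀) := by module
            rw [this]; exact hy'
        rw [e, Measure.addHaar_preimage_smul _ hc0, measure_preimage_add_right]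
        have hf : Module.finrank ℝ (ℝ × ℝ) = 2 := by simp
        rw [hf]
        congr 2
        rw [abs_of_nonneg (by positivity), hc]
        field_simp
      · rw [indicator_of_notMem hs]
        have e : Prod.mk s ⁻¹' W = ∅ := by
          ext y
          simp only [mem_preimage, mem_empty_iff_false, iff_false]
          rintro ⟨h, -⟩
          exact hs h
        rw [e]; simp
    simp_rw [hslice]
    rw [lintegral_indicator measurableSet_Ioo, lintegral_mul_const _ (by fun_prop),
      setLIntegral_congr Ioo_ae_eq_Ioc,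
      lintegral_line_sq 1 (1 / L) 0 L zero_le_one (one_div_ne_zero hL.ne') hL.le]
    congr 2
    field_simp
    ring
  calc ENNReal.ofReal L * volume D = 3 * (ENNReal.ofReal (L / 3) * volume D) := by
        rw [← mul_assoc]
        congr 1
        rw [show (3 : ℝ≥0∞) = ENNReal.ofReal 3 by simp, ← ENNReal.ofReal_mul (by norm_num)]
        congr 1
        ring
    _ = 3 * volume W := by rw [hB]
    _ ≤ 3 * volume K := by gcongr

end Vale.Agent.Lib.P243
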