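import Mathlib
import Vale.Agent.Lib.P243.Cone
import Vale.Agent.Lib.P243.Transfer

open MeasureTheory Measure Set
open scoped ENNReal NNReal InnerProductSpace

namespace Vale.Agent.Lib.P243

variable {E : Type*} [NormedAddCommGroup E] [InnerProductSpace ℝ E] [FiniteDimensional ℝ E]
  [MeasurableSpace E] [BorelSpace E]

/-- One cylinder against a core set `S`: if the convex body `K` contains a segment of length `L`
parallel to the unit vector `d`, and every line parallel to `d` meets `S` in a set of diameter at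
most `M`, then the part of `S` inside the cylinder over `B` has volume at most
`3 (M / L) vol K` times the area ratio. -/
theorem chord_cyl (hdim : Module.finrank ℝ E = 3) (μ : Measure E) [μ.IsAddHaarMeasure]
    {K : Set E} (hK : Convex ℝ K) (hKc : IsCompact K) (hKi : (interior K).Nonempty)
    {d : E} (hd : ‖d‖ = 1) {p q : E} (hp : p ∈ K) (hq : q ∈ K) {L : ℝ} (hL : 0 < L)
    (hpq : q - p = L • d) {S : Set E} (hS : MeasurableSet S) {M : ℝ}
    (hM : ∀ x ∈ S, ∀ x' ∈ S, ∀ t : ℝ, x' - x = t • d → |t| ≤ M) (B : Set E) :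
    ENNReal.ofReal L * μ (S ∩ {x | x - ⟪x, d⟫_ℝ • d ∈ B})
      ≤ 3 * ENNReal.ofReal M * μ K * ((μHE[2] : Measure E) B /
        (μHE[2] : Measure E) ((fun x => x - ⟪x, d⟫_ℝ • d) '' K)) := by
  obtain ⟨n₁, hn₁, hn₁u, -⟩ := exists_normal hdim d d
  obtain ⟨v, hv⟩ : ∃ v : E, v = ‖n₁‖⁻¹ • n₁ := ⟨_, rfl⟩
  have hvn : ‖v‖ = 1 := by rw [hv]; exact norm_smul_inv_norm hn₁
  have hvu : ⟪v, d⟫_ℝ = 0 := by rw [hv, real_inner_smul_left, hn₁u, mul_zero]
  have hv0 : v ≠ 0 := by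
    intro h; rw [h, norm_zero] at hvn; exact zero_ne_one hvn
  have hw : v - ⟪v, d⟫_ℝ • d ≠ 0 := by
    rw [hvu, zero_smul, sub_zero]; exact hv0
  obtain ⟨n, hn, hnu, hnv⟩ := exists_normal hdim d v
  obtain ⟨hK', hKc', hKi', hsurj⟩ := preimage_facts hdim hK hKc hKi hd hn hnu hnv hw
  have hinj := frameMap_injective hd hn hnu hnv hw
  have hnw : ⟪n, v - ⟪v, d⟫_ℝ • d⟫_ℝ = 0 := by
    rw [inner_sub_right, real_inner_smul_right, hnv, hnu]; simp
  have e1 := proj_image_u (K := K) hd hnu hsurj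
  obtain ⟨c₂, hc20, hc2t, hc₂⟩ :=
    exists_area_const (planeMap (v - ⟪v, d⟫_ℝ • d) n) (planeMap_injective hw hn hnw)
  obtain ⟨c₃, hc0, hct, hc₃⟩ := exists_vol_const μ (frameMap d v n) hinj hsurj
  set Ψ := frameMap d v n with hΨ
  set Lp := planeMap (v - ⟪v, d⟫_ℝ • d) n with hLp
  set Bm : Set E := toMeasurable (μHE[2] : Measure E) B with hBm
  have hBmm : MeasurableSet Bm := measurableSet_toMeasurable _ _
  have hΨc : Continuous Ψ := LinearMap.continuous_of_finiteDimensional _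
  have hLm : Measurable Lp := (LinearMap.continuous_of_finiteDimensional _).measurable
  have m1 : MeasurableSet (pr1 (Ψ ⁻¹' K)) := (pr1_compact hKc').measurableSet
  set B' : Set (ℝ × ℝ) := Lp ⁻¹' Bm with hB'
  have hB'm : MeasurableSet B' := hLm hBmm
  have hS'm : MeasurableSet (Ψ ⁻¹' S) := hΨc.measurable hS
  -- fibres of the core
  have hfib : ∀ a a' : ℝ, ∀ y : ℝ × ℝ, (a, y) ∈ Ψ ⁻¹' S → (a', y) ∈ Ψ ⁻¹' S → |a - a'| ≤ M := by
    intro a a' y h h'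
    have hdiff : Ψ (a', y) - Ψ (a, y) = (a' - a) • d := by
      rw [hΨ, frameMap_apply, frameMap_apply]
      simp only
      module
    have := hM _ h _ h' (a' - a) hdiff
    rwa [abs_sub_comm] at this
  have hH := fibre_diam_bound hS'm hB'm hfib
  -- the chord of the body
  obtain ⟨P, hP⟩ := hsurj p
  have hP1 : (P.1, P.2) ∈ Ψ ⁻¹' K := by
    show Ψ (P.1, P.2) ∈ K
    rw [Prod.mk.eta, hP]; exact hp
  have hP2 : (P.1 + L, P.2) ∈ Ψ ⁻¹' K := by
    show Ψ (P.1 + L, P.2) ∈ K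
    have : Ψ (P.1 + L, P.2) = Ψ P + L • d := by
      rw [hΨ, frameMap_apply, frameMap_apply]
      simp only
      module
    rw [this, hP, ← hpq]
    simpa using hq
  have hG := cone_ineq hK' hKc' hL hP1 hP2
  have hpos : 0 < volume (pr1 (Ψ ⁻¹' K)) := pr1_volume_pos hKi'
  have hfin : volume (pr1 (Ψ ⁻¹' K)) < ⊤ := (pr1_compact hKc').measure_lt_top
  -- areas
  have hareaK : (μHE[2] : Measure E) ((fun x => x - ⟪x, d⟫_ℝ • d) '' K)
      = c₂ * volume (pr1 (Ψ ⁻¹' K)) := by rw [e1, hc₂ _ m1]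
  have hareaB : c₂ * volume B' ≤ (μHE[2] : Measure E) B := by
    rw [← hc₂ _ hB'm]
    calc (μHE[2] : Measure E) (Lp '' B') ≤ (μHE[2] : Measure E) Bm := by
          refine measure_mono ?_
          rintro _ ⟨y, hy, rfl⟩
          exact hy
      _ = (μHE[2] : Measure E) B := measure_toMeasurable _
  -- volumes
  have hKm : MeasurableSet K := hKc.measurableSet
  have hTm : MeasurableSet (S ∩ {x | x - ⟪x, d⟫_ℝ • d ∈ Bm}) :=
    hS.inter ((continuous_proj d).measurable hBmm)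
  have hpre : Ψ ⁻¹' (S ∩ {x | x - ⟪x, d⟫_ℝ • d ∈ Bm}) = Ψ ⁻¹' S ∩ Prod.snd ⁻¹' B' := by
    ext x
    constructor
    · rintro ⟨h1, h2⟩
      have h2' : Ψ x - ⟪Ψ x, d⟫_ℝ • d ∈ Bm := h2
      rw [hΨ, proj_frameMap_u hd hnu x] at h2'
      exact ⟨h1, h2'⟩
    · rintro ⟨h1, h2⟩
      refine ⟨h1, ?_⟩
      show Ψ x - ⟪Ψ x, d⟫_ℝ • d ∈ Bm
      rw [hΨ, proj_frameMap_u hd hnu x]
      exact h2
  have hsub : {x | x - ⟪x, d⟫_ℝ • d ∈ B} ⊆ {x | x - ⟪x, d⟫_ℝ • d ∈ Bm} :=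
    fun x hx => subset_toMeasurable _ _ hx
  calc ENNReal.ofReal L * μ (S ∩ {x | x - ⟪x, d⟫_ℝ • d ∈ B})
      ≤ ENNReal.ofReal L * μ (S ∩ {x | x - ⟪x, d⟫_ℝ • d ∈ Bm}) := by
        gcongr
    _ = ENNReal.ofReal L * (c₃ * volume (Ψ ⁻¹' S ∩ Prod.snd ⁻¹' B')) := by
        rw [hc₃ _ hTm, hpre]
    _ ≤ ENNReal.ofReal L * (c₃ * (ENNReal.ofReal M * volume B')) := by
        gcongr
    _ = ENNReal.ofReal M * c₃ * ((ENNReal.ofReal L * volume (pr1 (Ψ ⁻¹' K)))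
          * (volume B' / volume (pr1 (Ψ ⁻¹' K)))) := by
        rw [mul_assoc (ENNReal.ofReal L), ENNReal.mul_div_cancel hpos.ne' hfin.ne]
        ring
    _ ≤ ENNReal.ofReal M * c₃ * ((3 * volume (Ψ ⁻¹' K))
          * (volume B' / volume (pr1 (Ψ ⁻¹' K)))) := by
        exact mul_le_mul' le_rfl (mul_le_mul' hG le_rfl)
    _ = 3 * ENNReal.ofReal M * (c₃ * volume (Ψ ⁻¹' K))
          * (c₂ * volume B' / (c₂ * volume (pr1 (Ψ ⁻¹' K)))) := by
        rw [ENNReal.mul_div_mul_left _ _ hc20 hc2t]; ring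
    _ ≤ 3 * ENNReal.ofReal M * (c₃ * volume (Ψ ⁻¹' K))
          * ((μHE[2] : Measure E) B / (c₂ * volume (pr1 (Ψ ⁻¹' K)))) := by
        gcongr
    _ = _ := by rw [hareaK, hc₃ _ hKm]

end Vale.Agent.Lib.P243
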