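import Mathlib
import Vale.Agent.Lib.P243.Tetra

open MeasureTheory Measure Set
open scoped ENNReal NNReal Pointwise

namespace Vale.Agent.Lib.P243

/-- Barycentric weights of a point of coordinate space with respect to the standard simplex. -/
def bary (x : ℝ × ℝ × ℝ) : Fin 4 → ℝ := ![1 - (x.1 + x.2.1 + x.2.2), x.1, x.2.1, x.2.2]

/-- The core condition on barycentric weights: every two weights add up to at least `1/20` and
every weight is at most `9/10`. -/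
def coreP (w : Fin 4 → ℝ) : Prop :=
  (∀ k l : Fin 4, k < l → 1 / 20 ≤ w k + w l) ∧ ∀ k : Fin 4, w k ≤ 9 / 10

theorem max_sub_max_neg (a : ℝ) : max a 0 - max (-a) 0 = a := by
  rcases le_total a 0 with h | h
  · rw [max_eq_right h, max_eq_left (by linarith)]; ring
  · rw [max_eq_left h, max_eq_right (by linarith)]; ring

/-- The combinatorial heart: two weight vectors in the core differ, in total positive part, by at
most `9/10`. -/
theorem core_real {a b c e a' b' c' e' : ℝ}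
    (h0 : 0 ≤ a ∧ 0 ≤ b ∧ 0 ≤ c ∧ 0 ≤ e) (h1 : a + b + c + e = 1)
    (h2 : 1 / 20 ≤ a + b ∧ 1 / 20 ≤ a + c ∧ 1 / 20 ≤ a + e ∧ 1 / 20 ≤ b + c ∧ 1 / 20 ≤ b + e ∧
      1 / 20 ≤ c + e)
    (h3 : a ≤ 9 / 10 ∧ b ≤ 9 / 10 ∧ c ≤ 9 / 10 ∧ e ≤ 9 / 10)
    (h0' : 0 ≤ a' ∧ 0 ≤ b' ∧ 0 ≤ c' ∧ 0 ≤ e') (h1' : a' + b' + c' + e' = 1)
    (h2' : 1 / 20 ≤ a' + b' ∧ 1 / 20 ≤ a' + c' ∧ 1 / 20 ≤ a' + e' ∧ 1 / 20 ≤ b' + c' ∧
      1 / 20 ≤ b' + e' ∧ 1 / 20 ≤ c' + e')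
    (h3' : a' ≤ 9 / 10 ∧ b' ≤ 9 / 10 ∧ c' ≤ 9 / 10 ∧ e' ≤ 9 / 10) :
    max (a' - a) 0 + max (b' - b) 0 + max (c' - c) 0 + max (e' - e) 0 ≤ 9 / 10 := by
  obtain ⟨p1, p2, p3, p4⟩ := h0
  obtain ⟨q1, q2, q3, q4, q5, q6⟩ := h2
  obtain ⟨r1, r2, r3, r4⟩ := h3
  obtain ⟨p1', p2', p3', p4'⟩ := h0'
  obtain ⟨q1', q2', q3', q4', q5', q6'⟩ := h2'
  obtain ⟨r1', r2', r3', r4'⟩ := h3'
  rcases le_total (a' - a) 0 with ha | ha <;> rcases le_total (b' - b) 0 with hb | hb <;>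
    rcases le_total (c' - c) 0 with hc | hc <;> rcases le_total (e' - e) 0 with he | he
  all_goals
    first
    | rw [max_eq_right ha] | rw [max_eq_left ha]
  all_goals
    first
    | rw [max_eq_right hb] | rw [max_eq_left hb]
  all_goals
    first
    | rw [max_eq_right hc] | rw [max_eq_left hc]
  all_goals
    first
    | rw [max_eq_right he] | rw [max_eq_left he]
  all_goals linarith

/-- The total positive part of a direction in barycentric terms. -/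
def posPart4 (δ : ℝ × ℝ × ℝ) : ℝ :=
  max (-(δ.1 + δ.2.1 + δ.2.2)) 0 + max δ.1 0 + max δ.2.1 0 + max δ.2.2 0

theorem posPart4_pos {δ : ℝ × ℝ × ℝ} (h : δ ≠ 0) : 0 < posPart4 δ := by
  by_contra hn
  have h0 : posPart4 δ ≤ 0 := not_lt.1 hn
  unfold posPart4 at h0
  have a0 := le_max_left (-(δ.1 + δ.2.1 + δ.2.2)) 0
  have a1 := le_max_left δ.1 0
  have a2 := le_max_left δ.2.1 0
  have a3 := le_max_left δ.2.2 0
  have b0 := le_max_right (-(δ.1 + δ.2.1 + δ.2.2)) 0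
  have b1 := le_max_right δ.1 0
  have b2 := le_max_right δ.2.1 0
  have b3 := le_max_right δ.2.2 0
  apply h
  have e1 : δ.1 = 0 := by linarith
  have e2 : δ.2.1 = 0 := by linarith
  have e3 : δ.2.2 = 0 := by linarith
  exact Prod.ext e1 (Prod.ext e2 e3)

/-- The spine: the standard simplex contains a segment parallel to `δ` of relative length
`1 / posPart4 δ`. -/
theorem spine (δ : ℝ × ℝ × ℝ) (h : 0 < posPart4 δ) :
    ∃ P Q : ℝ × ℝ × ℝ, P ∈ stdTet ∧ Q ∈ stdTet ∧ Q - P = (1 / posPart4 δ) • δ := by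
  have a0 := le_max_left (-(δ.1 + δ.2.1 + δ.2.2)) 0
  have b0 := le_max_right (-(δ.1 + δ.2.1 + δ.2.2)) 0
  have b1 := le_max_right δ.1 0
  have b2 := le_max_right δ.2.1 0
  have b3 := le_max_right δ.2.2 0
  have c1 := le_max_right (-δ.1) 0
  have c2 := le_max_right (-δ.2.1) 0
  have c3 := le_max_right (-δ.2.2) 0
  have i1 := max_sub_max_neg δ.1
  have i2 := max_sub_max_neg δ.2.1
  have i3 := max_sub_max_neg δ.2.2
  have hdef : posPart4 δ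
      = max (-(δ.1 + δ.2.1 + δ.2.2)) 0 + max δ.1 0 + max δ.2.1 0 + max δ.2.2 0 := rfl
  refine ⟨(max (-δ.1) 0 / posPart4 δ, max (-δ.2.1) 0 / posPart4 δ, max (-δ.2.2) 0 / posPart4 δ),
    (max δ.1 0 / posPart4 δ, max δ.2.1 0 / posPart4 δ, max δ.2.2 0 / posPart4 δ), ?_, ?_, ?_⟩
  · refine ⟨div_nonneg c1 h.le, div_nonneg c2 h.le, div_nonneg c3 h.le, ?_⟩
    show max (-δ.1) 0 / posPart4 δ + max (-δ.2.1) 0 / posPart4 δ + max (-δ.2.2) 0 / posPart4 δ ≤ 1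
    rw [← add_div, ← add_div, div_le_one h]
    linarith
  · refine ⟨div_nonneg b1 h.le, div_nonneg b2 h.le, div_nonneg b3 h.le, ?_⟩
    show max δ.1 0 / posPart4 δ + max δ.2.1 0 / posPart4 δ + max δ.2.2 0 / posPart4 δ ≤ 1
    rw [← add_div, ← add_div, div_le_one h]
    linarith
  · refine Prod.ext ?_ (Prod.ext ?_ ?_)
    · show max δ.1 0 / posPart4 δ - max (-δ.1) 0 / posPart4 δ = 1 / posPart4 δ * δ.1
      rw [← sub_div, i1]; ring
    · show max δ.2.1 0 / posPart4 δ - max (-δ.2.1) 0 / posPart4 δ = 1 / posPart4 δ * δ.2.1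
      rw [← sub_div, i2]; ring
    · show max δ.2.2 0 / posPart4 δ - max (-δ.2.2) 0 / posPart4 δ = 1 / posPart4 δ * δ.2.2
      rw [← sub_div, i3]; ring

/-- Chords of the core of the standard simplex. -/
theorem stdCore_chord {y y' δ : ℝ × ℝ × ℝ} {t : ℝ} (hy : y ∈ stdTet) (hc : coreP (bary y))
    (hy' : y' ∈ stdTet) (hc' : coreP (bary y')) (h : y' - y = t • δ) :
    |t| * posPart4 δ ≤ 9 / 10 := by
  have e1 : y'.1 - y.1 = t * δ.1 := congrArg Prod.fst h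
  have e2 : y'.2.1 - y.2.1 = t * δ.2.1 := congrArg (fun z : ℝ × ℝ × ℝ => z.2.1) h
  have e3 : y'.2.2 - y.2.2 = t * δ.2.2 := congrArg (fun z : ℝ × ℝ × ℝ => z.2.2) h
  obtain ⟨m1, m2, m3, m4⟩ := hy
  obtain ⟨m1', m2', m3', m4'⟩ := hy'
  have k01 : 1 / 20 ≤ 1 - (y.1 + y.2.1 + y.2.2) + y.1 := hc.1 0 1 (by decide)
  have k02 : 1 / 20 ≤ 1 - (y.1 + y.2.1 + y.2.2) + y.2.1 := hc.1 0 2 (by decide)
  have k03 : 1 / 20 ≤ 1 - (y.1 + y.2.1 + y.2.2) + y.2.2 := hc.1 0 3 (by decide)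
  have k12 : 1 / 20 ≤ y.1 + y.2.1 := hc.1 1 2 (by decide)
  have k13 : 1 / 20 ≤ y.1 + y.2.2 := hc.1 1 3 (by decide)
  have k23 : 1 / 20 ≤ y.2.1 + y.2.2 := hc.1 2 3 (by decide)
  have l0 : 1 - (y.1 + y.2.1 + y.2.2) ≤ 9 / 10 := hc.2 0
  have l1 : y.1 ≤ 9 / 10 := hc.2 1
  have l2 : y.2.1 ≤ 9 / 10 := hc.2 2
  have l3 : y.2.2 ≤ 9 / 10 := hc.2 3
  have k01' : 1 / 20 ≤ 1 - (y'.1 + y'.2.1 + y'.2.2) + y'.1 := hc'.1 0 1 (by decide)
  have k02' : 1 / 20 ≤ 1 - (y'.1 + y'.2.1 + y'.2.2) + y'.2.1 := hc'.1 0 2 (by decide)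
  have k03' : 1 / 20 ≤ 1 - (y'.1 + y'.2.1 + y'.2.2) + y'.2.2 := hc'.1 0 3 (by decide)
  have k12' : 1 / 20 ≤ y'.1 + y'.2.1 := hc'.1 1 2 (by decide)
  have k13' : 1 / 20 ≤ y'.1 + y'.2.2 := hc'.1 1 3 (by decide)
  have k23' : 1 / 20 ≤ y'.2.1 + y'.2.2 := hc'.1 2 3 (by decide)
  have l0' : 1 - (y'.1 + y'.2.1 + y'.2.2) ≤ 9 / 10 := hc'.2 0
  have l1' : y'.1 ≤ 9 / 10 := hc'.2 1
  have l2' : y'.2.1 ≤ 9 / 10 := hc'.2 2
  have l3' : y'.2.2 ≤ 9 / 10 := hc'.2 3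
  have A := core_real (a := 1 - (y.1 + y.2.1 + y.2.2)) (b := y.1) (c := y.2.1) (e := y.2.2)
    (a' := 1 - (y'.1 + y'.2.1 + y'.2.2)) (b' := y'.1) (c' := y'.2.1) (e' := y'.2.2)
    ⟨by linarith, m1, m2, m3⟩ (by ring) ⟨k01, k02, k03, k12, k13, k23⟩ ⟨l0, l1, l2, l3⟩
    ⟨by linarith, m1', m2', m3'⟩ (by ring) ⟨k01', k02', k03', k12', k13', k23'⟩ ⟨l0', l1', l2', l3'⟩
  have A' := core_real (a' := 1 - (y.1 + y.2.1 + y.2.2)) (b' := y.1) (c' := y.2.1) (e' := y.2.2)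
    (a := 1 - (y'.1 + y'.2.1 + y'.2.2)) (b := y'.1) (c := y'.2.1) (e := y'.2.2)
    ⟨by linarith, m1', m2', m3'⟩ (by ring) ⟨k01', k02', k03', k12', k13', k23'⟩ ⟨l0', l1', l2', l3'⟩
    ⟨by linarith, m1, m2, m3⟩ (by ring) ⟨k01, k02, k03, k12, k13, k23⟩ ⟨l0, l1, l2, l3⟩
  unfold posPart4
  rcases le_total 0 t with ht | ht
  · rw [abs_of_nonneg ht, mul_add, mul_add, mul_add, mul_max_of_nonneg _ _ ht,
      mul_max_of_nonneg _ _ ht, mul_max_of_nonneg _ _ ht, mul_max_of_nonneg _ _ ht, mul_zero,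
      ← e1, ← e2, ← e3]
    have e0 : t * -(δ.1 + δ.2.1 + δ.2.2)
        = 1 - (y'.1 + y'.2.1 + y'.2.2) - (1 - (y.1 + y.2.1 + y.2.2)) := by
      linear_combination e1 + e2 + e3
    rw [e0]
    exact A
  · have ht' : 0 ≤ -t := by linarith
    rw [abs_of_nonpos ht, mul_add, mul_add, mul_add, mul_max_of_nonneg _ _ ht',
      mul_max_of_nonneg _ _ ht', mul_max_of_nonneg _ _ ht', mul_max_of_nonneg _ _ ht', mul_zero]
    have e0 : -t * -(δ.1 + δ.2.1 + δ.2.2)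
        = 1 - (y.1 + y.2.1 + y.2.2) - (1 - (y'.1 + y'.2.1 + y'.2.2)) := by
      linear_combination -e1 - e2 - e3
    have f1 : -t * δ.1 = y.1 - y'.1 := by linear_combination e1
    have f2 : -t * δ.2.1 = y.2.1 - y'.2.1 := by linear_combination e2
    have f3 : -t * δ.2.2 = y.2.2 - y'.2.2 := by linear_combination e3
    rw [e0, f1, f2, f3]
    exact A'

/-- The part of the standard simplex near one edge is small. -/
theorem volume_slab :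
    volume {x : ℝ × ℝ × ℝ | x ∈ stdTet ∧ x.2.1 + x.2.2 ≤ 1 / 20}
      ≤ ENNReal.ofReal (3 / 400) * volume stdTet := by
  have hB : MeasurableSet ((1 / 20 : ℝ) • stdTri) :=
    (isClosed_stdTri.smul_of_ne_zero (by norm_num)).measurableSet
  have hsub : {x : ℝ × ℝ × ℝ | x ∈ stdTet ∧ x.2.1 + x.2.2 ≤ 1 / 20}
      ⊆ stdTet ∩ Prod.snd ⁻¹' ((1 / 20 : ℝ) • stdTri) := by
    rintro x ⟨hx, hs⟩
    refine ⟨hx, ?_⟩
    obtain ⟨h1, h2, h3, h4⟩ := hx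
    refine ⟨(20 * x.2.1, 20 * x.2.2), ⟨?_, ?_, ?_⟩, ?_⟩
    · show 0 ≤ 20 * x.2.1; linarith
    · show 0 ≤ 20 * x.2.2; linarith
    · show 20 * x.2.1 + 20 * x.2.2 ≤ 1; linarith
    · ext
      · simp
      · simp
  have hv : volume ((1 / 20 : ℝ) • stdTri) = ENNReal.ofReal (1 / 400) * volume stdTri := by
    rw [Measure.addHaar_smul]
    have hf : Module.finrank ℝ (ℝ × ℝ) = 2 := by simp
    rw [hf, abs_of_nonneg (by positivity)]
    norm_num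
  calc volume {x : ℝ × ℝ × ℝ | x ∈ stdTet ∧ x.2.1 + x.2.2 ≤ 1 / 20}
      ≤ volume (stdTet ∩ Prod.snd ⁻¹' ((1 / 20 : ℝ) • stdTri)) := measure_mono hsub
    _ ≤ volume (stdTet ∩ Prod.snd ⁻¹' ((1 / 20 : ℝ) • stdTri))
        + volume (stdOct ∩ Prod.snd ⁻¹' ((1 / 20 : ℝ) • stdTri)) := le_self_add
    _ ≤ volume ((1 / 20 : ℝ) • stdTri) := fibre_bound hB
    _ = ENNReal.ofReal (1 / 400) * volume stdTri := hv
    _ ≤ ENNReal.ofReal (1 / 400) * (3 * volume stdTet) := by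
        gcongr
        exact tri_le_three_tet
    _ = ENNReal.ofReal (3 / 400) * volume stdTet := by
        rw [← mul_assoc]
        congr 1
        rw [show (3 : ℝ≥0∞) = ENNReal.ofReal 3 by simp, ← ENNReal.ofReal_mul (by norm_num)]
        norm_num

/-- The part of the standard simplex near one vertex is small. -/
theorem volume_cap :
    volume {x : ℝ × ℝ × ℝ | x ∈ stdTet ∧ 9 / 10 ≤ 1 - (x.1 + x.2.1 + x.2.2)}
      ≤ ENNReal.ofReal (1 / 1000) * volume stdTet := by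
  have := haar_volume_R3
  have hsub : {x : ℝ × ℝ × ℝ | x ∈ stdTet ∧ 9 / 10 ≤ 1 - (x.1 + x.2.1 + x.2.2)}
      ⊆ (1 / 10 : ℝ) • stdTet := by
    rintro x ⟨⟨h1, h2, h3, h4⟩, hs⟩
    refine ⟨(10 * x.1, 10 * x.2.1, 10 * x.2.2), ⟨?_, ?_, ?_, ?_⟩, ?_⟩
    · show 0 ≤ 10 * x.1; linarith
    · show 0 ≤ 10 * x.2.1; linarith
    · show 0 ≤ 10 * x.2.2; linarith
    · show 10 * x.1 + 10 * x.2.1 + 10 * x.2.2 ≤ 1; linarith
    · ext
      · simp
      · simp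
      · simp
  refine (measure_mono hsub).trans (le_of_eq ?_)
  rw [Measure.addHaar_smul]
  have hf : Module.finrank ℝ (ℝ × ℝ × ℝ) = 3 := by simp
  rw [hf, abs_of_nonneg (by positivity)]
  norm_num

theorem isClosed_slab : IsClosed {x : ℝ × ℝ × ℝ | x ∈ stdTet ∧ x.2.1 + x.2.2 ≤ 1 / 20} := by
  have h : IsClosed {x : ℝ × ℝ × ℝ | x.2.1 + x.2.2 ≤ 1 / 20} :=
    isClosed_le (by fun_prop) continuous_const
  exact isClosed_stdTet.inter h

theorem isClosed_cap :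
    IsClosed {x : ℝ × ℝ × ℝ | x ∈ stdTet ∧ 9 / 10 ≤ 1 - (x.1 + x.2.1 + x.2.2)} := by
  have h : IsClosed {x : ℝ × ℝ × ℝ | 9 / 10 ≤ 1 - (x.1 + x.2.1 + x.2.2)} :=
    isClosed_le continuous_const (by fun_prop)
  exact isClosed_stdTet.inter h

theorem isClosed_core : IsClosed {x : ℝ × ℝ × ℝ | x ∈ stdTet ∧ coreP (bary x)} := by
  have hb : ∀ k : Fin 4, Continuous (fun x : ℝ × ℝ × ℝ => bary x k) := by
    intro k
    fin_cases k
    · show Continuous (fun x : ℝ × ℝ × ℝ => 1 - (x.1 + x.2.1 + x.2.2)); fun_prop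
    · show Continuous (fun x : ℝ × ℝ × ℝ => x.1); fun_prop
    · show Continuous (fun x : ℝ × ℝ × ℝ => x.2.1); fun_prop
    · show Continuous (fun x : ℝ × ℝ × ℝ => x.2.2); fun_prop
  have h1 : IsClosed {x : ℝ × ℝ × ℝ | ∀ k l : Fin 4, k < l → 1 / 20 ≤ bary x k + bary x l} := by
    have e : {x : ℝ × ℝ × ℝ | ∀ k l : Fin 4, k < l → 1 / 20 ≤ bary x k + bary x l}
        = ⋂ k : Fin 4, ⋂ l : Fin 4, ⋂ _ : k < l, {x | 1 / 20 ≤ bary x k + bary x l} := by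
      ext x; simp
    rw [e]
    refine isClosed_iInter (fun k => isClosed_iInter (fun l => isClosed_iInter (fun _ => ?_)))
    exact isClosed_le continuous_const ((hb k).add (hb l))
  have h2 : IsClosed {x : ℝ × ℝ × ℝ | ∀ k : Fin 4, bary x k ≤ 9 / 10} := by
    have e : {x : ℝ × ℝ × ℝ | ∀ k : Fin 4, bary x k ≤ 9 / 10}
        = ⋂ k : Fin 4, {x | bary x k ≤ 9 / 10} := by
      ext x; simp
    rw [e]
    exact isClosed_iInter (fun k => isClosed_le (hb k) continuous_const)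
  exact isClosed_stdTet.inter (h1.inter h2)

end Vale.Agent.Lib.P243
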