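import Mathlib
import Vale.Agent.Lib.P243.Transfer
import Vale.Agent.Lib.P243.helper20.PhiSum

open MeasureTheory Measure Set
open scoped ENNReal NNReal InnerProductSpace

namespace Vale.Agent.Lib.P243

open Vale.Agent.Lib.P243.helper23 (phi)
open Vale.Agent.Lib.P243.helper20 (phi_sum_main phi_sum_two phi_sum_three phi_sum_general)

variable {E : Type*} [NormedAddCommGroup E] [InnerProductSpace ℝ E] [FiniteDimensional ℝ E]
  [MeasurableSpace E] [BorelSpace E]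

omit [InnerProductSpace ℝ E] [FiniteDimensional ℝ E] [MeasurableSpace E] [BorelSpace E] in
/-- Padding a list of axis directions to a longer list. -/
theorem pad_dir {ι : Type*} (d : ι → E) {J N : ℕ} (hJN : J ≤ N) (dir : Fin J → E)
    (hdir : ∀ i, ∃ j, d i = dir j ∨ d i = -dir j) :
    ∃ dir' : Fin N → E, ∀ i, ∃ j, d i = dir' j ∨ d i = -dir' j := by
  refine ⟨fun j => if h : (j : ℕ) < J then dir ⟨j, h⟩ else 0, fun i => ?_⟩
  obtain ⟨j, hj⟩ := hdir i
  refine ⟨⟨j, lt_of_lt_of_le j.2 hJN⟩, ?_⟩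
  simpa using hj

/-- Coverings by cylinders whose axis lines take at most `J` values. -/
theorem family_count (hV : CoordBound) (hdim : Module.finrank ℝ E = 3)
    (μ : Measure E) [μ.IsAddHaarMeasure] {ι : Type*} [Fintype ι]
    {K : Set E} (hK : Convex ℝ K) (hKc : IsCompact K) (hKi : (interior K).Nonempty)
    (d : ι → E) (hd1 : ∀ i, ‖d i‖ = 1) (B : ι → Set E)
    (hB : ∀ i, ∀ x ∈ B i, ⟪x, d i⟫_ℝ = 0)
    (hcov : K ⊆ ⋃ i, {x | ∃ b ∈ B i, ∃ s : ℝ, x = b + s • d i})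
    (J : ℕ) (dir : Fin J → E) (hdir : ∀ i, ∃ j, d i = dir j ∨ d i = -dir j) :
    ENNReal.ofReal (1 / 3 + 2 / (9 * Real.sqrt (3 * J))) ≤
        ∑ i, (μHE[2] : Measure E) (B i) /
          (μHE[2] : Measure E) ((fun x => x - ⟪x, d i⟫_ℝ • d i) '' K)
      ∧ (∀ ρ : ℝ, ρ ≤ 1 →
          ∑ i, (μHE[2] : Measure E) (B i) /
            (μHE[2] : Measure E) ((fun x => x - ⟪x, d i⟫_ℝ • d i) '' K) ≤ ENNReal.ofReal ρ →
          1 ≤ 3 * ρ - 2 * ρ * Real.sqrt ρ / Real.sqrt J)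
      ∧ (J ≤ 2 → (1 / 2 : ℝ≥0∞) ≤ ∑ i, (μHE[2] : Measure E) (B i) /
            (μHE[2] : Measure E) ((fun x => x - ⟪x, d i⟫_ℝ • d i) '' K))
      ∧ (J ≤ 3 → (4 / 9 : ℝ≥0∞) ≤ ∑ i, (μHE[2] : Measure E) (B i) /
            (μHE[2] : Measure E) ((fun x => x - ⟪x, d i⟫_ℝ • d i) '' K)) := by
  obtain ⟨b, hb0, hb1, hsum, hbR⟩ :=
    family_dir_core hV hdim μ hK hKc hKi d hd1 B hB hcov J dir hdir
  have hJ : 0 < J := by
    rcases Nat.eq_zero_or_pos J with h | h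
    · subst h
      simp at hsum
      linarith
    · exact h
  have hgen := phi_sum_general J hJ b hb0 hb1 hsum
  have hpos : (0 : ℝ) < 1 / 3 + 2 / (9 * Real.sqrt (3 * J)) := by positivity
  refine ⟨(ENNReal.ofReal_le_ofReal hgen).trans hbR, ?_, ?_, ?_⟩
  · intro ρ hρ1 hρ
    have h := hbR.trans hρ
    rcases (ENNReal.ofReal_le_ofReal_iff' (p := ∑ j, b j) (q := ρ)).1 h with h' | h'
    · exact phi_sum_main J hJ b hb0 hb1 hsum ρ h' hρ1
    · linarith
  · intro hJ2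
    obtain ⟨dir', hdir'⟩ := pad_dir d hJ2 dir hdir
    obtain ⟨b', hb0', hb1', hsum', hbR'⟩ :=
      family_dir_core hV hdim μ hK hKc hKi d hd1 B hB hcov 2 dir' hdir'
    have h2 := phi_sum_two b' hb0' hb1' hsum'
    refine le_trans ?_ ((ENNReal.ofReal_le_ofReal h2).trans hbR')
    rw [ENNReal.ofReal_div_of_pos (by norm_num)]
    simp
  · intro hJ3
    obtain ⟨dir', hdir'⟩ := pad_dir d hJ3 dir hdir
    obtain ⟨b', hb0', hb1', hsum', hbR'⟩ :=
      family_dir_core hV hdim μ hK hKc hKi d hd1 B hB hcov 3 dir' hdir'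
    have h3 := phi_sum_three b' hb0' hb1' hsum'
    refine le_trans ?_ ((ENNReal.ofReal_le_ofReal h3).trans hbR')
    rw [ENNReal.ofReal_div_of_pos (by norm_num)]
    simp

end Vale.Agent.Lib.P243
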