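import Mathlib
import Vale.Agent.Lib.P243.Count
import Vale.Agent.Lib.P243.helper23.Core

open MeasureTheory Measure Set
open scoped ENNReal NNReal InnerProductSpace

namespace Vale.Agent.Lib.P243

/-- The coordinate form of the cylinder-section volume bound holds. -/
theorem coordBound : CoordBound := helper23.lemmaV_coord

variable {E : Type*} [NormedAddCommGroup E] [InnerProductSpace ℝ E] [FiniteDimensional ℝ E]
  [MeasurableSpace E] [BorelSpace E]

/-- Coverings by cylinders whose axis lines take at most `J` values. -/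
theorem family_count_final (hdim : Module.finrank ℝ E = 3)
    (μ : Measure E) [μ.IsAddHaarMeasure] {ι : Type*} [Fintype ι]
    {K : Set E} (hK : Convex ℝ K) (hKc : IsCompact K) (hKi : (interior K).Nonempty)
    (d : ι → E) (hd1 : ∀ i, ‖d i‖ = 1) (B : ι → Set E)
    (hB : ∀ i, ∀ x ∈ B i, ⟪x, d i⟫_ℝ = 0)
    (hcov : K ⊆ ⋃ i, {x | ∃ b ∈ B i, ∃ s : ℝ, x = b + s • d i})
    (J : ℕ) (dir : Fin J → E) (hdir : ∀ i, ∃ j, d i = dir j ∨ d i = -dir j)
    (R : ℝ≥0∞) (hR : R = ∑ i, (μHE[2] : Measure E) (B i) /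
          (μHE[2] : Measure E) ((fun x => x - ⟪x, d i⟫_ℝ • d i) '' K)) :
    ENNReal.ofReal (1 / 3 + 2 / (9 * Real.sqrt (3 * J))) ≤ R
      ∧ (∀ ρ : ℝ, ρ ≤ 1 → R ≤ ENNReal.ofReal ρ →
          1 ≤ 3 * ρ - 2 * ρ * Real.sqrt ρ / Real.sqrt J)
      ∧ (J ≤ 2 → (1 / 2 : ℝ≥0∞) ≤ R)
      ∧ (J ≤ 3 → (4 / 9 : ℝ≥0∞) ≤ R) := by
  subst hR
  exact family_count coordBound hdim μ hK hKc hKi d hd1 B hB hcov J dir hdir

end Vale.Agent.Lib.P243
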