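import Mathlib
import Vale.Agent.Lib.P243.CoreStd
import Vale.Agent.Lib.P243.CoreEucl
import Vale.Agent.Lib.P243.Amin

open MeasureTheory Measure Set
open scoped ENNReal NNReal InnerProductSpace

namespace Vale.Agent.Lib.P243

variable {E : Type*} [NormedAddCommGroup E] [InnerProductSpace ℝ E]

/-- The part of the simplex spanned by four points whose barycentric weights satisfy `P`. -/
def wSet (q : Fin 4 → E) (P : (Fin 4 → ℝ) → Prop) : Set E :=
  {x | ∃ w : Fin 4 → ℝ, (∀ i, 0 ≤ w i) ∧ ∑ i, w i = 1 ∧ P w ∧ x = ∑ i, w i • q i}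

theorem wSet_subset (q : Fin 4 → E) (P : (Fin 4 → ℝ) → Prop) : wSet q P ⊆ simplexSet q := by
  rintro x ⟨w, hw0, hw1, -, hx⟩
  exact ⟨w, hw0, hw1, hx⟩

theorem wSet_perm (p : Fin 4 → E) (σ : Equiv.Perm (Fin 4)) (P : (Fin 4 → ℝ) → Prop) :
    wSet (p ∘ σ) P = wSet p (fun w => P (w ∘ σ)) := by
  ext x
  constructor
  · rintro ⟨w, hw0, hw1, hP, rfl⟩
    refine ⟨w ∘ σ.symm, fun i => hw0 _, ?_, ?_, ?_⟩
    · rw [← hw1]; exact Equiv.sum_comp σ.symm w
    · have : (w ∘ σ.symm) ∘ σ = w := by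
        funext i; simp
      show P ((w ∘ σ.symm) ∘ σ)
      rw [this]; exact hP
    · rw [← Equiv.sum_comp σ (fun i => (w ∘ σ.symm) i • p i)]
      simp
  · rintro ⟨w, hw0, hw1, hP, rfl⟩
    refine ⟨w ∘ σ, fun i => hw0 _, ?_, hP, ?_⟩
    · rw [← hw1]; exact Equiv.sum_comp σ w
    · exact (Equiv.sum_comp σ (fun i => w i • p i)).symm

theorem par_mem_wSet {q : Fin 4 → E} (hq : AffineIndependent ℝ q) (P : (Fin 4 → ℝ) → Prop)
    (x : ℝ × ℝ × ℝ) :
    q 0 + frameMap (q 1 - q 0) (q 2 - q 0) (q 3 - q 0) x ∈ wSet q P ↔ x ∈ stdTet ∧ P (bary x) := by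
  constructor
  · rintro ⟨w, hw0, hw1, hP, hx⟩
    rw [comb_eq q w hw1] at hx
    have hx' := frame_inj hq (add_left_cancel hx)
    rw [hx']
    rw [Fin.sum_univ_four] at hw1
    refine ⟨⟨hw0 1, hw0 2, hw0 3, by show w 1 + w 2 + w 3 ≤ 1; linarith [hw0 0]⟩, ?_⟩
    have hb : bary (w 1, w 2, w 3) = w := by
      funext i
      fin_cases i
      · show 1 - (w 1 + w 2 + w 3) = w 0; linarith
      · rfl
      · rfl
      · rfl
    rw [hb]; exact hP
  · rintro ⟨⟨h1, h2, h3, h4⟩, hP⟩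
    have hsum : ∑ i, bary x i = 1 := by
      rw [Fin.sum_univ_four]
      show 1 - (x.1 + x.2.1 + x.2.2) + x.1 + x.2.1 + x.2.2 = 1
      ring
    refine ⟨bary x, ?_, hsum, hP, ?_⟩
    · intro i
      fin_cases i
      · show 0 ≤ 1 - (x.1 + x.2.1 + x.2.2); linarith
      · exact h1
      · exact h2
      · exact h3
    · rw [comb_eq q _ hsum]
      rfl

variable [FiniteDimensional ℝ E]

theorem wSet_eq_image (hdim : Module.finrank ℝ E = 3) {q : Fin 4 → E}
    (hq : AffineIndependent ℝ q) (P : (Fin 4 → ℝ) → Prop) :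
    wSet q P = (fun x => q 0 + frameMap (q 1 - q 0) (q 2 - q 0) (q 3 - q 0) x) ''
      {x | x ∈ stdTet ∧ P (bary x)} := by
  ext z
  constructor
  · intro hz
    obtain ⟨x, hx⟩ := frame_surj hdim hq (z - q 0)
    have hz' : z = q 0 + frameMap (q 1 - q 0) (q 2 - q 0) (q 3 - q 0) x := by rw [hx]; abel
    rw [hz'] at hz
    exact ⟨x, (par_mem_wSet hq P x).1 hz, hz'.symm⟩
  · rintro ⟨x, hx, rfl⟩
    exact (par_mem_wSet hq P x).2 hx

theorem isCompact_wSet (hdim : Module.finrank ℝ E = 3) {q : Fin 4 → E}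
    (hq : AffineIndependent ℝ q) (P : (Fin 4 → ℝ) → Prop)
    (hP : IsClosed {x : ℝ × ℝ × ℝ | x ∈ stdTet ∧ P (bary x)}) : IsCompact (wSet q P) := by
  rw [wSet_eq_image hdim hq]
  exact (isCompact_stdTet.of_isClosed_subset hP (fun x hx => hx.1)).image
    (continuous_const.add (LinearMap.continuous_of_finiteDimensional _))

variable [MeasurableSpace E] [BorelSpace E]

/-- Transfer of a volume bound from coordinates to the simplex. -/
theorem wSet_vol_le (hdim : Module.finrank ℝ E = 3) (μ : Measure E) [μ.IsAddHaarMeasure]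
    {q : Fin 4 → E} (hq : AffineIndependent ℝ q) (P : (Fin 4 → ℝ) → Prop)
    (hP : IsClosed {x : ℝ × ℝ × ℝ | x ∈ stdTet ∧ P (bary x)}) (κ : ℝ≥0∞)
    (hκ : volume {x : ℝ × ℝ × ℝ | x ∈ stdTet ∧ P (bary x)} ≤ κ * volume stdTet) :
    μ (wSet q P) ≤ κ * μ (simplexSet q) := by
  obtain ⟨c, hc0, hct, hc⟩ := vol_par hdim μ hq
  have e1 : {x | q 0 + frameMap (q 1 - q 0) (q 2 - q 0) (q 3 - q 0) x ∈ simplexSet q} = stdTet := by
    ext x; exact par_mem_simplex hq x
  have e2 : {x | q 0 + frameMap (q 1 - q 0) (q 2 - q 0) (q 3 - q 0) x ∈ wSet q P}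
      = {x | x ∈ stdTet ∧ P (bary x)} := by
    ext x; exact par_mem_wSet hq P x
  rw [hc _ (isCompact_simplexSet hdim hq).measurableSet,
    hc _ (isCompact_wSet hdim hq P hP).measurableSet, e1, e2]
  calc c * volume {x : ℝ × ℝ × ℝ | x ∈ stdTet ∧ P (bary x)} ≤ c * (κ * volume stdTet) := by gcongr
    _ = κ * (c * volume stdTet) := by ring

theorem exists_perm23 (k l : Fin 4) (h : k ≠ l) :
    ∃ σ : Equiv.Perm (Fin 4), σ 2 = k ∧ σ 3 = l := by
  obtain ⟨σ, h0, h1⟩ := exists_perm l k h.symm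
  refine ⟨σ * (Equiv.swap 0 2 * Equiv.swap 1 3), ?_, ?_⟩
  · rw [Equiv.Perm.mul_apply, Equiv.Perm.mul_apply]
    have e1 : Equiv.swap (1 : Fin 4) 3 2 = 2 :=
      Equiv.swap_apply_of_ne_of_ne (by decide) (by decide)
    rw [e1, Equiv.swap_apply_right, h0]
  · rw [Equiv.Perm.mul_apply, Equiv.Perm.mul_apply, Equiv.swap_apply_right]
    have e1 : Equiv.swap (0 : Fin 4) 2 1 = 1 :=
      Equiv.swap_apply_of_ne_of_ne (by decide) (by decide)
    rw [e1, h1]

/-- The part of the simplex near the edge opposite to the vertices `k`, `l` is small. -/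
theorem slab_le (hdim : Module.finrank ℝ E = 3) (μ : Measure E) [μ.IsAddHaarMeasure]
    {p : Fin 4 → E} (hp : AffineIndependent ℝ p) (k l : Fin 4) (h : k ≠ l) :
    μ (wSet p (fun w => w k + w l ≤ 1 / 20)) ≤ ENNReal.ofReal (3 / 400) * μ (simplexSet p) := by
  obtain ⟨σ, h2, h3⟩ := exists_perm23 k l h
  have hq : AffineIndependent ℝ (p ∘ σ) := hp.comp_embedding σ.toEmbedding
  have e : wSet p (fun w => w k + w l ≤ 1 / 20) = wSet (p ∘ σ) (fun w => w 2 + w 3 ≤ 1 / 20) := by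
    rw [wSet_perm]
    simp only [Function.comp_apply, h2, h3]
  rw [e, ← simplexSet_perm p σ]
  exact wSet_vol_le hdim μ hq _ isClosed_slab _ volume_slab

/-- The part of the simplex near the vertex `k` is small. -/
theorem cap_le (hdim : Module.finrank ℝ E = 3) (μ : Measure E) [μ.IsAddHaarMeasure]
    {p : Fin 4 → E} (hp : AffineIndependent ℝ p) (k : Fin 4) :
    μ (wSet p (fun w => 9 / 10 ≤ w k)) ≤ ENNReal.ofReal (1 / 1000) * μ (simplexSet p) := by
  have hq : AffineIndependent ℝ (p ∘ Equiv.swap 0 k) :=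
    hp.comp_embedding (Equiv.swap 0 k).toEmbedding
  have e : wSet p (fun w => 9 / 10 ≤ w k)
      = wSet (p ∘ Equiv.swap 0 k) (fun w => 9 / 10 ≤ w 0) := by
    rw [wSet_perm]
    simp only [Function.comp_apply, Equiv.swap_apply_left]
  rw [e, ← simplexSet_perm p (Equiv.swap 0 k)]
  exact wSet_vol_le hdim μ hq _ isClosed_cap _ volume_cap

omit [FiniteDimensional ℝ E] [MeasurableSpace E] [BorelSpace E] in
theorem simplex_cover (p : Fin 4 → E) :
    simplexSet p ⊆ wSet p coreP ∪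
      ((⋃ kl : {kl : Fin 4 × Fin 4 // kl.1 < kl.2},
          wSet p (fun w => w kl.1.1 + w kl.1.2 ≤ 1 / 20))
        ∪ ⋃ k : Fin 4, wSet p (fun w => 9 / 10 ≤ w k)) := by
  rintro x ⟨w, hw0, hw1, hx⟩
  by_cases hc : coreP w
  · exact Or.inl ⟨w, hw0, hw1, hc, hx⟩
  · right
    unfold coreP at hc
    rw [not_and_or] at hc
    rcases hc with hc | hc
    · left
      push Not at hc
      obtain ⟨k, l, hkl, hlt⟩ := hc
      exact mem_iUnion.2 ⟨⟨(k, l), hkl⟩, w, hw0, hw1, hlt.le, hx⟩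
    · right
      push Not at hc
      obtain ⟨k, hlt⟩ := hc
      exact mem_iUnion.2 ⟨k, w, hw0, hw1, hlt.le, hx⟩

/-- The core fills most of the simplex. -/
theorem core_vol (hdim : Module.finrank ℝ E = 3) (μ : Measure E) [μ.IsAddHaarMeasure]
    {p : Fin 4 → E} (hp : AffineIndependent ℝ p) :
    μ (simplexSet p) ≤ μ (wSet p coreP) + ENNReal.ofReal (49 / 1000) * μ (simplexSet p) := by
  have hcard : Fintype.card {kl : Fin 4 × Fin 4 // kl.1 < kl.2} = 6 := by decide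
  have h1 : μ (⋃ kl : {kl : Fin 4 × Fin 4 // kl.1 < kl.2},
      wSet p (fun w => w kl.1.1 + w kl.1.2 ≤ 1 / 20))
      ≤ 6 * (ENNReal.ofReal (3 / 400) * μ (simplexSet p)) := by
    refine (measure_iUnion_fintype_le _ _).trans ?_
    calc ∑ kl : {kl : Fin 4 × Fin 4 // kl.1 < kl.2},
          μ (wSet p (fun w => w kl.1.1 + w kl.1.2 ≤ 1 / 20))
        ≤ ∑ _kl : {kl : Fin 4 × Fin 4 // kl.1 < kl.2},
          ENNReal.ofReal (3 / 400) * μ (simplexSet p) :=
          Finset.sum_le_sum (fun kl _ => slab_le hdim μ hp kl.1.1 kl.1.2 (ne_of_lt kl.2))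
      _ = 6 * (ENNReal.ofReal (3 / 400) * μ (simplexSet p)) := by
          rw [Finset.sum_const, Finset.card_univ, hcard]; simp
  have h2 : μ (⋃ k : Fin 4, wSet p (fun w => 9 / 10 ≤ w k))
      ≤ 4 * (ENNReal.ofReal (1 / 1000) * μ (simplexSet p)) := by
    refine (measure_iUnion_fintype_le _ _).trans ?_
    calc ∑ k : Fin 4, μ (wSet p (fun w => 9 / 10 ≤ w k))
        ≤ ∑ _k : Fin 4, ENNReal.ofReal (1 / 1000) * μ (simplexSet p) :=
          Finset.sum_le_sum (fun k _ => cap_le hdim μ hp k)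
      _ = 4 * (ENNReal.ofReal (1 / 1000) * μ (simplexSet p)) := by
          rw [Finset.sum_const, Finset.card_univ]; simp
  have h49 : (6 : ℝ≥0∞) * ENNReal.ofReal (3 / 400) + 4 * ENNReal.ofReal (1 / 1000)
      = ENNReal.ofReal (49 / 1000) := by
    rw [show (6 : ℝ≥0∞) = ENNReal.ofReal 6 by simp, show (4 : ℝ≥0∞) = ENNReal.ofReal 4 by simp,
      ← ENNReal.ofReal_mul (by norm_num), ← ENNReal.ofReal_mul (by norm_num),
      ← ENNReal.ofReal_add (by norm_num) (by norm_num)]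
    norm_num
  calc μ (simplexSet p)
      ≤ μ (wSet p coreP ∪
          ((⋃ kl : {kl : Fin 4 × Fin 4 // kl.1 < kl.2},
              wSet p (fun w => w kl.1.1 + w kl.1.2 ≤ 1 / 20))
            ∪ ⋃ k : Fin 4, wSet p (fun w => 9 / 10 ≤ w k))) := measure_mono (simplex_cover p)
    _ ≤ μ (wSet p coreP) + (6 * (ENNReal.ofReal (3 / 400) * μ (simplexSet p))
          + 4 * (ENNReal.ofReal (1 / 1000) * μ (simplexSet p))) :=
        (measure_union_le _ _).trans (add_le_add le_rfl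
          ((measure_union_le _ _).trans (add_le_add h1 h2)))
    _ = μ (wSet p coreP) + ENNReal.ofReal (49 / 1000) * μ (simplexSet p) := by
        rw [← h49]; ring

/-- One cylinder of arbitrary direction against the core of the simplex. -/
theorem tetra_all_cyl (hdim : Module.finrank ℝ E = 3) (μ : Measure E) [μ.IsAddHaarMeasure]
    {p : Fin 4 → E} (hp : AffineIndependent ℝ p) {d : E} (hd : ‖d‖ = 1) (B : Set E) :
    μ (wSet p coreP ∩ {x | x - ⟪x, d⟫_ℝ • d ∈ B})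
      ≤ ENNReal.ofReal (27 / 10) * μ (simplexSet p) * ((μHE[2] : Measure E) B /
        (μHE[2] : Measure E) ((fun x => x - ⟪x, d⟫_ℝ • d) '' simplexSet p)) := by
  obtain ⟨hK, hKc, hKi⟩ := tetra_body hdim hp
  rw [convexHull_eq_simplexSet] at hK hKc hKi
  obtain ⟨δ, hδ⟩ := frame_surj hdim hp d
  have hδ0 : δ ≠ 0 := by
    rintro rfl
    rw [map_zero] at hδ
    rw [← hδ, norm_zero] at hd
    exact zero_ne_one hd
  have hω := posPart4_pos hδ0
  obtain ⟨P, Q, hP, hQ, hPQ⟩ := spine δ hω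
  have hpK := (par_mem_simplex hp P).2 hP
  have hqK := (par_mem_simplex hp Q).2 hQ
  have hL : (0 : ℝ) < 1 / posPart4 δ := by positivity
  have hpq : (p 0 + frameMap (p 1 - p 0) (p 2 - p 0) (p 3 - p 0) Q)
      - (p 0 + frameMap (p 1 - p 0) (p 2 - p 0) (p 3 - p 0) P) = (1 / posPart4 δ) • d := by
    rw [add_sub_add_left_eq_sub, ← map_sub, hPQ, map_smul, hδ]
  have hS : MeasurableSet (wSet p coreP) :=
    (isCompact_wSet hdim hp coreP isClosed_core).measurableSet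
  have hM : ∀ x ∈ wSet p coreP, ∀ x' ∈ wSet p coreP, ∀ t : ℝ, x' - x = t • d →
      |t| ≤ 9 / 10 / posPart4 δ := by
    intro x hx x' hx' t ht
    rw [wSet_eq_image hdim hp] at hx hx'
    obtain ⟨y, ⟨hy, hyc⟩, rfl⟩ := hx
    obtain ⟨y', ⟨hy', hyc'⟩, rfl⟩ := hx'
    have h1 : frameMap (p 1 - p 0) (p 2 - p 0) (p 3 - p 0) (y' - y)
        = frameMap (p 1 - p 0) (p 2 - p 0) (p 3 - p 0) (t • δ) := by
      have ht' : frameMap (p 1 - p 0) (p 2 - p 0) (p 3 - p 0) y'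
          - frameMap (p 1 - p 0) (p 2 - p 0) (p 3 - p 0) y = t • d := by
        rw [← ht]
        exact (add_sub_add_left_eq_sub _ _ _).symm
      rw [map_sub, map_smul, hδ, ht']
    have h2 := frame_inj hp h1
    rw [le_div_iff₀ hω]
    exact stdCore_chord hy hyc hy' hyc' h2
  have key := chord_cyl hdim μ hK hKc hKi hd hpK hqK hL hpq hS hM B
  have hLne : ENNReal.ofReal (1 / posPart4 δ) ≠ 0 := by
    rw [ne_eq, ENNReal.ofReal_eq_zero, not_le]; exact hL
  have hsplit : ENNReal.ofReal (9 / 10 / posPart4 δ)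
      = ENNReal.ofReal (9 / 10) * ENNReal.ofReal (1 / posPart4 δ) := by
    rw [← ENNReal.ofReal_mul (by norm_num)]
    congr 1
    ring
  have h27 : (3 : ℝ≥0∞) * ENNReal.ofReal (9 / 10) = ENNReal.ofReal (27 / 10) := by
    rw [show (3 : ℝ≥0∞) = ENNReal.ofReal 3 by simp, ← ENNReal.ofReal_mul (by norm_num)]
    norm_num
  rw [hsplit] at key
  have key' : ENNReal.ofReal (1 / posPart4 δ) * μ (wSet p coreP ∩ {x | x - ⟪x, d⟫_ℝ • d ∈ B})
      ≤ ENNReal.ofReal (1 / posPart4 δ) * (ENNReal.ofReal (27 / 10) * μ (simplexSet p) *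
        ((μHE[2] : Measure E) B /
          (μHE[2] : Measure E) ((fun x => x - ⟪x, d⟫_ℝ • d) '' simplexSet p))) := by
    refine key.trans (le_of_eq ?_)
    rw [← h27]
    ring
  exact (ENNReal.mul_le_mul_iff_right hLne ENNReal.ofReal_ne_top).1 key'

/-- A tetrahedron and any finite covering by cylinders: the directionwise relative area is at
least `7/20`. -/
theorem tetra_all (hdim : Module.finrank ℝ E = 3) (μ : Measure E) [μ.IsAddHaarMeasure]
    {p : Fin 4 → E} (hp : AffineIndependent ℝ p) {ι : Type*} [Fintype ι]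
    (d : ι → E) (hd1 : ∀ i, ‖d i‖ = 1)
    (B : ι → Set E) (hB : ∀ i, ∀ x ∈ B i, ⟪x, d i⟫_ℝ = 0)
    (hcov : convexHull ℝ (range p) ⊆ ⋃ i, {x | ∃ b ∈ B i, ∃ s : ℝ, x = b + s • d i}) :
    (7 / 20 : ℝ≥0∞) ≤ ∑ i, (μHE[2] : Measure E) (B i) /
      (μHE[2] : Measure E) ((fun x => x - ⟪x, d i⟫_ℝ • d i) '' convexHull ℝ (range p)) := by
  rw [convexHull_eq_simplexSet] at hcov ⊢
  obtain ⟨-, hpos, hfin⟩ := tetra_vol hdim μ hp
  have hcovS : wSet p coreP ⊆ ⋃ i, (wSet p coreP ∩ {x | x - ⟪x, d i⟫_ℝ • d i ∈ B i}) := by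
    intro x hx
    obtain ⟨i, b, hb, s, rfl⟩ := mem_iUnion.1 (hcov (wSet_subset p coreP hx))
    refine mem_iUnion.2 ⟨i, hx, ?_⟩
    show (b + s • d i) - ⟪b + s • d i, d i⟫_ℝ • d i ∈ B i
    rw [proj_cyl_point (hd1 i) (hB i b hb) s]
    exact hb
  set R : ℝ≥0∞ := ∑ i, (μHE[2] : Measure E) (B i) /
      (μHE[2] : Measure E) ((fun x => x - ⟪x, d i⟫_ℝ • d i) '' simplexSet p) with hR
  have hsum : μ (wSet p coreP) ≤ ENNReal.ofReal (27 / 10) * μ (simplexSet p) * R := by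
    calc μ (wSet p coreP)
        ≤ ∑ i, μ (wSet p coreP ∩ {x | x - ⟪x, d i⟫_ℝ • d i ∈ B i}) :=
          (measure_mono hcovS).trans (measure_iUnion_fintype_le _ _)
      _ ≤ ∑ i, ENNReal.ofReal (27 / 10) * μ (simplexSet p) * ((μHE[2] : Measure E) (B i) /
          (μHE[2] : Measure E) ((fun x => x - ⟪x, d i⟫_ℝ • d i) '' simplexSet p)) :=
          Finset.sum_le_sum (fun i _ => tetra_all_cyl hdim μ hp (hd1 i) (B i))
      _ = ENNReal.ofReal (27 / 10) * μ (simplexSet p) * R := by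
          rw [← Finset.mul_sum]
  have hcore := core_vol hdim μ hp
  by_cases hRt : R = ⊤
  · rw [hRt]; exact le_top
  have hm : 0 < (μ (simplexSet p)).toReal := ENNReal.toReal_pos hpos.ne' hfin.ne
  have hall : μ (simplexSet p) ≤ ENNReal.ofReal (27 / 10) * μ (simplexSet p) * R
      + ENNReal.ofReal (49 / 1000) * μ (simplexSet p) :=
    hcore.trans (add_le_add hsum le_rfl)
  have hfin1 : ENNReal.ofReal (27 / 10) * μ (simplexSet p) * R ≠ ⊤ :=
    ENNReal.mul_ne_top (ENNReal.mul_ne_top ENNReal.ofReal_ne_top hfin.ne) hRt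
  have hfin2 : ENNReal.ofReal (49 / 1000) * μ (simplexSet p) ≠ ⊤ :=
    ENNReal.mul_ne_top ENNReal.ofReal_ne_top hfin.ne
  have hr := ENNReal.toReal_mono (ENNReal.add_ne_top.2 ⟨hfin1, hfin2⟩) hall
  rw [ENNReal.toReal_add hfin1 hfin2, ENNReal.toReal_mul, ENNReal.toReal_mul, ENNReal.toReal_mul,
    ENNReal.toReal_ofReal (by norm_num), ENNReal.toReal_ofReal (by norm_num)] at hr
  have hR0 : 0 ≤ R.toReal := ENNReal.toReal_nonneg
  have hreal : 7 / 20 ≤ R.toReal := by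
    by_contra hlt
    push Not at hlt
    nlinarith
  have h720 : (7 / 20 : ℝ≥0∞) = ENNReal.ofReal (7 / 20) := by
    rw [ENNReal.ofReal_div_of_pos (by norm_num)]
    simp
  rw [h720]
  exact (ENNReal.ofReal_le_iff_le_toReal hRt).2 hreal

/-- A tetrahedron and any finite covering by cylinders: both forms of the `7/20` bound. -/
theorem tetra_all_both (hdim : Module.finrank ℝ E = 3) (μ : Measure E) [μ.IsAddHaarMeasure]
    {p : Fin 4 → E} (hp : AffineIndependent ℝ p) {ι : Type*} [Fintype ι]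
    (d : ι → E) (hd1 : ∀ i, ‖d i‖ = 1)
    (B : ι → Set E) (hB : ∀ i, ∀ x ∈ B i, ⟪x, d i⟫_ℝ = 0)
    (hcov : convexHull ℝ (range p) ⊆ ⋃ i, {x | ∃ b ∈ B i, ∃ s : ℝ, x = b + s • d i}) :
    (7 / 20 : ℝ≥0∞) ≤ ∑ i, (μHE[2] : Measure E) (B i) /
        (μHE[2] : Measure E) ((fun x => x - ⟪x, d i⟫_ℝ • d i) '' convexHull ℝ (range p))
      ∧ (7 / 20 : ℝ≥0∞) * (⨅ w : {w : E // ‖w‖ = 1}, (μHE[2] : Measure E)
          ((fun x => x - ⟪x, (w : E)⟫_ℝ • (w : E)) '' convexHull ℝ (range p)))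
        ≤ ∑ i, (μHE[2] : Measure E) (B i) := by
  have key := tetra_all hdim μ hp d hd1 B hB hcov
  obtain ⟨hK, hKc, hKi⟩ := tetra_body hdim hp
  exact ⟨key, amin_of_ratio hdim hK hKc hKi d hd1 B _ key⟩

end Vale.Agent.Lib.P243
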